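import Vale.Agent.P224.R2.H742.OddFA

/-!
Final assembly in odd dimension: the near law gives the sharp volume bound.
-/

namespace Vale.Agent.P224.R2.H742

open MeasureTheory Set Filter Function Real Module Vale.Agent.P224 Vale.Agent.P224.FV
  Vale.Agent.P224.R2.H925 Vale.Agent.P224.R2.H582 Vale.Agent.P224.R2.H728
open Vale.Agent.P224.SM2
open scoped RealInnerProductSpace Topology ContDiff Manifold ENNReal

set_option linter.unusedSectionVars false

section

variable {V W M : Type*} [NormedAddCommGroup V] [InnerProductSpace ℝ V] [FiniteDimensional ℝ V]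
  [NormedAddCommGroup W] [InnerProductSpace ℝ W] [FiniteDimensional ℝ W]
  [TopologicalSpace M] [ChartedSpace V M]
  [MeasurableSpace V] [BorelSpace V] [MeasurableSpace M] [BorelSpace M]
  [MeasurableSpace W] [BorelSpace W]
  [IsManifold 𝓘(ℝ, V) ∞ M] [CompactSpace M] [T2Space M] [ConnectedSpace M]

/-- the near law in odd dimension: the defect absorbs the mean normal term and the two squares of
the spectral inequality -/
def NearAtOdd (V : Type*) {W M : Type*} [NormedAddCommGroup V] [InnerProductSpace ℝ V]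
    [FiniteDimensional ℝ V] [MeasurableSpace V] [BorelSpace V] [NormedAddCommGroup W]
    [InnerProductSpace ℝ W] [TopologicalSpace M] [ChartedSpace V M] [MeasurableSpace M]
    (F N : M → W) (d ε0 r0 W1 W2 : ℝ) (u : St) : Prop :=
  ∃ B : ℝ → ℝ, IntervalIntegrable B volume 0 1 ∧
    (∀ T ∈ Ioo (0 : ℝ) 1, B T
      ≤ DS ((volM V F).prod (volM V F)) (finrank ℝ V) (SM2.pr F N) d u T) ∧
    finrank ℝ V * r0 * ‖∫ x, N x ∂(volM V F)‖ ^ 2
      + -(2 * d * ε0 / (finrank ℝ V + 1)) * (W1 * E2 (volM V F) F N (Qk d)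
        + W2 * ((finrank ℝ V + 1) / 2 * E2 (volM V F) F N Xk)) ≤ ∫ T in (0 : ℝ)..1, B T

lemma oddRatio_le_two {h : ℕ} (hh : 1 ≤ h) : oddRatio h ≤ 2 := by
  refine oddRatio_le (K := 1) (by norm_num) hh ?_
  have h3 := Real.exp_bound' (x := 4 / 9) (by norm_num) (by norm_num) (n := 3) (by norm_num)
  have h4 : Real.exp (4 / 9) ≤ 4 := by
    refine h3.trans ?_
    norm_num [Finset.sum_range_succ, Nat.factorial]
  have h5 : (1 : ℝ) / (2 * (1 : ℕ) + 1) + 1 / (2 * (1 : ℕ) + 1) ^ 2 = 4 / 9 := by norm_num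
  rw [h5]
  linarith

/-- **Final assembly, odd dimension.** -/
theorem odd_final {h : ℕ} (hh : 1 ≤ h) (hV : finrank ℝ V = 2 * h + 1)
    (hW : finrank ℝ W = finrank ℝ V + 2)
    {F : M → W} (hF : SphImm V F) (hmin : ∀ x n, IsUnitNormal V F x n → meanCurv V F x n = 0)
    (hng : ¬ ∃ a : W, a ≠ 0 ∧ ∀ x, ⟪F x, a⟫ = 0)
    {d r ε0 r0 c0 lam W1 W2 : ℝ} {u : St} (hr : 0 < r)
    (hr2 : r ^ 2 = (finrank ℝ V : ℝ) ^ 2 - 1) (hd : d = 2 / r)
    (hs : Sys (finrank ℝ V) d u) (h0 : Lim0 (finrank ℝ V) d u ε0 r0 c0)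
    (h1 : Lim1 (finrank ℝ V) u lam) (hlam : 0 ≤ lam) (hε0 : ε0 ≤ 0)
    (hc : 0 < c0 + 2 * d * ε0 / (finrank ℝ V + 1) * Jkl (finrank ℝ V) r)
    (hW1 : ((finrank ℝ V : ℝ) + 1) * (2 * finrank ℝ V - 1) ≤ r * W1) (hW2 : 7 ≤ r * W2)
    (hcase : ∀ N : M → W, ContMDiff 𝓘(ℝ, V) 𝓘(ℝ, W) ∞ N → (∀ x, IsUnitNormal V F x (N x)) →
      Injective F → ‖∫ x, N x ∂(volM V F)‖ ≤ sphereVol (finrank ℝ V) →
      (volM V F).real univ < oddRatio h * sphereVol (finrank ℝ V) →
      6 / 5 * sphereVol (finrank ℝ V) ≤ (volM V F).real univ →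
      NearAtOdd V F N d ε0 r0 W1 W2 u) :
    ENNReal.ofReal (leastClifford (finrank ℝ V)) ≤ volM V F univ := by
  have hm : 0 < finrank ℝ V := by omega
  have hm1 : 1 ≤ finrank ℝ V := hm
  have hfin : IsFiniteMeasure (volM V F) := isFiniteMeasure_volM hF
  have hne : Nonempty M := inferInstance
  set A := (volM V F).real univ with hA
  set S := sphereVol (finrank ℝ V) with hS
  have hS0 : 0 < S := sphereVol_pos' _
  have hle : leastClifford (finrank ℝ V) = oddRatio h * S := by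
    rw [RIG.leastClifford_eq (by omega), hS, hV, ← clifford_odd]
    congr 1
    omega
  have hconv : ∀ c : ℝ, c ≤ A → ENNReal.ofReal c ≤ volM V F univ := fun c hc =>
    ENNReal.ofReal_le_of_le_toReal hc
  refine hconv _ ?_
  by_cases hinj : Injective F
  swap
  · have h2 := TwoSide.two_le (by omega) hW hF hmin hinj
    have h3 : oddRatio h * S ≤ 2 * S := mul_le_mul_of_nonneg_right (oddRatio_le_two hh) hS0.le
    linarith
  by_contra hlt
  rw [not_le] at hlt
  have h65 : 6 / 5 * S ≤ A := by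
    have h1 := (PM.main_frac (by omega) hW hF hmin hng).1
    have h2 := ENNReal.toReal_mono (measure_ne_top _ _) h1
    rwa [ENNReal.toReal_ofReal (by positivity)] at h2
  have hA0 : 0 < A := by linarith
  obtain ⟨N, hNs, hN, htop⟩ := TP.exists_normal_le hW hm hF hinj
  -- the right orientation
  have hnz : NeZero (volM V F) := ⟨fun h => by
    have : A = 0 := by rw [hA, h]; simp
    linarith⟩
  have hdim : finrank ℝ W = (finrank ℝ V + 2) := hW
  let b := stdOrthonormalBasis ℝ W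
  have hT0 : T0Data (nrm (volM V F)) (finrank ℝ V) (co b F) (co b N) :=
    t0Data_of_min hm1 hW hF hmin hNs hN b
  obtain ⟨N', hN'eq, hsp⟩ := spectral_E2 b hT0 (by omega) (by
    rw [Fintype.card_fin, hW, hV]
    exact ⟨h + 1, by ring⟩) hr hr2 hd hW1 hW2
  have hN's : ContMDiff 𝓘(ℝ, V) 𝓘(ℝ, W) ∞ N' := by
    rcases hN'eq with h2 | h2
    · rw [h2]; exact hNs
    · rw [h2]; exact hNs.neg
  have hN' : ∀ x, IsUnitNormal V F x (N' x) := by
    rcases hN'eq with h2 | h2
    · rw [h2]; exact hN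
    · rw [h2]
      exact fun x => ⟨by rw [norm_neg]; exact (hN x).1, by rw [inner_neg_right, (hN x).2.1, neg_zero],
        fun i => by rw [inner_neg_right, (hN x).2.2 i, neg_zero]⟩
  have htop' : ‖∫ x, N' x ∂(volM V F)‖ ≤ S := by
    rcases hN'eq with h2 | h2
    · rw [h2]; exact htop
    · rw [h2, integral_neg, norm_neg]
      exact htop
  obtain ⟨B, hBi, hB, hBu⟩ := hcase N' hN's hN' hinj htop' (by rw [← hle]; exact hlt) h65
  -- the law
  have hmR : (3 : ℝ) ≤ finrank ℝ V := by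
    have : 3 ≤ finrank ℝ V := by omega
    exact_mod_cast this
  have hd2 : d ^ 2 < 4 := by
    rw [hd, div_pow, hr2, div_lt_iff₀ (by nlinarith)]
    nlinarith
  have hd0 : 0 < d := by rw [hd]; positivity
  have hlaw := adapted_defect (by omega) hW hF hmin hN's hN' hinj hd2 hs h0 h1 hlam hBi hB
  have hP := PL_of_min hW hF hmin hN's hN'
  have hcN : Continuous N' := hN's.continuous
  rw [int_f0K hP (hcN.integrable_of_hasCompactSupport (HasCompactSupport.of_compactSpace N'))]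
    at hlaw
  set X : ℝ := 2 * d * ε0 / (finrank ℝ V + 1) with hX
  have hX0 : 0 ≤ -X := by
    rw [hX, neg_nonneg]
    apply div_nonpos_of_nonpos_of_nonneg _ (by positivity)
    exact mul_nonpos_of_nonneg_of_nonpos (by positivity) hε0
  have h5 := mul_le_mul_of_nonneg_left hsp hX0
  -- the flux ratio
  have hCD := CD_of (k := h + 1) (l := h) (by omega) hh (m := 2 * h + 1) (by ring)
  have hr2' : r ^ 2 = ((2 * h + 1 : ℕ) : ℝ) ^ 2 - 1 := by rw [hr2, hV]
  have hhR : (1 : ℝ) ≤ h := by exact_mod_cast hh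
  have hsq : √(((h + 1 : ℕ) : ℝ) * (h : ℕ)) = r / 2 := by
    rw [show ((h + 1 : ℕ) : ℝ) * (h : ℕ) = (r / 2) ^ 2 by
      rw [div_pow, hr2']; push_cast; ring]
    exact Real.sqrt_sq (by positivity)
  have hdd : (2 : ℝ) / r = (((h + 1 : ℕ) : ℝ) / (2 * h + 1 : ℕ) - ((h : ℕ) : ℝ) / (2 * h + 1 : ℕ))
      / (√((h + 1 : ℕ) * (h : ℕ)) / (2 * h + 1 : ℕ)) := by
    rw [hsq]
    have : ((2 * h + 1 : ℕ) : ℝ) ≠ 0 := by positivity
    push_cast at this ⊢
    field_simp
    ring
  rw [hV] at hs h0 h1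
  rw [hd] at hs h0 hd2
  have hratio := hCD.ratio (by omega) hdd hd2 hs h0 h1
  rw [F0C_eq hh hr hr2'] at hratio
  have hcl : cliffordVol (2 * h + 1) (h + 1) = oddRatio h * S := by
    have h6 := RIG.cliffordVol_symm (m := 2 * h + 1) (k := h) hh (by omega)
    rw [show 2 * h + 1 - h = h + 1 by omega] at h6
    rw [h6, clifford_odd, hS, hV]
  rw [hcl] at hratio
  have hVR : (finrank ℝ V : ℝ) = ((2 * h + 1 : ℕ) : ℝ) := by rw [hV]
  have hS' : sphereVol (2 * h + 1) = S := by rw [hS, hV]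
  rw [hS', ← hVR, ← hd, ← hX] at hratio
  -- conclusion
  set F0 : ℝ := c0 + X * Jkl (finrank ℝ V) r with hF0
  have hfin2 : F0 * (oddRatio h * S) * A ≤ F0 * A ^ 2 := by
    rw [hratio]
    have e1 : F0 * A ^ 2 = c0 * A ^ 2 + X * (Jkl (finrank ℝ V) r * A ^ 2) := by
      rw [hF0]; ring
    rw [e1]
    have e2 : -X * (Jkl (finrank ℝ V) r * A ^ 2 - E2 (volM V F) F N' (JK (finrank ℝ V) d))
        = X * E2 (volM V F) F N' (JK (finrank ℝ V) d) - X * (Jkl (finrank ℝ V) r * A ^ 2) := by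
      ring
    rw [e2] at h5
    have e3 : 2 * lam * S * A = 2 * lam * (S * A) := by ring
    rw [e3]
    linarith
  have h7 : F0 * (oddRatio h * S * A) ≤ F0 * (A * A) := by
    calc F0 * (oddRatio h * S * A) = F0 * (oddRatio h * S) * A := by ring
      _ ≤ F0 * A ^ 2 := hfin2
      _ = F0 * (A * A) := by ring
  have h8 := le_of_mul_le_mul_left h7 hc
  have h9 := le_of_mul_le_mul_right h8 hA0
  rw [hle] at hlt
  linarith

end

end Vale.Agent.P224.R2.H742
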