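import Vale.Agent.P224.R2.H742.QT

/-!
The third moments of the square of `c - s - δ (t + p)` at level zero.
-/

namespace Vale.Agent.P224.R2.H742

open MeasureTheory Set Filter Function Real Finset Vale.Agent.P224.R2.H728

set_option linter.unusedSectionVars false

section

variable {ι Ω : Type*} [Fintype ι] [DecidableEq ι] [MeasurableSpace Ω] {μ : Measure Ω}
  {m : ℝ} {x N : ι → Ω → ℝ}

lemma tc_self_nonneg (A : ι → ι → ι → ℝ) : 0 ≤ tc A A :=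
  Finset.sum_nonneg fun _ _ => Finset.sum_nonneg fun _ _ => Finset.sum_nonneg fun _ _ =>
    mul_self_nonneg _

/-- the Gram form of three tensors is nonnegative -/
lemma tc_quad (A B C : ι → ι → ι → ℝ) (k l j : ℝ) :
    0 ≤ k ^ 2 * tc A A + l ^ 2 * tc B B + j ^ 2 * tc C C + 2 * k * l * tc A B
      + 2 * k * j * tc A C + 2 * l * j * tc B C := by
  have h := tc_self_nonneg fun a b c => k * A a b c + l * B a b c + j * C a b c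
  refine h.trans (le_of_eq ?_)
  unfold tc
  simp only [Finset.mul_sum, ← Finset.sum_add_distrib]
  exact Finset.sum_congr rfl fun a _ => Finset.sum_congr rfl fun b _ =>
    Finset.sum_congr rfl fun c _ => by ring

/-- the linear form -/
noncomputable def qf (δ : ℝ) (x N : ι → Ω → ℝ) (q : Ω × Ω) : ℝ :=
  ip N N q.1 q.2 - ip x x q.1 q.2 - δ * (ip x N q.1 q.2 + ip N x q.1 q.2)

/-- the second moment of the linear form -/
noncomputable def Q2 (μ : Measure Ω) (δ : ℝ) (x N : ι → Ω → ℝ) : ℝ :=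
  ∫ q, qf δ x N q ^ 2 ∂(μ.prod μ)

theorem int_s_q2 (h : T0Data μ m x N) (hm : m + 1 ≠ 0) (δ : ℝ) :
    ∫ q, ip x x q.1 q.2 * qf δ x N q ^ 2 ∂(μ.prod μ)
      = (((m + 2) / 2) ^ 2 + 1 - 2 * ((m + 2) / 2) * δ ^ 2) * tc (m3 μ x x x) (m3 μ x x x)
        + 4 * δ * ((m + 2) / 2 + 1) * tc (m3 μ x x x) (m3 μ N x x)
        - (2 - 2 * δ ^ 2) * tc (m3 μ N x x) (m3 μ N x x)
        - 2 * δ ^ 2 * ((∑ a, m1 μ N a ^ 2) / (m + 1)) := by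
  have e := int_cubic h hm ![1, -2, 1, -2 * δ, -2 * δ, 2 * δ, 2 * δ, δ ^ 2, δ ^ 2, 2 * δ ^ 2,
    0, 0, 0, 0, 0, 0, 0, 0, 0, 0]
  have e1 : (fun q : Ω × Ω => ip x x q.1 q.2 * qf δ x N q ^ 2)
      = fun q => ∑ i, (![1, -2, 1, -2 * δ, -2 * δ, 2 * δ, 2 * δ, δ ^ 2, δ ^ 2, 2 * δ ^ 2,
    0, 0, 0, 0, 0, 0, 0, 0, 0, 0] : Fin 20 → ℝ) i * mon x N q i := by
    funext q
    simp [Fin.sum_univ_succ, mon, qf]
    ring
  rw [e1, e]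
  simp [Fin.sum_univ_succ, val]
  ring

theorem int_w_q2 (h : T0Data μ m x N) (hm : m + 1 ≠ 0) (δ : ℝ) :
    ∫ q, (ip x N q.1 q.2 + ip N x q.1 q.2) * qf δ x N q ^ 2 ∂(μ.prod μ)
      = 2 * (-((m + 2) / 2 - δ ^ 2) * tc (m3 μ x x x) (m3 μ N N N)
        + (2 * ((m + 2) / 2) + 1 - 3 * δ ^ 2 * ((m + 2) / 2)) * tc (m3 μ x x x) (m3 μ N x x)
        - 2 * δ * tc (m3 μ N x x) (m3 μ N N N)
        - 2 * δ * (((m + 2) / 2) ^ 2 + (m + 2) / 2) * tc (m3 μ x x x) (m3 μ x x x)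
        + 2 * δ * tc (m3 μ N x x) (m3 μ N x x)
        - 2 * δ * ((∑ a, m1 μ N a ^ 2) / (m + 1))) := by
  have e := int_cubic h hm ![0, 0, 0, -2, -2, 1, 1, 2 * δ, 2 * δ, 4 * δ,
    1, 1, -2 * δ, -2 * δ, -4 * δ, δ ^ 2, δ ^ 2, 3 * δ ^ 2, 3 * δ ^ 2, 0]
  have e1 : (fun q : Ω × Ω => (ip x N q.1 q.2 + ip N x q.1 q.2) * qf δ x N q ^ 2)
      = fun q => ∑ i, (![0, 0, 0, -2, -2, 1, 1, 2 * δ, 2 * δ, 4 * δ,
    1, 1, -2 * δ, -2 * δ, -4 * δ, δ ^ 2, δ ^ 2, 3 * δ ^ 2, 3 * δ ^ 2, 0] : Fin 20 → ℝ) i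
        * mon x N q i := by
    funext q
    simp [Fin.sum_univ_succ, mon, qf]
    ring
  rw [e1, e]
  simp [Fin.sum_univ_succ, val]
  ring

theorem int_q3 (h : T0Data μ m x N) (hm : m + 1 ≠ 0) (δ : ℝ) :
    ∫ q, qf δ x N q ^ 3 ∂(μ.prod μ)
      = tc (m3 μ N N N) (m3 μ N N N)
        - (3 * ((m + 2) / 2) ^ 2 + 1 - 6 * δ ^ 2 * ((m + 2) / 2) * ((m + 2) / 2 + 1))
          * tc (m3 μ x x x) (m3 μ x x x)
        + (3 - 6 * δ ^ 2) * tc (m3 μ N x x) (m3 μ N x x)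
        - 6 * δ * (2 * ((m + 2) / 2) + 1 - δ ^ 2 * ((m + 2) / 2))
          * tc (m3 μ x x x) (m3 μ N x x)
        + (6 * δ * ((m + 2) / 2) - 2 * δ ^ 3) * tc (m3 μ x x x) (m3 μ N N N)
        + 6 * δ ^ 2 * tc (m3 μ N x x) (m3 μ N N N)
        + 6 * δ ^ 2 * ((∑ a, m1 μ N a ^ 2) / (m + 1)) := by
  have e := int_cubic h hm ![-3, 3, -1, 6 * δ, 6 * δ, -3 * δ, -3 * δ, -3 * δ ^ 2, -3 * δ ^ 2,
    -6 * δ ^ 2, -3 * δ, -3 * δ, 3 * δ ^ 2, 3 * δ ^ 2, 6 * δ ^ 2, -δ ^ 3, -δ ^ 3, -3 * δ ^ 3,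
    -3 * δ ^ 3, 1]
  have e1 : (fun q : Ω × Ω => qf δ x N q ^ 3)
      = fun q => ∑ i, (![-3, 3, -1, 6 * δ, 6 * δ, -3 * δ, -3 * δ, -3 * δ ^ 2, -3 * δ ^ 2,
    -6 * δ ^ 2, -3 * δ, -3 * δ, 3 * δ ^ 2, 3 * δ ^ 2, 6 * δ ^ 2, -δ ^ 3, -δ ^ 3, -3 * δ ^ 3,
    -3 * δ ^ 3, 1] : Fin 20 → ℝ) i * mon x N q i := by
    funext q
    simp [Fin.sum_univ_succ, mon, qf]
    ring
  rw [e1, e]
  simp [Fin.sum_univ_succ, val]
  ring

lemma abs_ip_le {f g : ι → Ω → ℝ} {x y : Ω} (hf : ∑ a, f a x ^ 2 = 1) (hg : ∑ a, g a y ^ 2 = 1) :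
    |ip f g x y| ≤ 1 := by
  have h := Finset.sum_mul_sq_le_sq_mul_sq Finset.univ (fun a => f a x) fun a => g a y
  rw [hf, hg] at h
  have : ip f g x y ^ 2 ≤ 1 := by
    unfold ip
    linarith
  exact abs_le_one_iff_mul_self_le_one.2 (by nlinarith)

lemma bm_qf (h : T0Data μ m x N) (δ : ℝ) : BM (qf δ x N) :=
  ((BM.ip2 h.bN h.bN).sub (BM.ip2 h.bx h.bx)).sub
    (((BM.ip2 h.bx h.bN).add (BM.ip2 h.bN h.bx)).const_mul δ)

theorem q3_le (h : T0Data μ m x N) {δ : ℝ} (hδ : 0 ≤ δ) :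
    ∫ q, qf δ x N q ^ 3 ∂(μ.prod μ) ≤ (2 + 2 * δ) * Q2 μ δ x N := by
  have := h.prob
  have b := bm_qf h δ
  unfold Q2
  rw [← integral_const_mul]
  have i3 : Integrable (fun q => qf δ x N q ^ 3) (μ.prod μ) := by
    have := ((b.mul b).mul b).int (μ := μ.prod μ)
    refine this.congr (Eventually.of_forall fun q => by simp only; ring)
  have i2 : Integrable (fun q => qf δ x N q ^ 2) (μ.prod μ) := by
    have := (b.mul b).int (μ := μ.prod μ)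
    refine this.congr (Eventually.of_forall fun q => by simp only; ring)
  refine integral_mono i3 (i2.const_mul _) fun q => ?_
  simp only
  have h1 := abs_le.1 (abs_ip_le (h.uN q.1) (h.uN q.2))
  have h2 := abs_le.1 (abs_ip_le (h.ux q.1) (h.ux q.2))
  have h3 := abs_le.1 (abs_ip_le (h.ux q.1) (h.uN q.2))
  have h4 := abs_le.1 (abs_ip_le (h.uN q.1) (h.ux q.2))
  have h5 : qf δ x N q ≤ 2 + 2 * δ := by
    unfold qf
    nlinarith [mul_nonneg hδ (show 0 ≤ 2 + (ip x N q.1 q.2 + ip N x q.1 q.2) by linarith)]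
  nlinarith [mul_nonneg (sq_nonneg (qf δ x N q)) (sub_nonneg.2 h5)]

/-- a lower bound of the mean of `s q ^ 2` -/
theorem s_q2_ge (h : T0Data μ m x N) (hm : 16 ≤ m) {δ : ℝ} (hδ : 0 ≤ δ) (hδ1 : δ ≤ 1 / 16) :
    -(2 + 3 * δ ^ 2) * tc (m3 μ N x x) (m3 μ N x x) - 2 * δ ^ 2 * ((∑ a, m1 μ N a ^ 2) / (m + 1))
      ≤ ∫ q, ip x x q.1 q.2 * qf δ x N q ^ 2 ∂(μ.prod μ) := by
  rw [int_s_q2 h (by linarith)]
  set H : ℝ := (m + 2) / 2 with hH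
  have hH9 : 9 ≤ H := by rw [hH]; linarith
  have hXX := tc_self_nonneg (m3 μ x x x)
  have h1 := tc_quad (m3 μ x x x) (m3 μ N x x) (m3 μ N x x) (H + 1) (5 / 2 * δ) 0
  have hδ2 : δ ^ 2 ≤ 1 / 256 := by nlinarith
  have h2 : 4 / 5 * (H + 1) ^ 2 ≤ H ^ 2 + 1 - 2 * H * δ ^ 2 := by nlinarith
  have h3 := mul_le_mul_of_nonneg_right h2 hXX
  nlinarith [h1, h3]

end

end Vale.Agent.P224.R2.H742
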