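import Vale.Agent.P224.R2.H742.IfO3
import Vale.Agent.P224.R2.H742.OddFA2
import Vale.Agent.P224.R2.H742.QT2
import Vale.Agent.P224.R2.H582.LawT

/-!
The near law in odd dimension in terms of the one point tensors.
-/

namespace Vale.Agent.P224.R2.H742

open MeasureTheory Set Filter Function Real Module Vale.Agent.P224 Vale.Agent.P224.FV
  Vale.Agent.P224.R2.H925 Vale.Agent.P224.R2.H582 Vale.Agent.P224.R2.H728
open Vale.Agent.P224.SM2 Vale.Agent.P224.R2.H820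
open scoped RealInnerProductSpace Topology ContDiff Manifold ENNReal

set_option linter.unusedSectionVars false

/-- `m (T y + m r)` for the weights of the even flow -/
noncomputable def PMo (m : ℕ) (T : ℝ) : ℝ := m * (T * yM m T + m * rM m T)

/-- the conditions of the weights at one level, below the node -/
structure OddAt (m : ℕ) (d K θ κ g1 : ℝ) (ξ lam l' : ℝ → ℝ) (u : St) (T : ℝ) : Prop where
  lm0 : 0 ≤ lam T
  l0 : 0 ≤ l' T
  x0 : 0 ≤ ξ T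
  ho : 2 * (1 / √(1 - T ^ 2)) * (m + 3) * d * -u.ρ T ≤ m * (m + 1) * u.r T
  ha : K * (1 - θ) * H582.al m T (yM m T) (rM m T) (lam T)
    ≤ aO m d T (1 / √(1 - T ^ 2)) (l' T) (u.y T) (u.r T) (-u.ρ T) (-u.ε T)
  hb : bO m d T (1 / √(1 - T ^ 2)) (u.e T) (u.r T) (-u.ρ T) (-u.ε T)
    ≤ K * (1 - θ) * (H582.be m κ T (eM m T) (rM m T) + ξ T * PMo m T)
  hg : gO m d T (1 / √(1 - T ^ 2)) (u.r T) (-u.ρ T)
    ≤ K * (1 + g1) * ((m + 1) * (m + 2) * T ^ 2 * rM m T / (1 - T ^ 2))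
  h0 : 0 ≤ H582.al m T (yM m T) (rM m T) (lam T)
  hc : (m + 3) * (H582.be m κ T (eM m T) (rM m T) + ξ T * PMo m T)
    ≤ (m + 1) * H582.al m T (yM m T) (rM m T) (lam T) * (1 - T)

/-- the conditions of the weights at one level, above the node -/
structure OddUp (m : ℕ) (d K g1 : ℝ) (l' : ℝ → ℝ) (u : St) (T : ℝ) : Prop where
  l0 : 0 ≤ l' T
  ho : 2 * (1 / √(1 - T ^ 2)) * (m + 3) * d * -u.ρ T ≤ m * (m + 1) * u.r T
  ha : 0 ≤ aO m d T (1 / √(1 - T ^ 2)) (l' T) (u.y T) (u.r T) (-u.ρ T) (-u.ε T)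
  hb : bO m d T (1 / √(1 - T ^ 2)) (u.e T) (u.r T) (-u.ρ T) (-u.ε T)
    ≤ aO m d T (1 / √(1 - T ^ 2)) (l' T) (u.y T) (u.r T) (-u.ρ T) (-u.ε T) * (1 - T)
  hg : gO m d T (1 / √(1 - T ^ 2)) (u.r T) (-u.ρ T)
    ≤ K * (1 + g1) * ((m + 1) * (m + 2) * T ^ 2 * rM m T / (1 - T ^ 2))

/-- the signs of the functions of the flow -/
structure OddSgn (u : St) : Prop where
  e0 : ∀ T ∈ Ioo (0 : ℝ) 1, 0 ≤ u.e T
  ρ0 : ∀ T ∈ Ioo (0 : ℝ) 1, u.ρ T ≤ 0
  ε0 : ∀ T ∈ Ioo (0 : ℝ) 1, u.ε T ≤ 0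

/-- the moments of the square of the linear form -/
noncomputable def qm {ι Ω : Type*} [Fintype ι] [MeasurableSpace Ω]
    (μ : Measure Ω) (δ : ℝ) (x N : ι → Ω → ℝ) (j : ℕ) : ℝ :=
  ∫ q, ip x x q.1 q.2 ^ j * qf δ x N q ^ 2 ∂(μ.prod μ)

/-- the moment with the sum of the mixed products -/
noncomputable def qw {ι Ω : Type*} [Fintype ι] [MeasurableSpace Ω]
    (μ : Measure Ω) (δ : ℝ) (x N : ι → Ω → ℝ) : ℝ :=
  ∫ q, (ip x N q.1 q.2 + ip N x q.1 q.2) * qf δ x N q ^ 2 ∂(μ.prod μ)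

section

variable {X : Type*} [MeasurableSpace X] {E : Type*} [NormedAddCommGroup E]
  [InnerProductSpace ℝ E] {μ : Measure X} [IsFiniteMeasure μ] [NeZero μ] {p n : X → E}
  {ι : Type*} [Fintype ι] [DecidableEq ι] (b : OrthonormalBasis ι ℝ E)

lemma E2_qm (d : ℝ) (j : ℕ) : E2 μ p n (fun k => k.1 ^ j * Qk d k)
    = μ.real univ ^ 2 * qm (nrm μ) (d / 2) (co b p) (co b n) j := by
  rw [E2_nrm]
  congr 1
  refine integral_congr_ae (Eventually.of_forall fun q => ?_)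
  unfold qf Qk SM2.pr
  simp only [ip_co]
  ring

lemma E2_qw (d : ℝ) : E2 μ p n (fun k => (k.2.1 + k.2.2.1) * Qk d k)
    = μ.real univ ^ 2 * qw (nrm μ) (d / 2) (co b p) (co b n) := by
  rw [E2_nrm]
  congr 1
  refine integral_congr_ae (Eventually.of_forall fun q => ?_)
  unfold qf Qk SM2.pr
  simp only [ip_co]
  ring

end

lemma contOn_PMo {m : ℕ} (h4 : 4 ≤ m) : ContinuousOn (PMo m) (Icc 0 1) := by
  unfold PMo
  exact continuousOn_const.mul ((continuous_id.continuousOn.mul (contOn_yM h4)).add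
    (continuousOn_const.mul (contOn_rM h4)))

lemma PMo_nonneg {m : ℕ} {T : ℝ} (hT : 0 ≤ T) (hy : 0 ≤ yM m T) (hr : 0 ≤ rM m T) :
    0 ≤ PMo m T := by
  unfold PMo
  positivity

lemma ker_neg_le_one {T σ : ℝ} (hT : 0 ≤ T) (hσ : 0 ≤ σ) (q : ℕ) : SM2.ker T q (-σ) ≤ 1 := by
  unfold SM2.ker
  have h1 : 1 ≤ 1 - T * -σ := by nlinarith [mul_nonneg hT hσ]
  exact inv_le_one_of_one_le₀ (one_le_pow₀ h1)

end Vale.Agent.P224.R2.H742
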