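import Vale.Agent.P224.R2.H742.SO6
import Vale.Agent.P224.R2.H535.OddG
import Vale.Agent.P224.R2.H535.OddDef

/-!
The law of the box in odd dimension for large dimensions, from the constant of the box and the tail.
-/

namespace Vale.Agent.P224.R2.H742

open MeasureTheory Set Filter Function Real Module Matrix Vale.Agent.P224 Vale.Agent.P224.FV
  Vale.Agent.P224.R2.H925 Vale.Agent.P224.R2.H582 Vale.Agent.P224.R2.H728
open Vale.Agent.P224.SM2 Vale.Agent.P224.R2.H820 Vale.Agent.P224.R2.H424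
  Vale.Agent.P224.R2.H494.ZT Vale.Agent.P224.R2.H355 Vale.Agent.P224.R2.H176
open Vale.Agent.P224.R2.H662 (dop dop_symm)
open Vale.Agent.P224.R2.H535 (lamO BoxLaw)
open scoped RealInnerProductSpace Topology ContDiff Manifold ENNReal

set_option linter.unusedSectionVars false

lemma isLamO (m : ℕ) : IsLamO m (lamO m) := by
  refine ⟨fun T _ h => ?_, fun T _ h => ?_⟩
  · unfold lamO
    rw [if_pos h]
  · unfold lamO
    rw [if_neg (not_le.2 h)]

/-- the constant of the box -/
def BoxC (V : Type*) {W M : Type*} [NormedAddCommGroup V] [InnerProductSpace ℝ V]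
    [FiniteDimensional ℝ V] [MeasurableSpace V] [BorelSpace V] [NormedAddCommGroup W]
    [InnerProductSpace ℝ W] [FiniteDimensional ℝ W] [MeasurableSpace W] [BorelSpace W]
    [TopologicalSpace M] [ChartedSpace V M] [MeasurableSpace M]
    (F : M → W) (ν c0 : ℝ) : Prop :=
  ∀ (N : M → W) (b : OrthonormalBasis (Fin (finrank ℝ W)) ℝ W) (j : Fin (finrank ℝ W) → ℝ),
    NearData V F N b j ν →
    hh (nrm (volM V F)) (Matrix.diagonal j) (co b F) (co b N) ≤ 1000 / (finrank ℝ V : ℝ) ^ 3 →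
    √(fro (De (nrm (volM V F)) (co b F) (co b N))) ≤ 6 / (finrank ℝ V : ℝ) →
    c0 * hh (nrm (volM V F)) (diagonal j) (co b F) (co b N)
      ≤ ∫ T in (0 : ℝ)..(2 / 25), H460.wq (469 / 1000) (201 / 200) (181 / 50) T
        * (H460.cw (finrank ℝ V) T
          * H460.LL (nrm (volM V F)) (finrank ℝ V) F (fun x => N x - dop b j (F x)) T)

/-- the tail in the box -/
def TailC (V : Type*) {W M : Type*} [NormedAddCommGroup V] [InnerProductSpace ℝ V]
    [FiniteDimensional ℝ V] [MeasurableSpace V] [BorelSpace V] [NormedAddCommGroup W]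
    [InnerProductSpace ℝ W] [FiniteDimensional ℝ W] [MeasurableSpace W] [BorelSpace W]
    [TopologicalSpace M] [ChartedSpace V M] [MeasurableSpace M] [BorelSpace M]
    (F : M → W) (ν rl : ℝ) : Prop :=
  ∀ (N : M → W) (b : OrthonormalBasis (Fin (finrank ℝ W)) ℝ W) (j : Fin (finrank ℝ W) → ℝ),
    NearData V F N b j ν →
    hh (nrm (volM V F)) (Matrix.diagonal j) (co b F) (co b N) ≤ 1000 / (finrank ℝ V : ℝ) ^ 3 →
    √(fro (De (nrm (volM V F)) (co b F) (co b N))) ≤ 6 / (finrank ℝ V : ℝ) →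
    H484.AbsTail (volM V F) (finrank ℝ V) F N (lamO (finrank ℝ V))
      (rl * hh (nrm (volM V F)) (diagonal j) (co b F) (co b N))

section

variable {V W M : Type*} [NormedAddCommGroup V] [InnerProductSpace ℝ V] [FiniteDimensional ℝ V]
  [NormedAddCommGroup W] [InnerProductSpace ℝ W] [FiniteDimensional ℝ W]
  [TopologicalSpace M] [ChartedSpace V M]
  [MeasurableSpace V] [BorelSpace V] [MeasurableSpace M] [BorelSpace M]
  [MeasurableSpace W] [BorelSpace W] [IsManifold 𝓘(ℝ, V) ∞ M]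
  [CompactSpace M] [T2Space M]

/-- **the law of the box in odd dimension for large dimensions** -/
theorem boxLaw_S [Nonempty M] (hm : 400 ≤ finrank ℝ V) (hW : finrank ℝ W = finrank ℝ V + 2)
    {F : M → W} (hF : SphImm V F) (hmin : ∀ x n, IsUnitNormal V F x n → meanCurv V F x n = 0)
    {ν rl c0 : ℝ} (hT : TailC V F ν rl) (hC : BoxC V F ν c0)
    (hrel : 201 / 200 * rl + 1 / 2000 ≤ c0) (hrl : 0 ≤ rl) :
    BoxLaw V F ν (1000 / (finrank ℝ V : ℝ) ^ 3) (6 / (finrank ℝ V : ℝ)) (finrank ℝ V) := by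
  have hsc : SecondCountableTopology M := ChartedSpace.secondCountable_of_sigmaCompact V M
  have hmR : (400 : ℝ) ≤ (finrank ℝ V : ℝ) := by exact_mod_cast hm
  intro L d r s hL hr hr2 hd N b j hnd hh1 hfd
  refine near_odd_S hm rfl hW hF hmin hnd.smooth hnd.unit b hnd.t0 hnd.lsq hL s hr hr2 hd hh1 hfd
    (isLamO _) (hT N b j hnd hh1 hfd) (hC N b j hnd hh1 hfd) ?_
  have h1 : 7 / (5 * (finrank ℝ V : ℝ)) ≤ 1 / 200 := by
    rw [div_le_div_iff₀ (by positivity) (by norm_num)]
    linarith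
  have h2 := mul_le_mul_of_nonneg_right (show 1 + 7 / (5 * (finrank ℝ V : ℝ)) ≤ 201 / 200 by
    linarith) hrl
  linarith

end

end Vale.Agent.P224.R2.H742
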