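import Vale.Agent.P224.R2.H742.SO8
import Vale.Agent.P224.R2.H424.BoxO6

/-!
The law of the box in odd dimension for all dimensions from 400 on.
-/

namespace Vale.Agent.P224.R2.H742

open MeasureTheory Set Filter Function Real Module Matrix Vale.Agent.P224 Vale.Agent.P224.FV
  Vale.Agent.P224.R2.H925 Vale.Agent.P224.R2.H582 Vale.Agent.P224.R2.H728
open Vale.Agent.P224.SM2 Vale.Agent.P224.R2.H820 Vale.Agent.P224.R2.H176
open Vale.Agent.P224.R2.H535 (lamO BoxLaw)
open scoped RealInnerProductSpace Topology ContDiff Manifold ENNReal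

set_option linter.unusedSectionVars false

section

variable {V W M : Type*} [NormedAddCommGroup V] [InnerProductSpace ℝ V] [FiniteDimensional ℝ V]
  [NormedAddCommGroup W] [InnerProductSpace ℝ W] [FiniteDimensional ℝ W]
  [TopologicalSpace M] [ChartedSpace V M]
  [MeasurableSpace V] [BorelSpace V] [MeasurableSpace M] [BorelSpace M]
  [MeasurableSpace W] [BorelSpace W] [IsManifold 𝓘(ℝ, V) ∞ M]
  [CompactSpace M] [T2Space M]

/-- **the law of the box in odd dimension for all dimensions from 400 on** -/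
theorem boxLaw_400 [Nonempty M] (hm : 400 ≤ finrank ℝ V) (hW : finrank ℝ W = finrank ℝ V + 2)
    {F : M → W} (hF : SphImm V F) (hmin : ∀ x n, IsUnitNormal V F x n → meanCurv V F x n = 0)
    {ν : ℝ} :
    BoxLaw V F ν (1000 / (finrank ℝ V : ℝ) ^ 3) (6 / (finrank ℝ V : ℝ)) (finrank ℝ V) :=
  boxLaw_C hm hW hF hmin (H424.BoxO.boxC_O hm hW hF hmin)

end

end Vale.Agent.P224.R2.H742
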