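import Vale.Agent.P224.R2.H742.QFin
import Vale.Agent.P224.R2.H178.GlueO
import Vale.Agent.P224.R2.H627.Qb
import Vale.Agent.P224.R2.H494.ZT2

/-!
The flow of the odd dimension: signs, end conditions and the constants.
-/

namespace Vale.Agent.P224.R2.H742

open MeasureTheory Set Filter Function Real Vale.Agent.P224.SM2 Vale.Agent.P224.R2.H925
  Vale.Agent.P224.R2.H627 Vale.Agent.P224.R2.H820 Vale.Agent.P224.R2.H424
  Vale.Agent.P224.R2.H494.ZT Vale.Agent.P224.R2.H355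
open scoped Topology

section

variable {m : ℕ} (hm : 17 ≤ m) {L : ℝ} (hL : L * ((m : ℝ) ^ 2 - 1) = 4)
  (s : ZSol ((m : ℝ) / 2) L)
include hm hL

/-- the signs of the flow -/
theorem sgn_uZ : OddSgn (uZ s) := by
  have hp := par_of hm hL
  refine ⟨fun T hT => e_pos hm hL s hT, fun T hT => ?_, fun T hT => ?_⟩
  · exact rho_nonpos hp.a0 s hT (HS.P_nonneg (hsol hp.a0 s) hp _ (H355.hv_mem hT))
  · refine eps_nonpos hp.a0 s hT ?_
    have hh := H355.hv_mem hT
    have h1 := HS.P_nonneg (hsol hp.a0 s) hp _ hh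
    have h2 := HS.P1_nonneg (hsol hp.a0 s) hp _ hh
    have h3 := mul_nonneg (sub_nonneg.2 hh.2) h2
    linarith

lemma P_one_nonpos : s.P 1 ≤ 0 := by
  have hp := par_of hm hL
  have h := P_one_eq hp.a0 s
  have h1 := HS.P_nonneg (hsol hp.a0 s) hp 1 ⟨zero_le_one, le_rfl⟩
  have h2 : 0 ≤ -(s.P 1) := by
    rw [h]
    have := hp.a0
    positivity
  linarith

lemma P_one_ge : -(s.P 1) ≤ 1 / 5 := by
  have hmR : (17 : ℝ) ≤ m := by exact_mod_cast hm
  have hp := par_of hm hL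
  have h := P_one_eq hp.a0 s
  have e4 : 4 * ((m : ℝ) / 2) ^ 2 - 1 = (m : ℝ) ^ 2 - 1 := by ring
  have h0 := P_one_le (hsol hp.a0 s) hp (by rw [e4, hL])
  have h1 : (hsol hp.a0 s).P 1 ≤ 1 / 3 := by
    have k1 : 0 ≤ 1 / (48 * ((m : ℝ) / 2)) := by positivity
    have k2 : 0 ≤ 68 / (125 * ((m : ℝ) / 2) ^ 2) := by positivity
    linarith
  have h2 := HS.P_nonneg (hsol hp.a0 s) hp 1 ⟨zero_le_one, le_rfl⟩
  rw [h]
  have h3 : 1 ≤ √(2 : ℝ) := by
    rw [Real.one_le_sqrt]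
    norm_num
  have h4 : (2 * ((m : ℝ) / 2) + 1) / (4 * ((m : ℝ) / 2) * √2) ≤ 18 / 34 := by
    rw [div_le_div_iff₀ (by positivity) (by norm_num)]
    have : (m : ℝ) * 1 ≤ m * √2 := mul_le_mul_of_nonneg_left h3 (by linarith)
    nlinarith
  calc (2 * ((m : ℝ) / 2) + 1) / (4 * ((m : ℝ) / 2) * √2) * (hsol hp.a0 s).P 1
      ≤ 18 / 34 * (1 / 3) := mul_le_mul h4 h1 h2 (by norm_num)
    _ ≤ 1 / 5 := by norm_num

lemma y_one_ge : √2 ≤ s.y 1 := by
  have hp := par_of hm hL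
  have st := HS.stg (hsol hp.a0 s) hp
  have h1 : (1 : ℝ) ∈ Icc (0 : ℝ) 1 := ⟨zero_le_one, le_rfl⟩
  have hV := HS.V_ge_one (hsol hp.a0 s) hp 1 h1
  have hW := (hsol hp.a0 s).eW 1 h1
  have hF := st.F0 1 h1
  have hW1 : 1 ≤ (hsol hp.a0 s).W 1 := by
    rw [hW]
    have := mul_nonneg (div_nonneg hp.L0 (by linarith [hp.a0] : (0 : ℝ) ≤ 8 * (m / 2))) hF
    linarith
  have e := y_eq hp.a0 s 0
  have e0 : hv 0 = 1 := hv_zero
  rw [e0] at e
  norm_num at e
  rw [e]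
  have h2 : 0 ≤ √(2 : ℝ) := sqrt_nonneg _
  nlinarith

lemma F_one_ge : -(1 / 40) ≤ L * s.F 1 := by
  have hmR : (17 : ℝ) ≤ m := by exact_mod_cast hm
  have hp := par_of hm hL
  have st := HS.stg (hsol hp.a0 s) hp
  have h1 : (1 : ℝ) ∈ Icc (0 : ℝ) 1 := ⟨zero_le_one, le_rfl⟩
  have hF := st.Fu 1 h1
  have e1 : (hsol hp.a0 s).F 1 = -4 * (m / 2) * √(1 + 1) / (1 + 1) ^ 1 * s.F (zt 1) := rfl
  have h2 : zt 1 = 1 := by
    unfold zt
    norm_num
  rw [h2, show (1 : ℝ) + 1 = 2 by norm_num] at e1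
  rw [e1] at hF
  have h3 : 1 ≤ √(2 : ℝ) := by
    rw [Real.one_le_sqrt]
    norm_num
  have hL0 := hp.L0
  have hL1 := hp.L1
  by_cases hs : 0 ≤ s.F 1
  · have := mul_nonneg hL0 hs
    linarith
  · push Not at hs
    have h4 : m * -s.F 1 ≤ 7.4 := by
      have k1 : m * -s.F 1 * 1 ≤ m * -s.F 1 * √2 :=
        mul_le_mul_of_nonneg_left h3 (mul_nonneg (by linarith) (by linarith))
      have k2 : -4 * ((m : ℝ) / 2) * √2 / 2 ^ 1 * s.F 1 = m * -s.F 1 * √2 := by ring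
      rw [k2] at hF
      linarith
    have h5 : 17 * -s.F 1 ≤ 7.4 := by nlinarith
    nlinarith

/-- the flow of the odd dimension satisfies the conditions of the final theorem -/
theorem flow_uZ {d r : ℝ} (hr : 0 < r) (hr2 : r ^ 2 = (m : ℝ) ^ 2 - 1) (hd : d = 2 / r) :
    H178.OddFlow m d r (s.P 1) (JE s 0) ((m - 2) / (m - 1) * s.y 1 + L * s.F 1) 1
      ((m + 1) * (2 * m - 1) / r) (7 / r) (uZ s) := by
  have hmR : (17 : ℝ) ≤ m := by exact_mod_cast hm
  have hp := par_of hm hL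
  have em : (m : ℝ) = 2 * ((m : ℝ) / 2) := by ring
  have hdL : d ^ 2 = L := by
    have h1 : (m : ℝ) ^ 2 - 1 ≠ 0 := by nlinarith
    rw [hd, div_pow, hr2, div_eq_iff h1, hL]
    norm_num
  have hε := P_one_nonpos hm hL s
  refine ⟨hr, hr2, hd, ?_, ?_, ?_, zero_le_one, hε, ?_, ?_, ?_⟩
  · exact sys_uZ s (by linarith) em hdL
  · exact lim0_uZ s (by linarith) em hdL
  · exact lim1_uZ s (by linarith) em
  · have hε1 := P_one_ge hm hL s
    have hy := y_one_ge hm hL s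
    have hF := F_one_ge hm hL s
    have h3 : 1 ≤ √(2 : ℝ) := by
      rw [Real.one_le_sqrt]
      norm_num
    have h4 : 15 / 16 ≤ ((m : ℝ) - 2) / (m - 1) := by
      rw [div_le_div_iff₀ (by norm_num) (by linarith)]
      linarith
    have h5 : 15 / 16 ≤ ((m : ℝ) - 2) / (m - 1) * s.y 1 := by
      have := mul_le_mul h4 (h3.trans hy) zero_le_one (by linarith)
      linarith
    have hal : al m ≤ m + 4 := by
      unfold al
      rw [div_le_iff₀ (by nlinarith)]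
      nlinarith
    have hal0 : 0 ≤ al m := by
      unfold al
      have : (0 : ℝ) ≤ (m : ℝ) ^ 3 + 3 * m ^ 2 - 8 := by nlinarith [pow_pos (by linarith : (0 : ℝ) < m) 3]
      exact div_nonneg this (by nlinarith)
    have hJ : Jkl m r ≤ (m + 4) * (2 * r / ((m : ℝ) ^ 2 * (m + 3))) := by
      unfold Jkl
      have k1 : al m * (2 * r / ((m : ℝ) ^ 2 * (m + 3)))
          ≤ (m + 4) * (2 * r / ((m : ℝ) ^ 2 * (m + 3))) :=
        mul_le_mul_of_nonneg_right hal (by positivity)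
      have k2 : 0 ≤ be m / r * (1 - ((m : ℝ) ^ 2 + m + 2) / ((m : ℝ) ^ 2 * (m + 3))) := by
        have k3 : 0 ≤ be m := by
          unfold be
          positivity
        have k4 : ((m : ℝ) ^ 2 + m + 2) / ((m : ℝ) ^ 2 * (m + 3)) ≤ 1 := by
          rw [div_le_one (by positivity)]
          nlinarith
        exact mul_nonneg (div_nonneg k3 hr.le) (by linarith)
      linarith
    have h6 : -(1 / 100) ≤ 2 * d * s.P 1 / (m + 1) * Jkl m r := by
      have k1 : 2 * d * -(s.P 1) / (m + 1) * Jkl m r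
          ≤ 2 * d * -(s.P 1) / (m + 1) * ((m + 4) * (2 * r / ((m : ℝ) ^ 2 * (m + 3)))) := by
        refine mul_le_mul_of_nonneg_left hJ ?_
        rw [hd]
        have : 0 ≤ -(s.P 1) := by linarith
        positivity
      have k2 : 2 * d * -(s.P 1) / (m + 1) * ((m + 4) * (2 * r / ((m : ℝ) ^ 2 * (m + 3))))
          = -(s.P 1) * (8 * (m + 4) / ((m + 1) * (m + 3) * (m : ℝ) ^ 2)) := by
        rw [hd]
        field_simp
        ring
      have k3 : 8 * ((m : ℝ) + 4) / ((m + 1) * (m + 3) * (m : ℝ) ^ 2) ≤ 1 / 20 := by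
        rw [div_le_div_iff₀ (by positivity) (by norm_num)]
        nlinarith [sq_nonneg (m : ℝ), mul_pos (by linarith : (0 : ℝ) < m) (by linarith : (0 : ℝ) < m)]
      have k4 : -(s.P 1) * (8 * (m + 4) / ((m + 1) * (m + 3) * (m : ℝ) ^ 2)) ≤ 1 / 5 * (1 / 20) :=
        mul_le_mul hε1 k3 (by positivity) (by norm_num)
      have k5 : 2 * d * s.P 1 / (m + 1) * Jkl m r = -(2 * d * -(s.P 1) / (m + 1) * Jkl m r) := by
        ring
      rw [k5]
      linarith
    linarith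
  · rw [mul_div_cancel₀ _ hr.ne']
  · rw [mul_div_cancel₀ _ hr.ne']

end

end Vale.Agent.P224.R2.H742
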