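import Vale.Agent.P224.R2.H742.QT2

/-!
Bounds of the third moments at level zero.
-/

namespace Vale.Agent.P224.R2.H742

open MeasureTheory Set Filter Function Real Finset Vale.Agent.P224.R2.H728

set_option linter.unusedSectionVars false

lemma abs_mix {A B P ε : ℝ} (hP : ∀ k l : ℝ, 0 ≤ k ^ 2 * A + l ^ 2 * B + 2 * k * l * P)
    (hε : 0 < ε) : |P| ≤ (ε * A + B / ε) / 2 := by
  have h1 := hP ε 1
  have h2 := hP ε (-1)
  have e : (ε * A + B / ε) / 2 = ((ε ^ 2 * A + B) / 2) / ε := by field_simp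
  rw [e, le_div_iff₀ hε]
  rcases abs_cases P with ⟨h3, _⟩ | ⟨h3, _⟩ <;> rw [h3] <;> linarith

/-- the first real inequality behind the bound of the third moments -/
lemma c_real {H δ A B C P R S U Q X2 J : ℝ} (hH : 9 ≤ H) (hδ : 0 ≤ δ) (hδ1 : δ ≤ 1 / 16)
    (hA : A = H ^ 2 * X2) (hX : 0 ≤ X2) (hB : 0 ≤ B)
    (hU : 0 ≤ U) (hQ : 0 ≤ Q)
    (hP : ∀ k l : ℝ, 0 ≤ k ^ 2 * A + l ^ 2 * B + 2 * k * l * P)
    (hR : ∀ k l : ℝ, 0 ≤ k ^ 2 * A + l ^ 2 * C + 2 * k * l * R)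
    (hS : ∀ k l : ℝ, 0 ≤ k ^ 2 * B + l ^ 2 * C + 2 * k * l * S)
    (hJ : J ≤ (2 + 2 * δ) * Q)
    (hC3 : J = C - (3 * H ^ 2 + 1 - 6 * δ ^ 2 * H * (H + 1)) * X2 + (3 - 6 * δ ^ 2) * B
      - 6 * δ * (2 + 1 / H - δ ^ 2) * P + (6 * δ - 2 * δ ^ 3 / H) * R + 6 * δ ^ 2 * S
      + 6 * δ ^ 2 * U) :
    C ≤ 12 / 5 * Q + 4 * A := by
  have hA0 : 0 ≤ A := by rw [hA]; positivity
  have hH0 : 0 < H := by linarith
  have hi : 1 / H ≤ 1 / 9 := one_div_le_one_div_of_le (by norm_num) hH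
  have hi0 : 0 < 1 / H := by positivity
  have hX9 : X2 ≤ A / 81 := by
    have : 0 ≤ (H ^ 2 - 81) * X2 := mul_nonneg (by nlinarith) hX
    rw [hA]
    linarith
  have hδ2 : δ ^ 2 ≤ 1 / 256 := by nlinarith
  have hδ20 : 0 ≤ δ ^ 2 := sq_nonneg δ
  have p0 := abs_nonneg P
  have r0 := abs_nonneg R
  have s0 := abs_nonneg S
  have c1 : 6 * δ * (2 + 1 / H - δ ^ 2) * P ≤ 19 / 24 * |P| := by
    refine (le_abs_self _).trans ?_
    rw [abs_mul, abs_of_nonneg (mul_nonneg (by positivity) (by linarith))]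
    refine mul_le_mul_of_nonneg_right ?_ p0
    have : (2 + 1 / H - δ ^ 2) ≤ 19 / 9 := by linarith
    have h7 : δ * (2 + 1 / H - δ ^ 2) ≤ 1 / 16 * (19 / 9) :=
      mul_le_mul hδ1 this (by linarith) (by norm_num)
    linarith
  have c2 : -((6 * δ - 2 * δ ^ 3 / H) * R) ≤ 3 / 8 * |R| := by
    refine (neg_le_abs _).trans ?_
    have h3 : 2 * δ ^ 3 / H ≤ 6 * δ := by
      rw [div_le_iff₀ hH0]
      have : δ ^ 3 ≤ δ := by nlinarith [mul_nonneg hδ hδ20]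
      nlinarith
    have h4 : 0 ≤ 2 * δ ^ 3 / H := by positivity
    rw [abs_mul, abs_of_nonneg (by linarith)]
    refine mul_le_mul_of_nonneg_right ?_ r0
    linarith
  have c3 : -(6 * δ ^ 2 * S) ≤ 3 / 128 * |S| := by
    refine (neg_le_abs _).trans ?_
    rw [abs_mul, abs_of_nonneg (by positivity)]
    refine mul_le_mul_of_nonneg_right ?_ s0
    linarith
  have c4 : (3 * H ^ 2 + 1 - 6 * δ ^ 2 * H * (H + 1)) * X2 ≤ (3 + 1 / 81) * A := by
    have : 0 ≤ 6 * δ ^ 2 * H * (H + 1) * X2 := by positivity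
    have e : (3 * H ^ 2 + 1 - 6 * δ ^ 2 * H * (H + 1)) * X2
      = 3 * A + X2 - 6 * δ ^ 2 * H * (H + 1) * X2 := by rw [hA]; ring
    rw [e]
    linarith
  have c5 : (2 + 2 * δ) * Q ≤ 17 / 8 * Q := by
    have := mul_nonneg (sub_nonneg.2 hδ1) hQ
    linarith
  have c6 : 6 * δ ^ 2 * B ≤ 3 / 128 * B := by
    have := mul_nonneg (sub_nonneg.2 hδ2) hB
    linarith
  have c7 : 0 ≤ 6 * δ ^ 2 * U := by positivity
  have g1 := abs_mix hP (show (0 : ℝ) < 14 / 100 by norm_num)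
  have g2 := abs_mix hR (show (0 : ℝ) < 19 / 10 by norm_num)
  have g3 := abs_mix hS (show (0 : ℝ) < 1 by norm_num)
  have e : C = J + (3 * H ^ 2 + 1 - 6 * δ ^ 2 * H * (H + 1)) * X2 - (3 * B - 6 * δ ^ 2 * B)
    + 6 * δ * (2 + 1 / H - δ ^ 2) * P - (6 * δ - 2 * δ ^ 3 / H) * R - 6 * δ ^ 2 * S
    - 6 * δ ^ 2 * U := by rw [hC3]; ring
  clear hP hR hS hC3 hA
  norm_num at g1 g2 g3
  linarith

/-- the second real inequality behind the bound of the third moments -/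
lemma w_real {H δ η A B C P R S U Q X2 : ℝ} (hH : 9 ≤ H) (hδ : 0 ≤ δ) (hδ1 : δ ≤ 1 / 16)
    (hη : 0 < η) (hη1 : η ≤ 1) (hA : A = H ^ 2 * X2) (hX : 0 ≤ X2) (hB : 0 ≤ B)
    (hU : 0 ≤ U) (hQ : 0 ≤ Q)
    (hP : ∀ k l : ℝ, 0 ≤ k ^ 2 * A + l ^ 2 * B + 2 * k * l * P)
    (hR : ∀ k l : ℝ, 0 ≤ k ^ 2 * A + l ^ 2 * C + 2 * k * l * R)
    (hS : ∀ k l : ℝ, 0 ≤ k ^ 2 * B + l ^ 2 * C + 2 * k * l * S)
    (hCC : C ≤ 12 / 5 * Q + 4 * A) :
    |2 * (-(1 - δ ^ 2 / H) * R + (2 + 1 / H - 3 * δ ^ 2) * P - 2 * δ * S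
      - 2 * δ * (H ^ 2 + H) * X2 + 2 * δ * B - 2 * δ * U)|
      ≤ η * Q + (3 / η + 4) * (A + B) + 1 / 4 * U := by
  have hA0 : 0 ≤ A := by rw [hA]; positivity
  have hH0 : 0 < H := by linarith
  have hi : 1 / H ≤ 1 / 9 := one_div_le_one_div_of_le (by norm_num) hH
  have hi0 : 0 < 1 / H := by positivity
  have hHX0 : 0 ≤ H * X2 := by positivity
  have hHX : H * X2 ≤ A / 9 := by
    have : 0 ≤ (H - 9) * (H * X2) := mul_nonneg (by linarith) hHX0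
    rw [hA]
    nlinarith
  have hδ2 : δ ^ 2 ≤ 1 / 256 := by nlinarith
  have hδ20 : 0 ≤ δ ^ 2 := sq_nonneg δ
  have p0 := abs_nonneg P
  have r0 := abs_nonneg R
  have s0 := abs_nonneg S
  have b1 : |-(1 - δ ^ 2 / H) * R| ≤ |R| := by
    rw [abs_mul, abs_neg]
    have h4 : 0 ≤ δ ^ 2 / H := by positivity
    have h5 : δ ^ 2 / H ≤ 1 := by
      rw [div_le_iff₀ hH0]
      linarith
    rw [abs_of_nonneg (by linarith)]
    have := mul_nonneg h4 r0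
    linarith
  have b2 : |(2 + 1 / H - 3 * δ ^ 2) * P| ≤ 19 / 9 * |P| := by
    rw [abs_mul, abs_of_nonneg (by linarith)]
    refine mul_le_mul_of_nonneg_right ?_ p0
    linarith
  have b3 : |2 * δ * S| ≤ 1 / 8 * |S| := by
    rw [abs_mul, abs_of_nonneg (by positivity)]
    refine mul_le_mul_of_nonneg_right ?_ s0
    linarith
  have b4 : |2 * δ * (H ^ 2 + H) * X2| ≤ 5 / 36 * A := by
    rw [abs_of_nonneg (by positivity)]
    have e : 2 * δ * (H ^ 2 + H) * X2 = 2 * δ * (A + H * X2) := by rw [hA]; ring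
    rw [e]
    have h7 : δ * (A + H * X2) ≤ 1 / 16 * (10 / 9 * A) :=
      mul_le_mul hδ1 (by linarith) (by linarith) (by norm_num)
    linarith
  have b5 : |2 * δ * B| ≤ 1 / 8 * B := by
    rw [abs_of_nonneg (by positivity)]
    have := mul_nonneg (sub_nonneg.2 hδ1) hB
    linarith
  have b6 : |2 * δ * U| ≤ 1 / 8 * U := by
    rw [abs_of_nonneg (by positivity)]
    have := mul_nonneg (sub_nonneg.2 hδ1) hU
    linarith
  have f1 := abs_mix hP one_pos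
  have f2 := abs_mix hR (show 0 < 8 / (3 * η) by positivity)
  have f3 := abs_mix hS (show 0 < 25 / (8 * η) by positivity)
  rw [show C / (8 / (3 * η)) = 3 / 8 * (η * C) by field_simp] at f2
  rw [show C / (25 / (8 * η)) = 8 / 25 * (η * C) by field_simp] at f3
  have hq : η * C ≤ η * (12 / 5 * Q + 4 * A) := mul_le_mul_of_nonneg_left hCC hη.le
  have tri : |2 * (-(1 - δ ^ 2 / H) * R + (2 + 1 / H - 3 * δ ^ 2) * P - 2 * δ * S
      - 2 * δ * (H ^ 2 + H) * X2 + 2 * δ * B - 2 * δ * U)|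
      ≤ 2 * (|R| + 19 / 9 * |P| + 1 / 8 * |S| + 5 / 36 * A + 1 / 8 * B + 1 / 8 * U) := by
    rw [abs_mul, abs_of_nonneg (by norm_num : (0 : ℝ) ≤ 2)]
    refine mul_le_mul_of_nonneg_left ?_ (by norm_num)
    rw [abs_le] at b1 b2 b3 b4 b5 b6 ⊢
    constructor <;> linarith [b1.1, b1.2, b2.1, b2.2, b3.1, b3.2, b4.1, b4.2, b5.1, b5.2,
      b6.1, b6.2]
  refine tri.trans ?_
  have k1 : 8 / (3 * η) * A = 8 / 3 * (1 / η * A) := by field_simp
  have k2 : 25 / (8 * η) * B = 25 / 8 * (1 / η * B) := by field_simp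
  have k3 : 3 / η = 3 * (1 / η) := by field_simp
  have k4 : 1 ≤ 1 / η := by rw [le_div_iff₀ hη]; linarith
  rw [k1] at f2
  rw [k2] at f3
  rw [k3]
  have k5 : 0 ≤ (1 / η - 1) * A := mul_nonneg (by linarith) hA0
  have k6 : 0 ≤ (1 / η - 1) * B := mul_nonneg (by linarith) hB
  have k7 : 0 ≤ (1 - η) * A := mul_nonneg (by linarith) hA0
  have k8 : 0 ≤ η * Q := by positivity
  have e1 : (3 * (1 / η) + 4) * (A + B) = 3 * (1 / η * A) + 3 * (1 / η * B) + 4 * A + 4 * B := by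
    ring
  have e2 : η * (12 / 5 * Q + 4 * A) = 12 / 5 * (η * Q) + 4 * (η * A) := by ring
  have e3 : (1 / η - 1) * A = 1 / η * A - A := by ring
  have e4 : (1 / η - 1) * B = 1 / η * B - B := by ring
  have e5 : (1 - η) * A = A - η * A := by ring
  rw [e1]
  rw [e2] at hq
  rw [e3] at k5
  rw [e4] at k6
  rw [e5] at k7
  clear tri b1 b2 b3 b4 b5 b6 hP hR hS hA e1 e2 e3 e4 e5 k1 k2 k3
  generalize 1 / η * A = a1 at *
  generalize 1 / η * B = b1 at *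
  generalize η * A = a2 at *
  generalize η * C = c2 at *
  generalize η * Q = q2 at *
  norm_num at f1
  linarith

section

variable {ι Ω : Type*} [Fintype ι] [DecidableEq ι] [MeasurableSpace Ω] {μ : Measure Ω}
  {m : ℝ} {x N : ι → Ω → ℝ}

/-- a bound of the mean of `(t + p) q ^ 2` -/
theorem abs_w_q2_le (h : T0Data μ m x N) (hm : 16 ≤ m) {δ η : ℝ} (hδ : 0 ≤ δ) (hδ1 : δ ≤ 1 / 16)
    (hη : 0 < η) (hη1 : η ≤ 1) :
    |∫ q, (ip x N q.1 q.2 + ip N x q.1 q.2) * qf δ x N q ^ 2 ∂(μ.prod μ)|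
      ≤ η * Q2 μ δ x N + (3 / η + 4) * (((m + 2) / 2) ^ 2 * tc (m3 μ x x x) (m3 μ x x x)
        + tc (m3 μ N x x) (m3 μ N x x)) + 1 / 4 * ((∑ a, m1 μ N a ^ 2) / (m + 1)) := by
  set H : ℝ := (m + 2) / 2 with hH
  have hH9 : 9 ≤ H := by rw [hH]; linarith
  have hH0 : H ≠ 0 := by linarith
  have hU : 0 ≤ (∑ a, m1 μ N a ^ 2) / (m + 1) :=
    div_nonneg (Finset.sum_nonneg fun _ _ => sq_nonneg _) (by linarith)
  have hQ : 0 ≤ Q2 μ δ x N := integral_nonneg fun _ => sq_nonneg _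
  have hP : ∀ k l : ℝ, 0 ≤ k ^ 2 * (H ^ 2 * tc (m3 μ x x x) (m3 μ x x x))
      + l ^ 2 * tc (m3 μ N x x) (m3 μ N x x)
      + 2 * k * l * (H * tc (m3 μ x x x) (m3 μ N x x)) := fun k l => by
    have := tc_quad (m3 μ x x x) (m3 μ N x x) (m3 μ N x x) (k * H) l 0
    refine this.trans (le_of_eq ?_)
    ring
  have hR : ∀ k l : ℝ, 0 ≤ k ^ 2 * (H ^ 2 * tc (m3 μ x x x) (m3 μ x x x))
      + l ^ 2 * tc (m3 μ N N N) (m3 μ N N N)
      + 2 * k * l * (H * tc (m3 μ x x x) (m3 μ N N N)) := fun k l => by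
    have := tc_quad (m3 μ x x x) (m3 μ N N N) (m3 μ N x x) (k * H) l 0
    refine this.trans (le_of_eq ?_)
    ring
  have hS : ∀ k l : ℝ, 0 ≤ k ^ 2 * tc (m3 μ N x x) (m3 μ N x x)
      + l ^ 2 * tc (m3 μ N N N) (m3 μ N N N)
      + 2 * k * l * tc (m3 μ N x x) (m3 μ N N N) := fun k l => by
    have := tc_quad (m3 μ N x x) (m3 μ N N N) (m3 μ N x x) k l 0
    refine this.trans (le_of_eq ?_)
    ring
  have hCC := c_real hH9 hδ hδ1 rfl (tc_self_nonneg _) (tc_self_nonneg _) hU hQ hP hR hS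
    (q3_le h hδ) (by
      rw [int_q3 h (by linarith), ← hH]
      field_simp)
  have key := w_real hH9 hδ hδ1 hη hη1 rfl (tc_self_nonneg _) (tc_self_nonneg _) hU hQ hP hR hS hCC
  refine le_trans (le_of_eq ?_) key
  rw [int_w_q2 h (by linarith), ← hH]
  congr 1
  field_simp

end

end Vale.Agent.P224.R2.H742
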