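import Vale.Agent.P224.R2.H742.LawO2

/-!
The near law in odd dimension in terms of the one point tensors: the integral.
-/

namespace Vale.Agent.P224.R2.H742

open MeasureTheory Set Filter Function Real Module Vale.Agent.P224 Vale.Agent.P224.FV
  Vale.Agent.P224.R2.H925 Vale.Agent.P224.R2.H582 Vale.Agent.P224.R2.H728
open Vale.Agent.P224.SM2 Vale.Agent.P224.R2.H820
open scoped RealInnerProductSpace Topology ContDiff Manifold ENNReal

set_option linter.unusedSectionVars false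

section

variable {V W M : Type*} [NormedAddCommGroup V] [InnerProductSpace ℝ V] [FiniteDimensional ℝ V]
  [NormedAddCommGroup W] [InnerProductSpace ℝ W] [FiniteDimensional ℝ W]
  [TopologicalSpace M] [ChartedSpace V M]
  [MeasurableSpace V] [BorelSpace V] [MeasurableSpace M] [BorelSpace M]
  [MeasurableSpace W] [BorelSpace W] [IsManifold 𝓘(ℝ, V) ∞ M]
  [CompactSpace M] [T2Space M]

/-- the level bound near the end of the interval: the first square and the tail -/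
theorem levelO_tail [Nonempty M] {m : ℕ} (hm : 4 ≤ m) (hV : finrank ℝ V = m)
    (hW : finrank ℝ W = finrank ℝ V + 2)
    {F : M → W} (hF : SphImm V F) (hmin : ∀ x n, IsUnitNormal V F x n → meanCurv V F x n = 0)
    {N : M → W} (hNs : ContMDiff 𝓘(ℝ, V) 𝓘(ℝ, W) ∞ N) (hN : ∀ x, IsUnitNormal V F x (N x))
    {d K g1 lmb : ℝ} {l' τ kap : ℝ → ℝ} {a : Fin 4 → ℝ → ℝ} {u : St}
    (hd : 0 ≤ d) (hd1 : d ≤ 1) (hlmb : 0 ≤ lmb) (hsg : OddSgn u)
    {T : ℝ} (hT : T ∈ Ioo (0 : ℝ) 1) (hc : OddUp m d K g1 l' u T)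
    (hab : ∀ s ∈ Icc (-1 : ℝ) 1, cub a T s
      ≤ m * u.e T * ker T (m + 1) s - 2 * (d * -u.ε T) * |ker T (m + 2) s - lmb|)
    (hkap : d * -u.ε T ≤ kap T)
    (hτ : K * (1 + g1) * ((m + 1) * (m + 2) * T ^ 2 * rM m T / (1 - T ^ 2)) / 2
      * E2 (volM V F) F N (TK m T (l' T)) ≤ τ T * (volM V F).real univ ^ 2) :
    a 0 T * E2 (volM V F) F N (fun k => k.1 ^ 0 * Qk d k)
      + a 1 T * E2 (volM V F) F N (fun k => k.1 ^ 1 * Qk d k)
      + a 2 T * E2 (volM V F) F N (fun k => k.1 ^ 2 * Qk d k)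
      + a 3 T * E2 (volM V F) F N (fun k => k.1 ^ 3 * Qk d k)
      - lmb * kap T * |E2 (volM V F) F N (fun k => (k.2.1 + k.2.2.1) * Qk d k)|
      - τ T * (volM V F).real univ ^ 2
      ≤ DS ((volM V F).prod (volM V F)) (finrank ℝ V) (SM2.pr F N) d u T := by
  have hfin : IsFiniteMeasure (volM V F) := isFiniteMeasure_volM hF
  have hm1 : 1 ≤ m := by omega
  have hP : PL ((volM V F).prod (volM V F)) m (SM2.pr F N) := by
    rw [← hV]
    exact PL_of_min hW hF hmin hNs hN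
  have hk : 0 < 1 - T ^ 2 := by nlinarith [hT.1, hT.2]
  have hRT : 1 ≤ (1 / √(1 - T ^ 2)) ^ 2 * (1 - T ^ 2) := by
    rw [div_pow, Real.sq_sqrt hk.le]
    field_simp
    exact le_rfl
  have q1 := DS_ge_tail_phi hP (T := T) (d := d) (R := 1 / √(1 - T ^ 2)) (l := l' T)
    (lam := lmb) (φ := cub a T) (u := u)
    (α := aO m d T (1 / √(1 - T ^ 2)) (l' T) (u.y T) (u.r T) (-u.ρ T) (-u.ε T))
    (β := bO m d T (1 / √(1 - T ^ 2)) (u.e T) (u.r T) (-u.ρ T) (-u.ε T))
    (G := K * (1 + g1) * ((m + 1) * (m + 2) * T ^ 2 * rM m T / (1 - T ^ 2)) / 2)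
    (by unfold cub; fun_prop) (by unfold cub; fun_prop) hm1 hT hd hd1 (by positivity)
    hRT hc.l0 (hsg.e0 T hT) (hsg.ρ0 T hT) (hsg.ε0 T hT) hab hc.ho le_rfl le_rfl
    (by have := hc.hg; linarith) hc.ha hc.hb
  rw [hV]
  refine le_trans ?_ q1
  set q0 := E2 (volM V F) F N (fun k => k.1 ^ 0 * Qk d k) with hq0
  set q1' := E2 (volM V F) F N (fun k => k.1 ^ 1 * Qk d k) with hq1
  set q2 := E2 (volM V F) F N (fun k => k.1 ^ 2 * Qk d k) with hq2
  set q3 := E2 (volM V F) F N (fun k => k.1 ^ 3 * Qk d k) with hq3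
  have mQ := measurable_Qk d
  have cQ := continuous_Qk d
  have e1 : Ek ((volM V F).prod (volM V F)) (SM2.pr F N) (fun k => cub a T k.1 * Qk d k)
      = a 0 T * q0 + a 1 T * q1' + a 2 T * q2 + a 3 T * q3 := by
    obtain ⟨_, he⟩ := Ek_comb4 hP (f1 := fun k => k.1 ^ 0 * Qk d k) (by fun_prop) (by fun_prop)
      (f2 := fun k => k.1 ^ 1 * Qk d k) (by fun_prop) (by fun_prop)
      (f3 := fun k => k.1 ^ 2 * Qk d k) (by fun_prop) (by fun_prop)
      (f4 := fun k => k.1 ^ 3 * Qk d k) (by fun_prop) (by fun_prop)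
      (f5 := fun _ => (0 : ℝ)) (by fun_prop) (by fun_prop) (a 0 T) (a 1 T) (a 2 T) (a 3 T) 0
    have e2 : a 0 T * q0 + a 1 T * q1' + a 2 T * q2 + a 3 T * q3
        = a 0 T * Ek ((volM V F).prod (volM V F)) (SM2.pr F N) (fun k => k.1 ^ 0 * Qk d k)
        + a 1 T * Ek ((volM V F).prod (volM V F)) (SM2.pr F N) (fun k => k.1 ^ 1 * Qk d k)
        + a 2 T * Ek ((volM V F).prod (volM V F)) (SM2.pr F N) (fun k => k.1 ^ 2 * Qk d k)
        + a 3 T * Ek ((volM V F).prod (volM V F)) (SM2.pr F N) (fun k => k.1 ^ 3 * Qk d k)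
        + 0 * Ek ((volM V F).prod (volM V F)) (SM2.pr F N) (fun _ => (0 : ℝ)) := by
      rw [zero_mul, add_zero]
      rfl
    rw [e2, ← he]
    unfold Ek
    refine integral_congr_ae (Eventually.of_forall fun q => ?_)
    unfold cub
    simp only
    ring
  rw [e1]
  set qq := E2 (volM V F) F N (fun k => (k.2.1 + k.2.2.1) * Qk d k) with hqq
  have e3 : Ek ((volM V F).prod (volM V F)) (SM2.pr F N) (fun k => (k.2.1 + k.2.2.1) * Qk d k)
      = qq := rfl
  rw [e3]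
  have h1 : -(lmb * kap T * |qq|) ≤ -(lmb * (d * -u.ε T)) * qq := by
    have h2 : lmb * (d * -u.ε T) * qq ≤ lmb * (d * -u.ε T) * |qq| :=
      mul_le_mul_of_nonneg_left (le_abs_self _) (mul_nonneg hlmb (mul_nonneg hd
        (neg_nonneg.2 (hsg.ε0 T hT))))
    have h3 : lmb * (d * -u.ε T) * |qq| ≤ lmb * kap T * |qq| :=
      mul_le_mul_of_nonneg_right (mul_le_mul_of_nonneg_left hkap hlmb) (abs_nonneg _)
    linarith
  have e9 : Ek ((volM V F).prod (volM V F)) (SM2.pr F N) (TK m T (l' T))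
      = E2 (volM V F) F N (TK m T (l' T)) := rfl
  rw [e9]
  linarith

/-- the near law in odd dimension from the scalar inequality -/
theorem nearAtOdd_of [Nonempty M] {m : ℕ} (hm : 4 ≤ m) (hV : finrank ℝ V = m)
    (hW : finrank ℝ W = finrank ℝ V + 2)
    {F : M → W} (hF : SphImm V F) (hmin : ∀ x n, IsUnitNormal V F x n → meanCurv V F x n = 0)
    {N : M → W} (hNs : ContMDiff 𝓘(ℝ, V) 𝓘(ℝ, W) ∞ N) (hN : ∀ x, IsUnitNormal V F x (N x))
    {ι : Type*} [Fintype ι] [DecidableEq ι] (b : OrthonormalBasis ι ℝ W)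
    {d K θ κ σ g1 lmb T1 ε0 r0 W1 W2 : ℝ} {ξ lam l' τ kap : ℝ → ℝ} {a : Fin 4 → ℝ → ℝ} {u : St}
    (hd : 0 ≤ d) (hd1 : d ≤ 1) (hK : 0 ≤ K) (hθ : θ ≤ 1) (hκ : 0 ≤ κ) (hσ : 0 ≤ σ)
    (hlmb : 0 ≤ lmb) (hT1 : T1 ∈ Icc (0 : ℝ) 1) (hsg : OddSgn u)
    (hlow : ∀ T ∈ Ioo (0 : ℝ) 1, T ≤ T1 → OddAt m d K θ κ g1 ξ lam l' u T)
    (hup : ∀ T ∈ Ioo (0 : ℝ) 1, T1 < T → OddUp m d K g1 l' u T)
    (hab : ∀ T ∈ Ioo (0 : ℝ) 1, ∀ s ∈ Icc (-1 : ℝ) 1, cub a T s
      ≤ m * u.e T * ker T (m + 1) s - 2 * (d * -u.ε T) * |ker T (m + 2) s - lmb|)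
    (hkap : ∀ T ∈ Ioo (0 : ℝ) 1, d * -u.ε T ≤ kap T)
    (hτ : ∀ T ∈ Ioo (0 : ℝ) 1,
      K * (1 + g1) * ((m + 1) * (m + 2) * T ^ 2 * rM m T / (1 - T ^ 2)) / 2
      * E2 (volM V F) F N (TK m T (l' T)) ≤ τ T * (volM V F).real univ ^ 2)
    (ia : ∀ i, IntervalIntegrable (a i) volume 0 1) (ik : IntervalIntegrable kap volume 0 1)
    (iw : IntervalIntegrable (wO m κ σ ξ lam) volume 0 T1)
    (iw1 : IntervalIntegrable (wO1 m κ σ lam) volume 0 T1)
    (iτ : IntervalIntegrable τ volume 0 1)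
    (hmain : m * r0 * (∑ i, m1 (nrm (volM V F)) (co b N) i ^ 2)
      + -(2 * d * ε0 / (m + 1)) * (W1 * qm (nrm (volM V F)) (d / 2) (co b F) (co b N) 0
        + W2 * ((m + 1) / 2 * Qpt (nrm (volM V F)) m (co b F) (co b N)))
      ≤ (∫ T in (0 : ℝ)..1, a 0 T) * qm (nrm (volM V F)) (d / 2) (co b F) (co b N) 0
        + (∫ T in (0 : ℝ)..1, a 1 T) * qm (nrm (volM V F)) (d / 2) (co b F) (co b N) 1
        + (∫ T in (0 : ℝ)..1, a 2 T) * qm (nrm (volM V F)) (d / 2) (co b F) (co b N) 2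
        + (∫ T in (0 : ℝ)..1, a 3 T) * qm (nrm (volM V F)) (d / 2) (co b F) (co b N) 3
        - lmb * (∫ T in (0 : ℝ)..1, kap T) * |qw (nrm (volM V F)) (d / 2) (co b F) (co b N)|
        + K * (1 - θ) * ((∫ T in (0 : ℝ)..T1, wO m κ σ ξ lam T)
            * Qpt (nrm (volM V F)) m (co b F) (co b N)
          + (∫ T in (0 : ℝ)..T1, wO1 m κ σ lam T)
            * min (Qpts (nrm (volM V F)) m (co b F) (co b N)
              + σ * Qpt (nrm (volM V F)) m (co b F) (co b N)) 0)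
        - ∫ T in (0 : ℝ)..1, τ T) :
    NearAtOdd V F N d ε0 r0 W1 W2 u := by
  have hfin : IsFiniteMeasure (volM V F) := isFiniteMeasure_volM hF
  have hm1 : 1 ≤ finrank ℝ V := by omega
  have hpos : 0 < volM V F univ := volM_pos_of_isOpen hW hF isOpen_univ univ_nonempty
  have hnz : NeZero (volM V F) := ⟨fun h => by rw [h] at hpos; simp at hpos⟩
  have hA : 0 < (volM V F).real univ := ENNReal.toReal_pos hpos.ne' (measure_ne_top _ _)
  have hT0 : T0Data (nrm (volM V F)) (m : ℝ) (co b F) (co b N) := by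
    rw [← hV]
    exact t0Data_of_min hm1 hW hF hmin hNs hN b
  have hmR : (m : ℝ) + 1 ≠ 0 := by positivity
  set A := (volM V F).real univ with hAdef
  set X0 := E2 (volM V F) F N Xk with hX0
  set X1 := E2 (volM V F) F N (fun k => Xk k * k.1) with hX1
  set q0 := E2 (volM V F) F N (fun k => k.1 ^ 0 * Qk d k) with hq0
  set q1 := E2 (volM V F) F N (fun k => k.1 ^ 1 * Qk d k) with hq1
  set q2 := E2 (volM V F) F N (fun k => k.1 ^ 2 * Qk d k) with hq2
  set q3 := E2 (volM V F) F N (fun k => k.1 ^ 3 * Qk d k) with hq3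
  set qq := E2 (volM V F) F N (fun k => (k.2.1 + k.2.2.1) * Qk d k) with hqq
  let fst : ℝ → ℝ := fun T => a 0 T * q0 + a 1 T * q1 + a 2 T * q2 + a 3 T * q3
      - lmb * kap T * |qq|
  let main : ℝ → ℝ := fun T => K * (1 - θ) * (wO m κ σ ξ lam T * X0
        + wO1 m κ σ lam T * min (X1 + σ * X0) 0)
  have i0 := (ia 0).mul_const q0
  have i1 := (ia 1).mul_const q1
  have i2 := (ia 2).mul_const q2
  have i3 := (ia 3).mul_const q3
  have i4 := (ik.const_mul lmb).mul_const |qq|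
  have i5 := (iw.mul_const X0)
  have i6 := (iw1.mul_const (min (X1 + σ * X0) 0))
  have ifst : IntervalIntegrable fst volume 0 1 := (((i0.add i1).add i2).add i3).sub i4
  have imain : IntervalIntegrable main volume 0 T1 := (i5.add i6).const_mul _
  let B : ℝ → ℝ := fun T => fst T + indicator {x | x ≤ T1} main T - τ T * A ^ 2
  have iind : IntervalIntegrable (indicator {x | x ≤ T1} main) volume 0 1 := by
    have h1 : IntervalIntegrable (indicator {x | x ≤ T1} main) volume 0 T1 := by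
      refine imain.congr ?_
      rw [uIoc_of_le hT1.1]
      intro x hx
      exact (indicator_of_mem (show x ∈ {x | x ≤ T1} from hx.2) main).symm
    have h2 : IntervalIntegrable (indicator {x | x ≤ T1} main) volume T1 1 := by
      have h3 : IntervalIntegrable (fun _ : ℝ => (0 : ℝ)) volume T1 1 := intervalIntegrable_const
      refine h3.congr ?_
      rw [uIoc_of_le hT1.2]
      intro x hx
      exact (indicator_of_notMem (show x ∉ {x | x ≤ T1} from not_le.2 hx.1) main).symm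
    exact h1.trans h2
  have hkey : ∀ T ∈ Ioo (0 : ℝ) 1, B T
      ≤ DS ((volM V F).prod (volM V F)) (finrank ℝ V) (SM2.pr F N) d u T := by
    intro T hT
    by_cases hle : T ≤ T1
    · have h1 := levelO hm hV hW hF hmin hNs hN hd hd1 hK hθ hκ hσ hlmb hsg hT
        (hlow T hT hle) (hab T hT) (hkap T hT) (hτ T hT)
      refine le_trans (le_of_eq ?_) h1
      change fst T + indicator {x | x ≤ T1} main T - τ T * A ^ 2 = _
      rw [indicator_of_mem (show T ∈ {x | x ≤ T1} from hle)]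
    · push Not at hle
      have h1 := levelO_tail hm hV hW hF hmin hNs hN hd hd1 hlmb hsg hT
        (hup T hT hle) (hab T hT) (hkap T hT) (hτ T hT)
      refine le_trans (le_of_eq ?_) h1
      change fst T + indicator {x | x ≤ T1} main T - τ T * A ^ 2 = _
      rw [indicator_of_notMem (show T ∉ {x | x ≤ T1} from not_le.2 hle), add_zero]
  refine ⟨B, (ifst.add iind).sub (iτ.mul_const _), hkey, ?_⟩
  have hI : ∫ T in (0 : ℝ)..1, B T = (∫ T in (0 : ℝ)..1, fst T) + (∫ T in (0 : ℝ)..T1, main T)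
      - (∫ T in (0 : ℝ)..1, τ T) * A ^ 2 := by
    change ∫ T in (0 : ℝ)..1, (fst T + indicator {x | x ≤ T1} main T - τ T * A ^ 2) = _
    rw [intervalIntegral.integral_sub (ifst.add iind) (iτ.mul_const _),
      intervalIntegral.integral_add ifst iind,
      intervalIntegral.integral_indicator hT1, intervalIntegral.integral_mul_const]
  have hM0 : ∫ T in (0 : ℝ)..1, fst T = (∫ T in (0 : ℝ)..1, a 0 T) * q0
      + (∫ T in (0 : ℝ)..1, a 1 T) * q1 + (∫ T in (0 : ℝ)..1, a 2 T) * q2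
      + (∫ T in (0 : ℝ)..1, a 3 T) * q3 - lmb * (∫ T in (0 : ℝ)..1, kap T) * |qq| := by
    change ∫ T in (0 : ℝ)..1, (a 0 T * q0 + a 1 T * q1 + a 2 T * q2 + a 3 T * q3
      - lmb * kap T * |qq|) = _
    rw [intervalIntegral.integral_sub (((i0.add i1).add i2).add i3) i4,
      intervalIntegral.integral_add ((i0.add i1).add i2) i3,
      intervalIntegral.integral_add (i0.add i1) i2,
      intervalIntegral.integral_add i0 i1]
    simp only [intervalIntegral.integral_mul_const, intervalIntegral.integral_const_mul]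
  have hM : ∫ T in (0 : ℝ)..T1, main T
      = K * (1 - θ) * ((∫ T in (0 : ℝ)..T1, wO m κ σ ξ lam T) * X0
        + (∫ T in (0 : ℝ)..T1, wO1 m κ σ lam T) * min (X1 + σ * X0) 0) := by
    change ∫ T in (0 : ℝ)..T1, K * (1 - θ) * (wO m κ σ ξ lam T * X0
        + wO1 m κ σ lam T * min (X1 + σ * X0) 0) = _
    rw [intervalIntegral.integral_const_mul (K * (1 - θ)),
      intervalIntegral.integral_add i5 i6]
    simp only [intervalIntegral.integral_mul_const]
  have hcN : Continuous N := hNs.continuous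
  have e6 : ‖∫ x, N x ∂(volM V F)‖ ^ 2 = A ^ 2 * ∑ i, m1 (nrm (volM V F)) (co b N) i ^ 2 :=
    sum_m1_sq b (hcN.integrable_of_hasCompactSupport (HasCompactSupport.of_compactSpace N))
  have g0 : q0 = A ^ 2 * qm (nrm (volM V F)) (d / 2) (co b F) (co b N) 0 := E2_qm b d 0
  have g1' : q1 = A ^ 2 * qm (nrm (volM V F)) (d / 2) (co b F) (co b N) 1 := E2_qm b d 1
  have g2 : q2 = A ^ 2 * qm (nrm (volM V F)) (d / 2) (co b F) (co b N) 2 := E2_qm b d 2
  have g3 : q3 = A ^ 2 * qm (nrm (volM V F)) (d / 2) (co b F) (co b N) 3 := E2_qm b d 3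
  have g4 : qq = A ^ 2 * qw (nrm (volM V F)) (d / 2) (co b F) (co b N) := E2_qw b d
  have g5 : E2 (volM V F) F N (Qk d) = A ^ 2 * qm (nrm (volM V F)) (d / 2) (co b F) (co b N) 0 := by
    rw [← g0, hq0]
    simp only [pow_zero, one_mul]
  have g6 : X0 = A ^ 2 * Qpt (nrm (volM V F)) m (co b F) (co b N) := E2_Xk b hmR hT0
  have hA2 : 0 < A ^ 2 := pow_pos hA 2
  have g7 : min (X1 + σ * X0) 0 = A ^ 2 * min (Qpts (nrm (volM V F)) m (co b F) (co b N)
      + σ * Qpt (nrm (volM V F)) m (co b F) (co b N)) 0 := by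
    have h5 : X1 + σ * X0 = A ^ 2 * (Qpts (nrm (volM V F)) m (co b F) (co b N)
      + σ * Qpt (nrm (volM V F)) m (co b F) (co b N)) := by
      rw [g6, show X1 = _ from E2_Xks b hmR hT0]
      unfold Qpts
      ring
    rw [h5, mul_min_of_nonneg _ _ hA2.le, mul_zero]
  have g8 : |qq| = A ^ 2 * |qw (nrm (volM V F)) (d / 2) (co b F) (co b N)| := by
    rw [g4, abs_mul, abs_of_pos hA2]
  rw [hI, hM0, hM, g7, ← hX0, g6, g8, g5, e6, g0, g1', g2, g3, hV]
  have h9 := mul_le_mul_of_nonneg_left hmain hA2.le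
  refine le_trans (le_of_eq ?_) (h9.trans (le_of_eq ?_)) <;> ring

end

end Vale.Agent.P224.R2.H742
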