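import Vale.Agent.P224.R2.H742.NearC
import Vale.Agent.P224.R2.H742.LawO3
import Vale.Agent.P224.R2.H484.AbsV

/-!
The near law in odd dimension in the small box: all terms except the weights of the second square.
-/

namespace Vale.Agent.P224.R2.H742

open MeasureTheory Set Filter Function Real Module Matrix Vale.Agent.P224 Vale.Agent.P224.FV
  Vale.Agent.P224.R2.H925 Vale.Agent.P224.R2.H582 Vale.Agent.P224.R2.H728
open Vale.Agent.P224.SM2 Vale.Agent.P224.R2.H820 Vale.Agent.P224.R2.H424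
  Vale.Agent.P224.R2.H494.ZT Vale.Agent.P224.R2.H355
open scoped RealInnerProductSpace Topology ContDiff Manifold ENNReal

set_option linter.unusedSectionVars false

/-- the coefficients of the line below the weight of the first square -/
noncomputable def aQ {m : ℕ} {L : ℝ} (s : ZSol ((m : ℝ) / 2) L) : Fin 4 → ℝ → ℝ :=
  ![fun T => (1 - muO m T) * (m * (uZ s).e T), fun T => (m + 1) * T * (m * (uZ s).e T),
    fun _ => 0, fun _ => 0]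

section

variable {m : ℕ} (hm : 17 ≤ m) {L : ℝ} (hL : L * ((m : ℝ) ^ 2 - 1) = 4)
  (s : ZSol ((m : ℝ) / 2) L)
include hm hL

lemma e_bound {T : ℝ} (hT : T ∈ Ioo (0 : ℝ) 1) : m * (uZ s).e T
    ≤ 6 / 5 * √2 * (T * ((1 - T ^ 2) ^ ((m : ℝ) / 2) * (1 - T ^ 2))) := by
  have := e_up (par_of hm hL) s hT
  rwa [show 2 * ((m : ℝ) / 2) = m by ring] at this

lemma e_bound' {T : ℝ} (hT : T ∈ Ioo (0 : ℝ) 1) : m * (uZ s).e T ≤ 6 / 5 * √2 * T := by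
  refine (e_bound hm hL s hT).trans ?_
  have hk : 0 < 1 - T ^ 2 := by nlinarith [hT.1, hT.2]
  have h1 : (1 - T ^ 2) ^ ((m : ℝ) / 2) ≤ 1 := rpow_le_one hk.le (by nlinarith [sq_nonneg T])
    (by positivity)
  have h2 : (1 - T ^ 2) ^ ((m : ℝ) / 2) * (1 - T ^ 2) ≤ 1 :=
    mul_le_one₀ h1 hk.le (by nlinarith [sq_nonneg T])
  have h3 := mul_le_mul_of_nonneg_left h2 hT.1.le
  have h4 := mul_le_mul_of_nonneg_left h3 (show 0 ≤ 6 / 5 * √2 by positivity)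
  linarith

lemma e_nn {T : ℝ} (hT : T ∈ Ioo (0 : ℝ) 1) : 0 ≤ m * (uZ s).e T :=
  mul_nonneg (Nat.cast_nonneg m) ((sgn_uZ hm hL s).e0 T hT)

lemma ie_e : IntervalIntegrable (fun T => m * (uZ s).e T) volume 0 1 :=
  (H627.intble (e_cont hm s)).const_mul _

lemma eps_bound {T : ℝ} (hT : T ∈ Ioo (0 : ℝ) 1) : T * -(uZ s).ε T
    ≤ 1 / 12 * ((1 + 11 * T ^ 2) / (1 + T ^ 2)) * (1 - T ^ 2) * (m * (uZ s).e T) := by
  have hp := par_of hm hL
  have := eps_le_e hp.a0 s hp hT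
  refine this.trans (le_of_eq ?_)
  ring

lemma aQ_int : ∀ i, IntervalIntegrable (aQ s i) volume 0 1 := by
  intro i
  have ie := ie_e hm hL s
  fin_cases i
  · exact (int_mu hm ie (C := 6 / 5 * √2) (by positivity) fun T hT => e_bound' hm hL s hT).1
  · exact (int_slope ie (fun T hT => e_nn hm hL s hT) fun T hT => e_bound hm hL s hT).1
  · exact (intervalIntegrable_const (c := (0 : ℝ)))
  · exact (intervalIntegrable_const (c := (0 : ℝ)))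

/-- the integrals of the line -/
lemma aQ_val {B : ℝ} (hB : (b1Q m : ℝ) ≤ B) {d : ℝ} (hd : 0 < d) (hd2 : d ^ 2 = L) :
    4 * (2 * m - 1) * (-(s.P 1)) / ((m : ℝ) ^ 2 - 1) + 1 / 10 * (∫ T in (0 : ℝ)..1, kapO m d T)
      ≤ ∫ T in (0 : ℝ)..1, aQ s 0 T ∧ 0 ≤ ∫ T in (0 : ℝ)..1, aQ s 1 T ∧
    ∫ T in (0 : ℝ)..1, aQ s 1 T ≤ K0 ((m : ℝ) / 2) (cn m) * B ∧
    ∫ T in (0 : ℝ)..1, aQ s 2 T = 0 ∧ ∫ T in (0 : ℝ)..1, aQ s 3 T = 0 := by
  have h := int_slope (ie_e hm hL s) (fun T hT => e_nn hm hL s hT) fun T hT => e_bound hm hL s hT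
  refine ⟨q_final hm hL s hd hd2, h.2.1, slope_le hm h.2.2 hB, ?_, ?_⟩
  · change ∫ T in (0 : ℝ)..1, (0 : ℝ) = 0
    simp
  · change ∫ T in (0 : ℝ)..1, (0 : ℝ) = 0
    simp

lemma aQ_line {d : ℝ} (hd : 0 ≤ d) (hdm : d * m ≤ 2 * (10018 / 10000)) :
    ∀ T ∈ Ioo (0 : ℝ) 1, ∀ t ∈ Icc (-1 : ℝ) 1, cub (aQ s) T t
      ≤ m * (uZ s).e T * ker T (m + 1) t - 2 * (d * -(uZ s).ε T) * |ker T (m + 2) t - 1| := by
  intro T hT t ht
  have h1 := q_line hm hd hdm hT (e_nn hm hL s hT) (eps_bound hm hL s hT) t ht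
  refine le_trans (le_of_eq ?_) h1
  change (1 - muO m T) * (m * (uZ s).e T) + (m + 1) * T * (m * (uZ s).e T) * t
    + 0 * t ^ 2 + 0 * t ^ 3 = _
  ring

lemma d_facts {d : ℝ} (hd2 : d ^ 2 * ((m : ℝ) ^ 2 - 1) = 4) :
    d ^ 2 = L ∧ d ≤ 1 ∧ d * m ≤ 2 * (10018 / 10000) := by
  have hmR : (17 : ℝ) ≤ m := by exact_mod_cast hm
  have hm1 : 0 < (m : ℝ) ^ 2 - 1 := by nlinarith
  have hL1 := (par_of hm hL).L1
  have hdL : d ^ 2 = L := by
    have : d ^ 2 * ((m : ℝ) ^ 2 - 1) = L * ((m : ℝ) ^ 2 - 1) := by rw [hd2, hL]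
    exact mul_right_cancel₀ hm1.ne' this
  refine ⟨hdL, ?_, ?_⟩
  · refine (le_abs_self _).trans (abs_le_of_sq_le_sq ?_ zero_le_one)
    rw [hdL]
    linarith
  · refine (le_abs_self _).trans (abs_le_of_sq_le_sq ?_ (by norm_num))
    have h1 : (d * m) ^ 2 = d ^ 2 * ((m : ℝ) ^ 2 - 1) + d ^ 2 := by ring
    rw [h1, hd2, hdL]
    norm_num
    linarith

end

/-- the rearrangement of the scalar inequality -/
lemma rearr {m r ε0 r0 u q0 Qp X : ℝ} (hm : 17 ≤ m) (hr : 0 < r) (hr2 : r ^ 2 = m ^ 2 - 1)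
    (h : m * r0 * u + 4 * (2 * m - 1) * -ε0 / (m ^ 2 - 1) * q0 + 14 * -ε0 / (m ^ 2 - 1) * Qp ≤ X) :
    m * r0 * u + -(2 * (2 / r) * ε0 / (m + 1)) * ((m + 1) * (2 * m - 1) / r * q0
      + 7 / r * ((m + 1) / 2 * Qp)) ≤ X := by
  refine le_trans (le_of_eq ?_) h
  rw [← hr2]
  field_simp
  ring

section

variable {V W M : Type*} [NormedAddCommGroup V] [InnerProductSpace ℝ V] [FiniteDimensional ℝ V]
  [NormedAddCommGroup W] [InnerProductSpace ℝ W] [FiniteDimensional ℝ W]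
  [TopologicalSpace M] [ChartedSpace V M]
  [MeasurableSpace V] [BorelSpace V] [MeasurableSpace M] [BorelSpace M]
  [MeasurableSpace W] [BorelSpace W] [IsManifold 𝓘(ℝ, V) ∞ M]
  [CompactSpace M] [T2Space M]

/-- **the near law in odd dimension in the small box** -/
theorem near_odd [Nonempty M] {m : ℕ} (hm : 17 ≤ m) (hV : finrank ℝ V = m)
    (hW : finrank ℝ W = finrank ℝ V + 2)
    {F : M → W} (hF : SphImm V F) (hmin : ∀ x n, IsUnitNormal V F x n → meanCurv V F x n = 0)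
    {N : M → W} (hNs : ContMDiff 𝓘(ℝ, V) 𝓘(ℝ, W) ∞ N) (hN : ∀ x, IsUnitNormal V F x (N x))
    {ι : Type*} [Fintype ι] [DecidableEq ι] (b : OrthonormalBasis ι ℝ W) {j : ι → ℝ}
    (h0 : T0Data (nrm (volM V F)) (m : ℝ) (co b F) (co b N))
    (hLS : LSq (nrm (volM V F)) (diagonal j) (co b F) (co b N))
    {L : ℝ} (hL : L * ((m : ℝ) ^ 2 - 1) = 4) (s : ZSol ((m : ℝ) / 2) L)
    {d r : ℝ} (hr : 0 < r) (hr2 : r ^ 2 = (m : ℝ) ^ 2 - 1) (hd : d = 2 / r)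
    {p : H178.BoxQ} (hok : H178.boxOK p = true) (hpc : boxC m p = true)
    (hh1 : hh (nrm (volM V F)) (diagonal j) (co b F) (co b N) ≤ p.h1)
    (hfd : √(fro (De (nrm (volM V F)) (co b F) (co b N))) ≤ p.d1)
    (hu : √(uu (nrm (volM V F)) (co b N))
      ≤ p.Ke * hh (nrm (volM V F)) (diagonal j) (co b F) (co b N))
    {θ κ σ g1 T1 rl : ℝ} {ξ lam l' : ℝ → ℝ}
    (hθ : θ ≤ 1) (hκ : 0 ≤ κ) (hg1 : 0 ≤ g1) (hσ : 0 ≤ σ) (hpσ : (p.σ : ℝ) = σ)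
    (hT1 : T1 ∈ Icc (0 : ℝ) 1)
    (hlow : ∀ T ∈ Ioo (0 : ℝ) 1, T ≤ T1 →
      OddAt m d (K0 ((m : ℝ) / 2) (cn m)) θ κ g1 ξ lam l' (uZ s) T)
    (hup : ∀ T ∈ Ioo (0 : ℝ) 1, T1 < T →
      OddUp m d (K0 ((m : ℝ) / 2) (cn m)) g1 l' (uZ s) T)
    (iw : IntervalIntegrable (wO m κ σ ξ lam) volume 0 T1)
    (iw1 : IntervalIntegrable (wO1 m κ σ lam) volume 0 T1)
    (hV0 : (p.V0 : ℝ) ≤ (1 - θ) * ∫ T in (0 : ℝ)..T1, wO m κ σ ξ lam T)
    (hV1 : (1 - θ) * (∫ T in (0 : ℝ)..T1, wO1 m κ σ lam T) ≤ p.V1)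
    (htail : H484.AbsTail (volM V F) m F N l'
      (rl * hh (nrm (volM V F)) (diagonal j) (co b F) (co b N)))
    (hrel : (1 + g1) * rl ≤ p.rel) :
    NearAtOdd V F N d (s.P 1) (JE s 0) ((m + 1) * (2 * m - 1) / r) (7 / r) (uZ s) := by
  have hmR : (17 : ℝ) ≤ m := by exact_mod_cast hm
  have hm1 : 0 < (m : ℝ) ^ 2 - 1 := by nlinarith
  obtain ⟨q1, q2, q3, q4, q5, q6, q7⟩ := boxC_real hpc
  have hK : 0 < K0 ((m : ℝ) / 2) (cn m) := K0_pos' hm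
  have hd0 : 0 < d := by rw [hd]; positivity
  have hd2 : d ^ 2 * ((m : ℝ) ^ 2 - 1) = 4 := by
    rw [hd, div_pow, hr2, div_mul_cancel₀ _ hm1.ne']
    norm_num
  obtain ⟨hdL, hd1, hdm⟩ := d_facts hm hL hd2
  have hdh := d_le_dQ hm hd2
  obtain ⟨v0, v1, v1', v2, v3⟩ := aQ_val hm hL s q4 hd0 hdL
  obtain ⟨ik, ek⟩ := int_kapO (m := m) d
  obtain ⟨τ, iτ, hτ, τi⟩ := htail
  have nIk : 0 ≤ ∫ T in (0 : ℝ)..1, kapO m d T := by
    rw [ek]
    have := (H627.BM_pos (m := m + 6) (by omega)).le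
    positivity
  have kIk := mixed_le hm hd0.le hdh q5
  rw [← ek] at kIk
  have kw2 := pen_le hm hL s q6
  have kr0 := mean_le hm hL s q7
  generalize K0 ((m : ℝ) / 2) (cn m) = K at *
  set H := hh (nrm (volM V F)) (diagonal j) (co b F) (co b N) with hH
  have hh0 : 0 ≤ H := h0.hh_nonneg (diagonal j)
  have kτ : K * (1 + g1) * (∫ T in (0 : ℝ)..1, τ T) ≤ K * (p.rel * H) := by
    have c1 : (1 + g1) * (∫ T in (0 : ℝ)..1, τ T) ≤ (1 + g1) * (rl * H) :=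
      mul_le_mul_of_nonneg_left τi (by linarith)
    have c2 : (1 + g1) * rl * H ≤ p.rel * H := mul_le_mul_of_nonneg_right hrel hh0
    have c3 := mul_le_mul_of_nonneg_left (c1.trans (by linarith : _ ≤ (p.rel : ℝ) * H)) hK.le
    linarith
  have box := H178.box_sound_K hok h0 q1 hLS (δ := d / 2) (K := K) hK (by positivity)
    (hdh.trans q3) hh1 hfd hu (r0' := m * JE s 0)
    (w1 := 4 * (2 * m - 1) * (-(s.P 1)) / ((m : ℝ) ^ 2 - 1))
    (w2 := 14 * -(s.P 1) / ((m : ℝ) ^ 2 - 1))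
    (I0 := ∫ T in (0 : ℝ)..1, aQ s 0 T) (I1 := ∫ T in (0 : ℝ)..1, aQ s 1 T)
    (Ik := ∫ T in (0 : ℝ)..1, kapO m d T)
    (V0 := K * (1 - θ) * ∫ T in (0 : ℝ)..T1, wO m κ σ ξ lam T)
    (V1 := K * (1 - θ) * ∫ T in (0 : ℝ)..T1, wO1 m κ σ lam T)
    (τ := K * (1 + g1) * ∫ T in (0 : ℝ)..1, τ T)
    (by rw [q2]; exact v0) v1 v1' nIk kIk
    (by rw [mul_assoc]; exact mul_le_mul_of_nonneg_left hV0 hK.le)
    (by rw [mul_assoc]; exact mul_le_mul_of_nonneg_left hV1 hK.le)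
    kw2 kτ kr0
  rw [hpσ] at box
  refine nearAtOdd_of (by omega) hV hW hF hmin hNs hN b (d := d) (K := K) (θ := θ) (κ := κ) (σ := σ)
    (g1 := g1) (lmb := 1) (T1 := T1) (ξ := ξ) (lam := lam) (l' := l')
    (τ := fun T => K * (1 + g1) * τ T) (kap := kapO m d) (a := aQ s)
    hd0.le hd1 hK.le hθ hκ hσ zero_le_one hT1 (sgn_uZ hm hL s) hlow hup
    (aQ_line hm hL s hd0.le hdm) (fun T hT => kap_le hd0.le hT (eps_bound hm hL s hT)
    (e_bound hm hL s hT)) ?_ (aQ_int hm hL s) ik iw iw1 (iτ.const_mul _) ?_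
  · intro T hT
    have h1 := mul_le_mul_of_nonneg_left (hτ T hT) (show 0 ≤ K * (1 + g1) by
      have : 0 ≤ 1 + g1 := by linarith
      positivity)
    refine le_trans (le_of_eq ?_) (h1.trans (le_of_eq ?_)) <;> ring
  · have e5 : ∫ T in (0 : ℝ)..1, K * (1 + g1) * τ T = K * (1 + g1) * ∫ T in (0 : ℝ)..1, τ T :=
      intervalIntegral.integral_const_mul _ _
    rw [v2, v3, e5, hd]
    have e6 : (∑ i, m1 (nrm (volM V F)) (co b N) i ^ 2) = uu (nrm (volM V F)) (co b N) := rfl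
    rw [e6, ← hd]
    rw [hd] at box ⊢
    refine rearr hmR hr hr2 (box.trans (le_of_eq ?_))
    ring

end

end Vale.Agent.P224.R2.H742
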