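import Vale.Agent.P224.R2.H742.IfO
import Vale.Agent.P224.R2.H925.Sys

/-!
Lower bounds of the integrated defect of the flow adapted to a Clifford product.
-/

namespace Vale.Agent.P224.R2.H742

open MeasureTheory Set Filter Function Real Vale.Agent.P224.SM2 Vale.Agent.P224.R2.H925
  Vale.Agent.P224.R2.H582
open scoped Topology

set_option linter.unusedSectionVars false

/-- the coefficient of the tail -/
noncomputable def gO (m d T R r ρ : ℝ) : ℝ :=
  ((m + 1) * (m + 2) * m * T ^ 2 * r + 2 * R * (m + 3) * (m + 2) * d * T ^ 2 * ρ)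
    / (m * (1 - T ^ 2))

/-- the first coefficient: here `ρ` and `ε` are the opposite of the functions of the flow -/
noncomputable def aO (m d T R l y r ρ ε : ℝ) : ℝ :=
  m * (T * y + m * r) - 4 * R * d * (m * ρ + (1 - d ^ 2) * ε) - 4 * (m + 2) * T * d ^ 2 * ρ * R ^ 2
    - R * d ^ 3 * ε - gO m d T R r ρ * l

/-- the second coefficient -/
noncomputable def bO (m d T R e r ρ ε : ℝ) : ℝ :=
  |2 * (4 * d ^ 2 * ρ - m * (m + 1) * T * r) + (m + 1) * T * (m * e)|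
    - 2 * T * (m * (m + 1) * T * r - 4 * d ^ 2 * ρ) + 6 * R * d * (m + 2) * T ^ 2 * ρ
    + 2 * R * (d * (m + 2) * T) * |3 * ρ - ε| + 2 * d ^ 2 * (2 + d) * ε

lemma measurable_Qk (d : ℝ) : Measurable (Qk d) := by
  unfold Qk
  fun_prop

lemma continuous_Qk (d : ℝ) : Continuous (Qk d) := by
  unfold Qk
  fun_prop

/-- the pointwise lower bound of the defect -/
theorem dK_ge {m : ℕ} {T d R l a b lam α β G : ℝ} {u : St} {k : R4}
    (hm : 1 ≤ m) (hT0 : 0 < T) (hT1 : T < 1) (hd : 0 ≤ d) (hd1 : d ≤ 1) (hR : 0 ≤ R)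
    (hRT : 1 ≤ R ^ 2 * (1 - T ^ 2)) (hl : 0 ≤ l)
    (he : 0 ≤ u.e T) (hρ : u.ρ T ≤ 0) (hε : u.ε T ≤ 0)
    (hab : ∀ s ∈ Icc (-1 : ℝ) 1, a + b * s
      ≤ m * u.e T * ker T (m + 1) s - 2 * (d * -u.ε T) * |ker T (m + 2) s - lam|)
    (h57 : 2 * R * (m + 3) * d * -u.ρ T ≤ m * (m + 1) * u.r T)
    (hα : α ≤ aO m d T R l (u.y T) (u.r T) (-u.ρ T) (-u.ε T))
    (hβ : bO m d T R (u.e T) (u.r T) (-u.ρ T) (-u.ε T) ≤ β)
    (hG : gO m d T R (u.r T) (-u.ρ T) ≤ 2 * G)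
    (hk : k ∈ KK) (hb1 : k.1 ^ 2 + k.2.1 ^ 2 ≤ 1) (hb2 : k.1 ^ 2 + k.2.2.1 ^ 2 ≤ 1) :
    (a + b * k.1) * Qk d k - lam * (d * -u.ε T) * ((k.2.1 + k.2.2.1) * Qk d k)
      + 1 / 2 * (Xk k * (α * ker T (m + 1) k.1 - β * ker T (m + 2) k.1)) - G * TK m T l k
      ≤ dK m d u T k := by
  obtain ⟨s, t, p, c⟩ := k
  have hm0 : (0 : ℝ) < m := by exact_mod_cast hm
  have hw : 0 < 1 - T ^ 2 := by nlinarith
  have hs := hk.1
  have ht := hk.2.1
  have hp := hk.2.2.1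
  have hc := hk.2.2.2
  simp only at hs ht hp hc hb1 hb2
  have hv : 0 < 1 - T * s := by nlinarith [hs.2]
  have h1 := abs_le_mul_v hT0.le hT1 hs.2 hR hRT hb1
  have h2 := abs_le_mul_v hT0.le hT1 hs.2 hR hRT hb2
  have hk1 := ker_pos (m + 1) hv
  have e1 : ker T (m + 2) s = ker T (m + 1) s / (1 - T * s) := by
    have := ker_succ_div T s (m + 1) 1
    rw [pow_one] at this
    rw [← this]
  have e2 : ker T m s = ker T (m + 1) s * (1 - T * s) := by
    have := ker_succ_div T s m 1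
    rw [pow_one] at this
    rw [this]
    field_simp
  have hF2 : u.F2 m d T = -(4 * d ^ 2 * u.ρ T) - m * (m + 1) * (T * u.r T) := by
    unfold St.F2
    ring
  have hF3 : u.F3 m d T = d * (m + 2) * T * -u.ρ T := by
    unfold St.F3
    ring
  have hK1 : u.K1 m d T = 2 * d / (m + 1) * (m * -u.ρ T + (1 - d ^ 2) * -u.ε T) := by
    unfold St.K1 St.X2
    rw [hF3]
    field_simp
    ring
  have hK10 : 0 ≤ u.K1 m d T := by
    rw [hK1]
    have : 0 ≤ (1 - d ^ 2) * -u.ε T := mul_nonneg (by nlinarith) (by linarith)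
    have : 0 ≤ (m : ℝ) * -u.ρ T := mul_nonneg hm0.le (by linarith)
    positivity
  have hgO : gO m d T R (u.r T) (-u.ρ T)
      = ((m + 2) * T * (m * (m + 1) * (T * u.r T)) + 2 * R * (m + 3) * T * (d * (m + 2) * T * -u.ρ T))
        / (m * (1 - T ^ 2)) := by
    unfold gO
    congr 1
    ring
  have key := fV_ge (m := (m : ℝ)) (T := T) (d := d) (x1 := m * u.e T) (κ := d * -u.ε T)
    (h0 := -(T * u.y T + m * u.r T)) (k1 := u.K1 m d T) (g2 := m * (m + 1) * (T * u.r T))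
    (j2 := -(4 * d ^ 2 * u.ρ T)) (f3 := d * (m + 2) * T * -u.ρ T) (R := R) (l := l) (a := a)
    (b := b) (lam := lam) (α := α) (β := β) (G := G) (s := s) (t := t) (p := p) (c := c)
    (v := 1 - T * s) (P1 := ker T (m + 1) s) (P2 := ker T (m + 2) s)
    hm0 hT0.le hw hd (by positivity) (mul_nonneg hd (by linarith)) hK10
    (by have := mul_nonneg (sq_nonneg d) (neg_nonneg.2 hρ); linarith)
    (mul_nonneg (by positivity) (by linarith)) hR hl
    (abs_le.2 hs) (abs_le.2 hc) (abs_le.2 ht) (abs_le.2 hp) hv hk1 e1 h1 h2 (hab s hs) ?_ ?_ ?_ ?_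
  · refine le_trans (le_of_eq ?_) (key.trans (le_of_eq ?_))
    · unfold Qk Xk TK Yk Xk
      ring
    · unfold dK fK
      simp only
      rw [hF2, hF3, e2]
      congr 1
      ring
  · have h3 := mul_le_mul_of_nonneg_left h57 (show 0 ≤ ((m : ℝ) + 2) * T by positivity)
    linarith
  · refine hα.trans (le_of_eq ?_)
    unfold aO
    rw [hgO, hK1]
    field_simp
    ring
  · refine le_trans (le_of_eq ?_) hβ
    unfold bO
    have e5 : |3 * (d * (m + 2) * T * -u.ρ T) - (m + 2) * T * (d * -u.ε T)|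
        = (d * (m + 2) * T) * |3 * -u.ρ T - -u.ε T| := by
      rw [show 3 * (d * ((m : ℝ) + 2) * T * -u.ρ T) - (m + 2) * T * (d * -u.ε T)
        = (d * (m + 2) * T) * (3 * -u.ρ T - -u.ε T) by ring, abs_mul,
        abs_of_nonneg (by positivity)]
    have e6 : 2 * (-(4 * d ^ 2 * u.ρ T) - (m : ℝ) * (m + 1) * (T * u.r T))
        = 2 * (4 * d ^ 2 * -u.ρ T - m * (m + 1) * T * u.r T) := by ring
    rw [e5, e6]
    ring
  · rw [← hgO]
    exact hG

section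

variable {Q : Type*} [MeasurableSpace Q] {ν : Measure Q} [IsFiniteMeasure ν] {m : ℕ} {κ : Q → R4}

/-- the mean of a function of the pair data -/
noncomputable def Ek (ν : Measure Q) (κ : Q → R4) (f : R4 → ℝ) : ℝ := ∫ x, f (κ x) ∂ν

lemma int_Ek (h : PL ν m κ) {f : R4 → ℝ} (hf : Measurable f) (hc : ContinuousOn f KK) :
    Integrable (fun x => f (κ x)) ν :=
  integrable_param ν h.meas isCompact_KK h.mem hf hc

lemma Ek_mul (a : ℝ) (f : R4 → ℝ) : Ek ν κ (fun k => a * f k) = a * Ek ν κ f :=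
  integral_const_mul _ _

lemma Ek_comb4 (h : PL ν m κ) {f1 f2 f3 f4 f5 : R4 → ℝ} (m1 : Measurable f1)
    (c1 : ContinuousOn f1 KK) (m2 : Measurable f2) (c2 : ContinuousOn f2 KK) (m3 : Measurable f3)
    (c3 : ContinuousOn f3 KK) (m4 : Measurable f4) (c4 : ContinuousOn f4 KK) (m5 : Measurable f5)
    (c5 : ContinuousOn f5 KK) (a1 a2 a3 a4 a5 : ℝ) :
    Integrable (fun x => a1 * f1 (κ x) + a2 * f2 (κ x) + a3 * f3 (κ x) + a4 * f4 (κ x)
      + a5 * f5 (κ x)) ν ∧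
    ∫ x, (a1 * f1 (κ x) + a2 * f2 (κ x) + a3 * f3 (κ x) + a4 * f4 (κ x) + a5 * f5 (κ x)) ∂ν
      = a1 * Ek ν κ f1 + a2 * Ek ν κ f2 + a3 * Ek ν κ f3 + a4 * Ek ν κ f4 + a5 * Ek ν κ f5 := by
  have i1 : Integrable (fun x => a1 * f1 (κ x)) ν := (int_Ek h m1 c1).const_mul a1
  have i2 : Integrable (fun x => a2 * f2 (κ x)) ν := (int_Ek h m2 c2).const_mul a2
  have i3 : Integrable (fun x => a3 * f3 (κ x)) ν := (int_Ek h m3 c3).const_mul a3
  have i4 : Integrable (fun x => a4 * f4 (κ x)) ν := (int_Ek h m4 c4).const_mul a4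
  have i5 : Integrable (fun x => a5 * f5 (κ x)) ν := (int_Ek h m5 c5).const_mul a5
  have j2 : Integrable (fun x => a1 * f1 (κ x) + a2 * f2 (κ x)) ν := i1.add i2
  have j3 : Integrable (fun x => a1 * f1 (κ x) + a2 * f2 (κ x) + a3 * f3 (κ x)) ν := j2.add i3
  have j4 : Integrable (fun x => a1 * f1 (κ x) + a2 * f2 (κ x) + a3 * f3 (κ x)
    + a4 * f4 (κ x)) ν := j3.add i4
  refine ⟨j4.add i5, ?_⟩
  rw [integral_add j4 i5, integral_add j3 i4, integral_add j2 i3, integral_add i1 i2]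
  simp only [integral_const_mul]
  rfl

/-- the defect at level T: the second square at level zero, the first one at level T -/
theorem DS_ge_level (h : PL ν m κ) {T d R l a b lam α β G : ℝ} {u : St}
    (hm : 1 ≤ m) (hT : T ∈ Ioo (0 : ℝ) 1) (hd : 0 ≤ d) (hd1 : d ≤ 1) (hR : 0 ≤ R)
    (hRT : 1 ≤ R ^ 2 * (1 - T ^ 2)) (hl : 0 ≤ l)
    (he : 0 ≤ u.e T) (hρ : u.ρ T ≤ 0) (hε : u.ε T ≤ 0)
    (hab : ∀ s ∈ Icc (-1 : ℝ) 1, a + b * s
      ≤ m * u.e T * ker T (m + 1) s - 2 * (d * -u.ε T) * |ker T (m + 2) s - lam|)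
    (h57 : 2 * R * (m + 3) * d * -u.ρ T ≤ m * (m + 1) * u.r T)
    (hα : α ≤ aO m d T R l (u.y T) (u.r T) (-u.ρ T) (-u.ε T))
    (hβ : bO m d T R (u.e T) (u.r T) (-u.ρ T) (-u.ε T) ≤ β)
    (hG : gO m d T R (u.r T) (-u.ρ T) ≤ 2 * G) :
    a * Ek ν κ (Qk d) + b * Ek ν κ (fun k => k.1 * Qk d k)
      + (-(lam * (d * -u.ε T))) * Ek ν κ (fun k => (k.2.1 + k.2.2.1) * Qk d k)
      + 1 / 2 * Ek ν κ (fun k => Xk k * (α * ker T (m + 1) k.1 - β * ker T (m + 2) k.1))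
      + (-G) * Ek ν κ (TK m T l) ≤ DS ν m κ d u T := by
  have hT' : T ∈ Ico (0 : ℝ) 1 := ⟨hT.1.le, hT.2⟩
  have k1 := measurable_ker T (m + 1)
  have k2 := measurable_ker T (m + 2)
  have c1 := contOn_ker' hT' (m + 1)
  have c2 := contOn_ker' hT' (m + 2)
  have mQ := measurable_Qk d
  have cQ := continuous_Qk d
  have b1 : Measurable (fun k : R4 => Xk k * (α * ker T (m + 1) k.1 - β * ker T (m + 2) k.1)) := by
    unfold Xk; fun_prop
  have b2 : ContinuousOn (fun k : R4 => Xk k * (α * ker T (m + 1) k.1 - β * ker T (m + 2) k.1))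
      KK := by
    refine ContinuousOn.mul ?_ ((continuousOn_const.mul c1).sub (continuousOn_const.mul c2))
    unfold Xk; fun_prop
  obtain ⟨hi, he⟩ := Ek_comb4 h mQ cQ.continuousOn
    (f2 := fun k => k.1 * Qk d k) (by fun_prop) (by fun_prop)
    (f3 := fun k => (k.2.1 + k.2.2.1) * Qk d k) (by fun_prop) (by fun_prop) b1 b2
    (measurable_TK m T l) (contOn_TK hT' m l) a b (-(lam * (d * -u.ε T))) (1 / 2) (-G)
  rw [← he]
  refine integral_mono hi (integrable_fK h hT' _ _ _ _ _ _ _) fun x => ?_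
  have := dK_ge (k := κ x) hm hT.1 hT.2 hd hd1 hR hRT hl (by assumption) hρ hε hab h57 hα hβ hG
    (h.mem x) (h.b1 x) (h.b2 x)
  refine le_trans (le_of_eq ?_) this
  simp only
  ring

/-- the defect at level T in terms of the means at level zero -/
theorem DS_ge_zero (h : PL ν m κ) {T d R l a b lam α β G s0 : ℝ} {u : St}
    (hm : 1 ≤ m) (hT : T ∈ Ioo (0 : ℝ) 1) (hd : 0 ≤ d) (hd1 : d ≤ 1) (hR : 0 ≤ R)
    (hRT : 1 ≤ R ^ 2 * (1 - T ^ 2)) (hl : 0 ≤ l)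
    (he : 0 ≤ u.e T) (hρ : u.ρ T ≤ 0) (hε : u.ε T ≤ 0)
    (hab : ∀ s ∈ Icc (-1 : ℝ) 1, a + b * s
      ≤ m * u.e T * ker T (m + 1) s - 2 * (d * -u.ε T) * |ker T (m + 2) s - lam|)
    (h57 : 2 * R * (m + 3) * d * -u.ρ T ≤ m * (m + 1) * u.r T)
    (hα : α ≤ aO m d T R l (u.y T) (u.r T) (-u.ρ T) (-u.ε T))
    (hβ : bO m d T R (u.e T) (u.r T) (-u.ρ T) (-u.ε T) ≤ β)
    (hG : gO m d T R (u.r T) (-u.ρ T) ≤ 2 * G)
    (hα0 : 0 ≤ α) (hs0 : s0 < 1) (hconv : (m + 3) * β ≤ (m + 1) * α * (1 - T)) :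
    a * Ek ν κ (Qk d) + b * Ek ν κ (fun k => k.1 * Qk d k)
      + (-(lam * (d * -u.ε T))) * Ek ν κ (fun k => (k.2.1 + k.2.2.1) * Qk d k)
      + 1 / 2 * (ta (m + 1) T α β s0 * Ek ν κ Xk
        + tb (m + 1) T α β s0 * (Ek ν κ (fun k => Xk k * k.1) - s0 * Ek ν κ Xk))
      + (-G) * Ek ν κ (TK m T l) ≤ DS ν m κ d u T := by
  have hT' : T ∈ Ico (0 : ℝ) 1 := ⟨hT.1.le, hT.2⟩
  refine le_trans ?_ (DS_ge_level h hm hT hd hd1 hR hRT hl he hρ hε hab h57 hα hβ hG)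
  have k1 := measurable_ker T (m + 1)
  have k2 := measurable_ker T (m + 2)
  have c1 := contOn_ker' hT' (m + 1)
  have c2 := contOn_ker' hT' (m + 2)
  have mX : Measurable Xk := by unfold Xk; fun_prop
  have cX : ContinuousOn Xk KK := by unfold Xk; fun_prop
  have p2 : ta (m + 1) T α β s0 * Ek ν κ Xk
        + tb (m + 1) T α β s0 * (Ek ν κ (fun k => Xk k * k.1) - s0 * Ek ν κ Xk)
      ≤ Ek ν κ (fun k => Xk k * (α * ker T (m + 1) k.1 - β * ker T (m + 2) k.1)) := by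
    have i1 : Integrable (fun x => (ta (m + 1) T α β s0 - tb (m + 1) T α β s0 * s0) * Xk (κ x)) ν :=
      (int_Ek h mX cX).const_mul _
    have i2 : Integrable (fun x => tb (m + 1) T α β s0 * (Xk (κ x) * (κ x).1)) ν :=
      (int_Ek h (f := fun k => Xk k * k.1) (by fun_prop) (cX.mul (by fun_prop))).const_mul _
    have e1 : ta (m + 1) T α β s0 * Ek ν κ Xk
        + tb (m + 1) T α β s0 * (Ek ν κ (fun k => Xk k * k.1) - s0 * Ek ν κ Xk)
        = ∫ x, ((ta (m + 1) T α β s0 - tb (m + 1) T α β s0 * s0) * Xk (κ x)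
          + tb (m + 1) T α β s0 * (Xk (κ x) * (κ x).1)) ∂ν := by
      rw [integral_add i1 i2, integral_const_mul, integral_const_mul]
      unfold Ek
      ring
    rw [e1]
    refine integral_mono (i1.add i2) (int_Ek h
      (mX.mul (((k1.comp measurable_fst).const_mul _).sub ((k2.comp measurable_fst).const_mul _)))
      (cX.mul ((continuousOn_const.mul c1).sub (continuousOn_const.mul c2)))) fun x => ?_
    have hk := h.mem x
    have h1 := comb_tangent (T := T) (s := (κ x).1) (s0 := s0) (α := α) (β := β) (q := m + 1)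
      hT.1.le hT.2 hk.1.2 hs0 hα0 (by push_cast; linarith)
    have hX : 0 ≤ Xk (κ x) := sq_nonneg _
    have h2 := mul_le_mul_of_nonneg_left h1 hX
    refine le_trans (le_of_eq ?_) h2
    unfold ta tb
    ring
  linarith

/-- the defect is bounded below by the part with the second square and the tail -/
theorem DS_ge_tail (h : PL ν m κ) {T d R l a b lam α β G : ℝ} {u : St}
    (hm : 1 ≤ m) (hT : T ∈ Ioo (0 : ℝ) 1) (hd : 0 ≤ d) (hd1 : d ≤ 1) (hR : 0 ≤ R)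
    (hRT : 1 ≤ R ^ 2 * (1 - T ^ 2)) (hl : 0 ≤ l)
    (he : 0 ≤ u.e T) (hρ : u.ρ T ≤ 0) (hε : u.ε T ≤ 0)
    (hab : ∀ s ∈ Icc (-1 : ℝ) 1, a + b * s
      ≤ m * u.e T * ker T (m + 1) s - 2 * (d * -u.ε T) * |ker T (m + 2) s - lam|)
    (h57 : 2 * R * (m + 3) * d * -u.ρ T ≤ m * (m + 1) * u.r T)
    (hα : α ≤ aO m d T R l (u.y T) (u.r T) (-u.ρ T) (-u.ε T))
    (hβ : bO m d T R (u.e T) (u.r T) (-u.ρ T) (-u.ε T) ≤ β)
    (hG : gO m d T R (u.r T) (-u.ρ T) ≤ 2 * G)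
    (hα0 : 0 ≤ α) (hpos : β ≤ α * (1 - T)) :
    a * Ek ν κ (Qk d) + b * Ek ν κ (fun k => k.1 * Qk d k)
      + (-(lam * (d * -u.ε T))) * Ek ν κ (fun k => (k.2.1 + k.2.2.1) * Qk d k)
      + (-G) * Ek ν κ (TK m T l) ≤ DS ν m κ d u T := by
  have hT' : T ∈ Ico (0 : ℝ) 1 := ⟨hT.1.le, hT.2⟩
  refine le_trans ?_ (DS_ge_level h hm hT hd hd1 hR hRT hl he hρ hε hab h57 hα hβ hG)
  have p2 : 0 ≤ Ek ν κ (fun k => Xk k * (α * ker T (m + 1) k.1 - β * ker T (m + 2) k.1)) := by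
    refine integral_nonneg fun x => ?_
    have hk := h.mem x
    have hv := one_sub_pos' hT' hk.1.2
    change 0 ≤ Xk (κ x) * (α * ker T (m + 1) (κ x).1 - β * ker T (m + 2) (κ x).1)
    refine mul_nonneg (sq_nonneg _) ?_
    have e2 : ker T (m + 2) (κ x).1 = ker T (m + 1) (κ x).1 / (1 - T * (κ x).1) := by
      have := ker_succ_div T (κ x).1 (m + 1) 1
      rw [pow_one] at this
      rw [← this]
    rw [e2]
    have hk1 := ker_pos (m + 1) hv
    have h1 : 1 - T ≤ 1 - T * (κ x).1 := by nlinarith [hT.1, hk.1.2]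
    have h2 : β / (1 - T * (κ x).1) ≤ α := by
      rw [div_le_iff₀ hv]
      exact hpos.trans (mul_le_mul_of_nonneg_left h1 hα0)
    have h3 := mul_le_mul_of_nonneg_right h2 hk1.le
    have h4 : β * (ker T (m + 1) (κ x).1 / (1 - T * (κ x).1))
        = β / (1 - T * (κ x).1) * ker T (m + 1) (κ x).1 := by
      field_simp
    linarith
  linarith

end

end Vale.Agent.P224.R2.H742
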