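import Vale.Agent.P224.R2.H494.ZCl2
import Vale.Agent.P224.R2.H424.Abs6

/-!
Upper bound of the function `e` of the flow of the odd dimension.
-/

namespace Vale.Agent.P224.R2.H742

open Set Real Vale.Agent.P224.R2.H494.ZT Vale.Agent.P224.R2.H424 Vale.Agent.P224.R2.H355
  Vale.Agent.P224.R2.H627

/-- the bracket of the upper bound -/
lemma brk_le {x h : ℝ} (hx0 : 0 < x) (hx1 : x ≤ 2 / 17) (h0 : 0 ≤ h) (h1 : h ≤ 1) :
    1 + x * (-1 - 2 * h + 35 / 8 * h ^ 2)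
    + x ^ 2 * (3 / 2 + 6 * h - 657 / 40 * h ^ 2 - 3509 / 240 * h ^ 3 + 2079 / 80 * h ^ 4
    + 11 / 40 * h ^ 8) ≤ 6 / 5 := by
  have h8 : h ^ 8 ≤ h ^ 4 := pow_le_pow_of_le_one h0 h1 (by norm_num)
  have key : -1 - 2 * h + 35 / 8 * h ^ 2
      + x * (3 / 2 + 6 * h - 657 / 40 * h ^ 2 - 3509 / 240 * h ^ 3 + 2079 / 80 * h ^ 4
        + 11 / 40 * h ^ 8) ≤ 17 / 10 := by
    have k1 : x * (3 / 2 + 6 * h - 657 / 40 * h ^ 2 - 3509 / 240 * h ^ 3 + 2079 / 80 * h ^ 4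
        + 11 / 40 * h ^ 8) ≤ x * (3 / 2 + 6 * h - 657 / 40 * h ^ 2 - 3509 / 240 * h ^ 3
          + 2101 / 80 * h ^ 4) := mul_le_mul_of_nonneg_left (by linarith) hx0.le
    set P := 3 / 2 + 6 * h - 657 / 40 * h ^ 2 - 3509 / 240 * h ^ 3 + 2101 / 80 * h ^ 4 with hP
    have k2 : x * P ≤ max 0 (2 / 17 * P) := by
      rcases le_total 0 P with hp | hp
      · exact le_max_of_le_right (mul_le_mul_of_nonneg_right hx1 hp)
      · exact le_max_of_le_left (mul_nonpos_of_nonneg_of_nonpos hx0.le hp)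
    have k3 : -1 - 2 * h + 35 / 8 * h ^ 2 ≤ 17 / 10 := by nlinarith
    have k4 : -1 - 2 * h + 35 / 8 * h ^ 2 + 2 / 17 * P ≤ 17 / 10 := by
      rw [hP]
      set t := 1 - h with ht
      have e : h = 1 - t := by rw [ht]; ring
      have t0 : 0 ≤ t := by linarith
      have t1 : t ≤ 1 := by linarith
      rw [e]
      nlinarith [mul_nonneg t0 (sub_nonneg.2 t1), mul_nonneg (mul_nonneg t0 t0) (sub_nonneg.2 t1),
        mul_nonneg (mul_nonneg (mul_nonneg t0 t0) t0) (sub_nonneg.2 t1)]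
    rcases max_cases 0 (2 / 17 * P) with ⟨hm, _⟩ | ⟨hm, _⟩
    · rw [hm] at k2; linarith
    · rw [hm] at k2; linarith
  have := mul_le_mul_of_nonneg_left key hx0.le
  nlinarith

variable {a L : ℝ}

/-- the upper bound of `e` -/
theorem e_up (hp : Par a L) (s : ZSol a L) {T : ℝ} (hT : T ∈ Ioo (0 : ℝ) 1) :
    2 * a * (uZ s).e T ≤ 6 / 5 * √2 * (T * ((1 - T ^ 2) ^ a * (1 - T ^ 2))) := by
  have ha : 0 < a := hp.a0
  obtain ⟨x, hx, hx0, hx1, haL, -⟩ := HS.exX hp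
  have hh : hv T ∈ Icc (0 : ℝ) 1 := Vale.Agent.P224.R2.H355.hv_mem hT
  have h1 := HS.E_up (hsol ha s) hp hx hx0 hx1 haL (hv T) hh
  have h2 := brk_le hx0 hx1 hh.1 hh.2
  have h3 : (hsol ha s).E (hv T) ≤ hv T * (6 / 5) := h1.trans (mul_le_mul_of_nonneg_left h2 hh.1)
  have hw := w_pos hT
  have hq := s_pos T
  have hq2 := s_sq T
  have hq1 : 1 ≤ √(1 + T ^ 2) := Real.one_le_sqrt.2 (by nlinarith [sq_nonneg T])
  rw [e_eq ha s T]
  have hT0 := hT.1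
  have hE : (hsol ha s).E (hv T) / ((1 + T ^ 2) * √(1 + T ^ 2)) ≤ 6 / 5 * (1 - T ^ 2) := by
    rw [div_le_iff₀ (by positivity)]
    have h4 : hv T ≤ 1 - T ^ 2 := by
      unfold hv
      exact div_le_self hw.le (by nlinarith [sq_nonneg T])
    have h5 : (1 : ℝ) ≤ (1 + T ^ 2) * √(1 + T ^ 2) := by nlinarith [sq_nonneg T]
    have h6 : 6 / 5 * (1 - T ^ 2) * 1 ≤ 6 / 5 * (1 - T ^ 2) * ((1 + T ^ 2) * √(1 + T ^ 2)) :=
      mul_le_mul_of_nonneg_left h5 (by positivity)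
    linarith
  calc 2 * a * (√2 * (T * (1 - T ^ 2) ^ a * (hsol ha s).E (hv T)
        / (2 * a * ((1 + T ^ 2) * √(1 + T ^ 2)))))
      = √2 * (T * (1 - T ^ 2) ^ a) * ((hsol ha s).E (hv T) / ((1 + T ^ 2) * √(1 + T ^ 2))) := by
        field_simp
    _ ≤ √2 * (T * (1 - T ^ 2) ^ a) * (6 / 5 * (1 - T ^ 2)) :=
        mul_le_mul_of_nonneg_left hE (by positivity)
    _ = _ := by ring

end Vale.Agent.P224.R2.H742
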