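import Vale.Agent.P224.R2.H742.QPart
import Vale.Agent.P224.R2.H742.OddE
import Vale.Agent.P224.R2.H355.XIneq
import Vale.Agent.P224.R2.H355.PEps
import Vale.Agent.P224.R2.H424.Abs9

/-!
The first square of the flow of the odd dimension: all the inputs of the law.
-/

namespace Vale.Agent.P224.R2.H742

open MeasureTheory Set Filter Function Real Vale.Agent.P224.SM2 Vale.Agent.P224.R2.H925
  Vale.Agent.P224.R2.H627 Vale.Agent.P224.R2.H820 Vale.Agent.P224.R2.H424
  Vale.Agent.P224.R2.H494.ZT Vale.Agent.P224.R2.H355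
open scoped Topology

section

variable {m : ℕ} (hm : 17 ≤ m) {L : ℝ} (hL : L * ((m : ℝ) ^ 2 - 1) = 4)
  (s : ZSol ((m : ℝ) / 2) L)
include hm hL

lemma par_of : Par ((m : ℝ) / 2) L := by
  have hmR : (17 : ℝ) ≤ m := by exact_mod_cast hm
  have hm1 : 0 < (m : ℝ) ^ 2 - 1 := by nlinarith
  have hL0 : 0 ≤ L := by
    by_contra h
    push Not at h
    have := mul_neg_of_neg_of_pos h hm1
    linarith
  have e4 : 4 * ((m : ℝ) / 2) ^ 2 - 1 = (m : ℝ) ^ 2 - 1 := by ring
  exact ⟨by linarith, hL0, by rw [e4, hL]⟩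

omit hL in
lemma e_cont : ContinuousOn (uZ s).e (Icc 0 1) := by
  have hmR : (17 : ℝ) ≤ m := by exact_mod_cast hm
  have h1 := cont_E s
  have h2 : Continuous fun T : ℝ => (1 - T ^ 2) ^ ((m : ℝ) / 2) := continuous_kap (by linarith)
  exact continuousOn_id.mul (h2.continuousOn.mul h1)

lemma e_low {T : ℝ} (hT : T ∈ Ioo (0 : ℝ) 1) :
    K0 ((m : ℝ) / 2) (cn m) * (1 - 15.5 / (m * ((m : ℝ) ^ 2 - 1))) * eM m T ≤ (uZ s).e T := by
  have hmR : (17 : ℝ) ≤ m := by exact_mod_cast hm
  have hp := par_of hm hL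
  have hn := nrm_cn (m := m) (by omega)
  have st := HS.stg (hsol hp.a0 s) hp
  have h := e_ge (a := (m : ℝ) / 2) (c := cn m) hp.ha hp.L0 (hn.pos' hp.ha) s (κ := 140)
    (φ := 7.4) (by norm_num) (by norm_num) (by norm_num) (by norm_num) st hT
  have e : ηl' ((m : ℝ) / 2) L = 15.5 / (m * ((m : ℝ) ^ 2 - 1)) := by
    have hm1 : 0 < (m : ℝ) ^ 2 - 1 := by nlinarith
    have e1 : L = 4 / ((m : ℝ) ^ 2 - 1) := by
      rw [eq_div_iff hm1.ne']
      exact hL
    unfold ηl'
    rw [e1]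
    field_simp
    norm_num
  rw [e] at h
  exact h

lemma e_pos {T : ℝ} (hT : T ∈ Ioo (0 : ℝ) 1) : 0 ≤ (uZ s).e T := by
  have hmR : (17 : ℝ) ≤ m := by exact_mod_cast hm
  refine le_trans ?_ (e_low hm hL s hT)
  have he := (certO_M (m := m) (by omega)).e0 T hT
  have hn := nrm_cn (m := m) (by omega)
  have hK := K0_pos (a := (m : ℝ) / 2) (hn.pos' (by linarith : (17 : ℝ) / 2 ≤ (m : ℝ) / 2))
    (by linarith)
  have h1 : 15.5 / ((m : ℝ) * ((m : ℝ) ^ 2 - 1)) ≤ 1 := by
    rw [div_le_one (by nlinarith)]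
    nlinarith
  exact mul_nonneg (mul_nonneg hK.le (by linarith)) he

/-- **the first square**: its net weight controls the mixed term -/
theorem q_final {d : ℝ} (hd : 0 < d) (hd2 : d ^ 2 = L) :
    4 * (2 * m - 1) * (-(s.P 1)) / ((m : ℝ) ^ 2 - 1) + 1 / 10 * (∫ T in (0 : ℝ)..1, kapO m d T)
      ≤ ∫ T in (0 : ℝ)..1, (1 - muO m T) * (m * (uZ s).e T) := by
  have hmR : (17 : ℝ) ≤ m := by exact_mod_cast hm
  have hm0 : (0 : ℝ) < m := by linarith
  have hp := par_of hm hL
  have hn := nrm_cn (m := m) (by omega)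
  have hX := X_le hmR hL s hn
  have s2 : 0 < √(2 : ℝ) := by positivity
  set K : ℝ := K0 ((m : ℝ) / 2) (cn m) with hK
  have hK0 : 0 < K := K0_pos (hn.pos' (by linarith : (17 : ℝ) / 2 ≤ (m : ℝ) / 2)) (by linarith)
  set X : ℝ := K * m / ((m + 2) * (m + 4)) with hXd
  have hX0 : 0 < X := by positivity
  -- the constant
  have hC : √2 ≤ 54663 / 39015 * (m * X) := by
    have h1 : √2 ≤ 137 / 135 * K := by
      have h2 := Wf_one_le (by linarith : (17 : ℝ) / 2 ≤ (m : ℝ) / 2) hn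
      have h3 : (16 * ((m : ℝ) / 2) + 1) / (16 * ((m : ℝ) / 2) - 1) ≤ 137 / 135 := by
        rw [div_le_div_iff₀ (by linarith) (by norm_num)]
        linarith
      have h4 : 0 < Wf ((m : ℝ) / 2) (cn m) 1 :=
        Wf_pos (hn.pos' (by linarith)) (by linarith)
      rw [hK]
      unfold K0
      rw [mul_div_assoc', le_div_iff₀ h4]
      nlinarith
    have h5 : K ≤ 399 / 289 * (m * X) := by
      have e : (m : ℝ) * X = K * (m ^ 2 / ((m + 2) * (m + 4))) := by
        rw [hXd]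
        ring
      rw [e]
      have h6 : 289 / 399 ≤ (m : ℝ) ^ 2 / ((m + 2) * (m + 4)) := by
        rw [div_le_div_iff₀ (by norm_num) (by positivity)]
        nlinarith
      nlinarith
    linarith
  -- the integral of the weight
  have ce := e_cont hm s
  have ie : IntervalIntegrable (fun T => m * (uZ s).e T) volume 0 1 := (intble ce).const_mul _
  have hup : ∀ T ∈ Ioo (0 : ℝ) 1, m * (uZ s).e T
      ≤ 6 / 5 * √2 * (T * ((1 - T ^ 2) ^ ((m : ℝ) / 2) * (1 - T ^ 2))) := by
    intro T hT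
    have := e_up hp s hT
    rwa [show 2 * ((m : ℝ) / 2) = m by ring] at this
  have hup' : ∀ T ∈ Ioo (0 : ℝ) 1, m * (uZ s).e T ≤ 6 / 5 * √2 * T := by
    intro T hT
    refine (hup T hT).trans ?_
    have hk : 0 < 1 - T ^ 2 := by nlinarith [hT.1, hT.2]
    have h1 : (1 - T ^ 2) ^ ((m : ℝ) / 2) ≤ 1 := rpow_le_one hk.le (by nlinarith [sq_nonneg T])
      (by positivity)
    have h2 : (1 - T ^ 2) ^ ((m : ℝ) / 2) * (1 - T ^ 2) ≤ 1 :=
      mul_le_one₀ h1 hk.le (by nlinarith [sq_nonneg T])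
    have h3 := mul_le_mul_of_nonneg_left h2 hT.1.le
    have h4 := mul_le_mul_of_nonneg_left h3 (show 0 ≤ 6 / 5 * √2 by positivity)
    linarith
  obtain ⟨_, hmu⟩ := int_mu hm ie (C := 6 / 5 * √2) (by positivity) hup'
  -- lower bound of the integral
  have hI : (1 - 15.5 / (m * ((m : ℝ) ^ 2 - 1))) * X ≤ ∫ T in (0 : ℝ)..1, m * (uZ s).e T := by
    have c1 := H582.contOn_eM (m := m) (by omega)
    have h1 : ∫ T in (0 : ℝ)..1, m * (K * (1 - 15.5 / (m * ((m : ℝ) ^ 2 - 1)))) * eM m T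
        ≤ ∫ T in (0 : ℝ)..1, m * (uZ s).e T := by
      refine intervalIntegral.integral_mono_on_of_le_Ioo zero_le_one
        ((intble c1).const_mul _) ie fun T hT => ?_
      have := mul_le_mul_of_nonneg_left (e_low hm hL s hT) hm0.le
      rw [← hK] at this
      linarith
    refine le_trans (le_of_eq ?_) h1
    rw [intervalIntegral.integral_const_mul]
    have h2 : ∫ T in (0 : ℝ)..1, eM m T = 1 / (((m : ℝ) + 2) * (m + 4)) := by
      have h3 := EM_zero (m := m) (by omega)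
      unfold EM at h3
      simpa using h3
    rw [h2, hXd]
    field_simp
  have hη : 9822 / 10000 * X ≤ 9854 / 10000 * ∫ T in (0 : ℝ)..1, m * (uZ s).e T := by
    have h1 : 15.5 / ((m : ℝ) * ((m : ℝ) ^ 2 - 1)) ≤ 317 / 100000 := by
      rw [div_le_div_iff₀ (by nlinarith) (by norm_num)]
      nlinarith
    nlinarith
  -- the mixed term
  have hB0 : 0 < BM (m + 6) := BM_pos (by omega)
  have hB : BM (m + 6) ≤ 2643 / 10000 := by
    have h1 := BM_sq_le (m := m + 6) (by omega)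
    have h2 : π / (2 * ((m + 6 : ℕ) : ℝ) - 1 + 1 / (4 * ((m + 6 : ℕ) : ℝ) - 1))
        ≤ (2643 / 10000) ^ 2 := by
      push_cast
      have h3 : 0 < 1 / (4 * ((m : ℝ) + 6) - 1) := by
        have : 0 < 4 * ((m : ℝ) + 6) - 1 := by linarith
        positivity
      rw [div_le_iff₀ (by linarith)]
      have := pi_lt_d6
      nlinarith
    exact (le_abs_self _).trans (abs_le_of_sq_le_sq (h1.trans h2) (by norm_num))
  have hdm : d * m ≤ 2 * (10018 / 10000) := by
    refine (le_abs_self _).trans (abs_le_of_sq_le_sq ?_ (by norm_num))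
    have h1 : (d * m) ^ 2 = L * m ^ 2 := by rw [mul_pow, hd2]
    have h2 : L * (m : ℝ) ^ 2 = 4 + L := by linarith
    have h3 : L ≤ 1 / 72 := hp.L1
    rw [h1, h2]
    norm_num
    linarith
  have hkap : 1 / 10 * (∫ T in (0 : ℝ)..1, kapO m d T) ≤ 1052 / 100000 * X := by
    rw [(int_kapO (m := m) d).2]
    have h1 : 1 + 10 / ((m : ℝ) + 7) ≤ 17 / 12 := by
      have : 10 / ((m : ℝ) + 7) ≤ 5 / 12 := by
        rw [div_le_div_iff₀ (by positivity) (by norm_num)]
        linarith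
      linarith
    have h2 : BM (m + 6) * (1 + 10 / ((m : ℝ) + 7)) ≤ 2643 / 10000 * (17 / 12) :=
      mul_le_mul hB h1 (by positivity) (by norm_num)
    have h3 : d * √2 ≤ d * (54663 / 39015 * (m * X)) := mul_le_mul_of_nonneg_left hC hd.le
    have h4 : d * (54663 / 39015 * (m * X)) = 54663 / 39015 * X * (d * m) := by ring
    have h5 : 54663 / 39015 * X * (d * m) ≤ 54663 / 39015 * X * (2 * (10018 / 10000)) :=
      mul_le_mul_of_nonneg_left hdm (by positivity)
    have h6 : d * √2 ≤ 54663 / 39015 * X * (2 * (10018 / 10000)) := by linarith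
    have h7 : d * √2 * (BM (m + 6) * (1 + 10 / ((m : ℝ) + 7)))
        ≤ 54663 / 39015 * X * (2 * (10018 / 10000)) * (2643 / 10000 * (17 / 12)) :=
      mul_le_mul h6 h2 (by positivity) (by positivity)
    have e : 1 / 10 * (d / 10 * √2 * (BM (m + 6) * (1 + 10 / ((m : ℝ) + 7))))
        = 1 / 100 * (d * √2 * (BM (m + 6) * (1 + 10 / ((m : ℝ) + 7)))) := by ring
    rw [e]
    linarith
  -- the loss at the beginning
  have hloss : 6 / 5 * √2 * (302030 / 1000000) / (m : ℝ) ^ 2 ≤ 50781 / 100000 / m * X := by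
    have e : 6 / 5 * √2 * (302030 / 1000000) / (m : ℝ) ^ 2
        = 362436 / 1000000 / m ^ 2 * √2 := by ring
    rw [e]
    have h1 := mul_le_mul_of_nonneg_left hC
      (show (0 : ℝ) ≤ 362436 / 1000000 / m ^ 2 by positivity)
    refine h1.trans ?_
    have e2 : 362436 / 1000000 / (m : ℝ) ^ 2 * (54663 / 39015 * (m * X))
        = 362436 / 1000000 * (54663 / 39015) / m * X := by
      field_simp
    rw [e2]
    refine mul_le_mul_of_nonneg_right ?_ hX0.le
    refine div_le_div_of_nonneg_right (by norm_num) hm0.le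
  have hfin : (2 / 3 + 569 / (125 * (m : ℝ))) * X + 1052 / 100000 * X
      + 50781 / 100000 / m * X ≤ 9822 / 10000 * X := by
    have h1 : 2 / 3 + 569 / (125 * (m : ℝ)) + 1052 / 100000 + 50781 / 100000 / m
        ≤ 9822 / 10000 := by
      have e : 2 / 3 + 569 / (125 * (m : ℝ)) + 1052 / 100000 + 50781 / 100000 / m
          = 2 / 3 + 1052 / 100000 + (569 / 125 + 50781 / 100000) / m := by
        field_simp
        ring
      rw [e]
      have h2 : (569 / 125 + 50781 / 100000 : ℝ) / m ≤ (569 / 125 + 50781 / 100000) / 17 :=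
        div_le_div_of_nonneg_left (by norm_num) (by norm_num) hmR
      norm_num at h2 ⊢
      linarith
    have h3 := mul_le_mul_of_nonneg_right h1 hX0.le
    linarith
  linarith

end

end Vale.Agent.P224.R2.H742
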