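import Vale.Agent.P224.R2.H742.FlowO
import Vale.Agent.P224.R2.H178.BoxO

/-!
The constants of the near law in odd dimension.
-/

namespace Vale.Agent.P224.R2.H742

open MeasureTheory Set Filter Function Real
open Vale.Agent.P224.SM2 Vale.Agent.P224.R2.H820 Vale.Agent.P224.R2.H424
  Vale.Agent.P224.R2.H494.ZT Vale.Agent.P224.R2.H355
open scoped Topology

/-- the bound of half of the parameter -/
def dQ (m : ℚ) : ℚ := 1 / m * (1 + 1 / (2 * (m ^ 2 - 1)))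
/-- the bound of the slope -/
def b1Q (m : ℕ) : ℚ :=
  6 / 5 * ((8 * (m : ℚ) + 1) / (8 * m - 1)) * ((m + 1) / (m + 5) * H627.b2 ((m + 4 : ℕ) : ℚ))
/-- the bound of the mixed term -/
def kkQ (m : ℕ) : ℚ :=
  dQ m / 5 * ((8 * (m : ℚ) + 1) / (8 * m - 1))
    * (H627.b2 ((m + 6 : ℕ) : ℚ) * (1 + 10 / ((m : ℚ) + 7)))
/-- the bound of the penalty of the second square -/
def w2Q (m : ℚ) : ℚ := 7 / (2 * (2 * m - 1)) * ((2 / 3 + 569 / (125 * m)) * (m / ((m + 2) * (m + 4))))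
/-- the bound of the term of the mean normal -/
def r0Q (m : ℚ) : ℚ := (1 + 35 / (2 * m * (m ^ 2 - 1))) * H627.gq2 m

/-- the constants of the box are at least the constants of the flow -/
def boxC (m : ℕ) (p : H178.BoxQ) : Bool :=
  decide (p.m = m) && decide (p.η = 1 / 10) && decide (dQ m ≤ p.δ) && decide (b1Q m ≤ p.b1)
    && decide (kkQ m ≤ p.kk) && decide (w2Q m ≤ p.w2) && decide (r0Q m ≤ p.r0)

/-- the constants of the box in real form -/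
lemma boxC_real {m : ℕ} {p : H178.BoxQ} (h : boxC m p = true) : (p.m : ℝ) = m ∧
    (p.η : ℝ) = 1 / 10 ∧ (dQ m : ℝ) ≤ p.δ ∧ (b1Q m : ℝ) ≤ p.b1 ∧ (kkQ m : ℝ) ≤ p.kk ∧
    (w2Q m : ℝ) ≤ p.w2 ∧ (r0Q m : ℝ) ≤ p.r0 := by
  simp only [boxC, Bool.and_eq_true, decide_eq_true_eq] at h
  obtain ⟨⟨⟨⟨⟨⟨p1, p2⟩, p3⟩, p4⟩, p5⟩, p6⟩, p7⟩ := h
  refine ⟨by rw [p1]; norm_num, by rw [p2]; norm_num, Rat.cast_le.2 p3, Rat.cast_le.2 p4,
    Rat.cast_le.2 p5, Rat.cast_le.2 p6, Rat.cast_le.2 p7⟩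

section

variable {m : ℕ} (hm : 17 ≤ m)
include hm

lemma sqrt_le_K : √2 ≤ K0 ((m : ℝ) / 2) (cn m) * ((8 * (m : ℝ) + 1) / (8 * m - 1)) := by
  have hmR : (17 : ℝ) ≤ m := by exact_mod_cast hm
  have hn := H627.nrm_cn (m := m) (by omega)
  have h2 := Wf_one_le (by linarith : (17 : ℝ) / 2 ≤ (m : ℝ) / 2) hn
  have h4 : 0 < H627.Wf ((m : ℝ) / 2) (cn m) 1 :=
    H627.Wf_pos (hn.pos' (by linarith : (17 : ℝ) / 2 ≤ (m : ℝ) / 2)) (by linarith)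
  have e : (16 * ((m : ℝ) / 2) + 1) / (16 * ((m : ℝ) / 2) - 1) = (8 * (m : ℝ) + 1) / (8 * m - 1) := by
    congr 1 <;> ring
  rw [e] at h2
  unfold K0
  rw [div_mul_eq_mul_div, le_div_iff₀ h4]
  exact mul_le_mul_of_nonneg_left h2 (sqrt_nonneg _)

lemma K0_pos' : 0 < K0 ((m : ℝ) / 2) (cn m) := by
  have hmR : (17 : ℝ) ≤ m := by exact_mod_cast hm
  have hn := H627.nrm_cn (m := m) (by omega)
  exact K0_pos (hn.pos' (by linarith : (17 : ℝ) / 2 ≤ (m : ℝ) / 2)) (by linarith)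

lemma d_le_dQ {d : ℝ} (hd2 : d ^ 2 * ((m : ℝ) ^ 2 - 1) = 4) :
    d / 2 ≤ (dQ m : ℝ) := by
  have hmR : (17 : ℝ) ≤ m := by exact_mod_cast hm
  have hm0 : (0 : ℝ) < m := by linarith
  have hm1 : 0 < (m : ℝ) ^ 2 - 1 := by nlinarith
  unfold dQ
  push_cast
  have h0 : 0 ≤ 1 / (m : ℝ) * (1 + 1 / (2 * ((m : ℝ) ^ 2 - 1))) := by positivity
  refine (le_abs_self _).trans (abs_le_of_sq_le_sq ?_ h0)
  have e1 : (d / 2) ^ 2 = 1 / ((m : ℝ) ^ 2 - 1) := by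
    rw [eq_div_iff hm1.ne']
    linarith
  rw [e1, mul_pow, div_pow, one_pow, div_mul_eq_mul_div, one_mul, div_le_div_iff₀ hm1 (by positivity)]
  have e2 : (1 + 1 / (2 * ((m : ℝ) ^ 2 - 1))) ^ 2 * ((m : ℝ) ^ 2 - 1)
      = m ^ 2 + 1 / (4 * ((m : ℝ) ^ 2 - 1)) := by
    field_simp
    ring
  rw [e2]
  have : 0 < 1 / (4 * ((m : ℝ) ^ 2 - 1)) := by positivity
  linarith

lemma slope_le {I B : ℝ} (h : I ≤ 6 / 5 * √2 * ((m + 1) / (m + 5) * H627.BM (m + 4)))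
    (hB : (b1Q m : ℝ) ≤ B) : I ≤ K0 ((m : ℝ) / 2) (cn m) * B := by
  have hmR : (17 : ℝ) ≤ m := by exact_mod_cast hm
  have hK := K0_pos' hm
  have hs2 := sqrt_le_K hm
  set K := K0 ((m : ℝ) / 2) (cn m) with hKd
  have hb4 : H627.BM (m + 4) ≤ (H627.b2 ((m + 4 : ℕ) : ℚ) : ℝ) := H627.le_b2 (by omega)
  have hb40 : 0 < H627.BM (m + 4) := H627.BM_pos (by omega)
  have h8 : 0 < 8 * (m : ℝ) - 1 := by linarith
  refine h.trans ?_
  have c1 : 6 / 5 * √2 * ((m + 1) / (m + 5) * H627.BM (m + 4))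
      ≤ 6 / 5 * (K * ((8 * (m : ℝ) + 1) / (8 * m - 1)))
        * ((m + 1) / (m + 5) * (H627.b2 ((m + 4 : ℕ) : ℚ) : ℝ)) := by
    gcongr
  refine c1.trans ?_
  have c2 : 6 / 5 * (K * ((8 * (m : ℝ) + 1) / (8 * m - 1)))
        * ((m + 1) / (m + 5) * (H627.b2 ((m + 4 : ℕ) : ℚ) : ℝ)) = K * (b1Q m : ℝ) := by
    unfold b1Q
    push_cast
    ring
  rw [c2]
  exact mul_le_mul_of_nonneg_left hB hK.le

lemma mixed_le {d B : ℝ} (hd : 0 ≤ d) (hdq : d / 2 ≤ (dQ m : ℝ)) (hB : (kkQ m : ℝ) ≤ B) :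
    d / 10 * √2 * (H627.BM (m + 6) * (1 + 10 / (m + 7))) ≤ K0 ((m : ℝ) / 2) (cn m) * B := by
  have hmR : (17 : ℝ) ≤ m := by exact_mod_cast hm
  have hK := K0_pos' hm
  have hs2 := sqrt_le_K hm
  set K := K0 ((m : ℝ) / 2) (cn m) with hKd
  have hb6 : H627.BM (m + 6) ≤ (H627.b2 ((m + 6 : ℕ) : ℚ) : ℝ) := H627.le_b2 (by omega)
  have hb60 : 0 < H627.BM (m + 6) := H627.BM_pos (by omega)
  have h8 : 0 < 8 * (m : ℝ) - 1 := by linarith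
  have c1 : d / 10 * √2 * (H627.BM (m + 6) * (1 + 10 / (m + 7)))
      ≤ (dQ m : ℝ) / 5 * (K * ((8 * (m : ℝ) + 1) / (8 * m - 1)))
        * ((H627.b2 ((m + 6 : ℕ) : ℚ) : ℝ) * (1 + 10 / (m + 7))) := by
    have c0 : d / 10 ≤ (dQ m : ℝ) / 5 := by linarith
    have c3 : 0 ≤ (dQ m : ℝ) / 5 := le_trans (by positivity) c0
    gcongr
  refine c1.trans ?_
  have c2 : (dQ m : ℝ) / 5 * (K * ((8 * (m : ℝ) + 1) / (8 * m - 1)))
        * ((H627.b2 ((m + 6 : ℕ) : ℚ) : ℝ) * (1 + 10 / (m + 7))) = K * (kkQ m : ℝ) := by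
    unfold kkQ
    push_cast
    ring
  rw [c2]
  exact mul_le_mul_of_nonneg_left hB hK.le

lemma pen_le {L : ℝ} (hL : L * ((m : ℝ) ^ 2 - 1) = 4) (s : ZSol ((m : ℝ) / 2) L) {B : ℝ}
    (hB : (w2Q m : ℝ) ≤ B) :
    14 * -(s.P 1) / ((m : ℝ) ^ 2 - 1) ≤ K0 ((m : ℝ) / 2) (cn m) * B := by
  have hmR : (17 : ℝ) ≤ m := by exact_mod_cast hm
  have hm0 : (0 : ℝ) < m := by linarith
  have hm1 : 0 < (m : ℝ) ^ 2 - 1 := by nlinarith
  have hK := K0_pos' hm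
  have hn := H627.nrm_cn (m := m) (by omega)
  have hX := X_le hmR hL s hn
  set K := K0 ((m : ℝ) / 2) (cn m) with hKd
  have h2 : (2 * (m : ℝ) - 1) ≠ 0 := by linarith
  have c1 : 14 * -(s.P 1) / ((m : ℝ) ^ 2 - 1)
      = 7 / (2 * (2 * m - 1)) * (4 * (2 * m - 1) * (-(s.P 1)) / ((m : ℝ) ^ 2 - 1)) := by
    generalize 2 * (m : ℝ) - 1 = A at h2
    field_simp
    ring
  have c2 : 7 / (2 * (2 * (m : ℝ) - 1)) * (4 * (2 * m - 1) * (-(s.P 1)) / ((m : ℝ) ^ 2 - 1))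
      ≤ 7 / (2 * (2 * m - 1)) * ((2 / 3 + 569 / (125 * m)) * (K * m / ((m + 2) * (m + 4)))) := by
    refine mul_le_mul_of_nonneg_left hX ?_
    have : 0 < 2 * (m : ℝ) - 1 := by linarith
    positivity
  rw [c1]
  refine c2.trans ?_
  have c3 : 7 / (2 * (2 * (m : ℝ) - 1)) * ((2 / 3 + 569 / (125 * m))
      * (K * m / ((m + 2) * (m + 4)))) = K * (w2Q m : ℝ) := by
    unfold w2Q
    push_cast
    ring
  rw [c3]
  exact mul_le_mul_of_nonneg_left hB hK.le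

lemma mean_le {L : ℝ} (hL : L * ((m : ℝ) ^ 2 - 1) = 4) (s : ZSol ((m : ℝ) / 2) L) {B : ℝ}
    (hB : (r0Q m : ℝ) ≤ B) : m * JE s 0 ≤ K0 ((m : ℝ) / 2) (cn m) * B := by
  have hmR : (17 : ℝ) ≤ m := by exact_mod_cast hm
  have hm0 : (0 : ℝ) < m := by linarith
  have hm1 : 0 < (m : ℝ) ^ 2 - 1 := by nlinarith
  have hK := K0_pos' hm
  have hp := par_of hm hL
  have hn := H627.nrm_cn (m := m) (by omega)
  have st := HS.stg (hsol hp.a0 s) hp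
  set K := K0 ((m : ℝ) / 2) (cn m) with hKd
  have c1 := r_le (a := (m : ℝ) / 2) (c := cn m) hp.ha hp.L0 (hn.pos' hp.ha) s (κ := 140)
    (φ := 7.4) (T := 0) (by norm_num) (by norm_num) (by norm_num) (by norm_num) st
    ⟨le_rfl, zero_lt_one⟩
  have c2 : (uZ s).r 0 = JE s 0 := by
    change (1 - (0 : ℝ) ^ 2) ^ ((m : ℝ) / 2 - 1) * JE s 0 = JE s 0
    norm_num
  have c3 : rF ((m : ℝ) / 2) (cn m) 0 = rM m 0 := rfl
  rw [c2, c3, ← hKd] at c1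
  have c4 := H627.le_gq2 hm
  have c5 : ηu' ((m : ℝ) / 2) L = 35 / (2 * m * ((m : ℝ) ^ 2 - 1)) := by
    have e1 : L = 4 / ((m : ℝ) ^ 2 - 1) := by
      rw [eq_div_iff hm1.ne']
      exact hL
    unfold ηu'
    rw [e1]
    field_simp
    norm_num
  rw [c5] at c1
  have c6 : m * JE s 0 ≤ K * (1 + 35 / (2 * m * ((m : ℝ) ^ 2 - 1))) * (m * rM m 0) := by
    have := mul_le_mul_of_nonneg_left c1 hm0.le
    linarith
  have c7 : K * (1 + 35 / (2 * m * ((m : ℝ) ^ 2 - 1))) * (m * rM m 0)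
      ≤ K * (1 + 35 / (2 * m * ((m : ℝ) ^ 2 - 1))) * (H627.gq2 m : ℝ) := by
    have : 0 < 35 / (2 * m * ((m : ℝ) ^ 2 - 1)) := by positivity
    gcongr
  have c8 : K * (1 + 35 / (2 * m * ((m : ℝ) ^ 2 - 1))) * (H627.gq2 m : ℝ) = K * (r0Q m : ℝ) := by
    unfold r0Q
    push_cast
    ring
  have c9 := mul_le_mul_of_nonneg_left hB hK.le
  linarith

end

end Vale.Agent.P224.R2.H742
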