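import Vale.Agent.P224.R2.H925.Gen
import Vale.Agent.P224.R2.H582.If

/-!
Pointwise lower bound of the defect of the flow adapted to a Clifford product.
-/

namespace Vale.Agent.P224.R2.H742

open MeasureTheory Set Filter Function Real Vale.Agent.P224.SM2 Vale.Agent.P224.R2.H925
  Vale.Agent.P224.R2.H582
open scoped Topology

set_option linter.unusedSectionVars false

/-- the square of the balanced difference `q = c - s - d (t + p) / 2` -/
noncomputable def Qk (d : ℝ) (k : R4) : ℝ :=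
  (k.2.2.2 - k.1 - d * (k.2.1 + k.2.2.1) / 2) ^ 2

/-- the bound of `t / v` -/
lemma abs_le_mul_v {T s t R : ℝ} (hT0 : 0 ≤ T) (hT1 : T < 1) (hs : s ≤ 1) (hR : 0 ≤ R)
    (hRT : 1 ≤ R ^ 2 * (1 - T ^ 2)) (h : s ^ 2 + t ^ 2 ≤ 1) : |t| ≤ R * (1 - T * s) := by
  have hv : 0 < 1 - T * s := by nlinarith
  have hw : 0 < 1 - T ^ 2 := by nlinarith
  refine abs_le_of_sq_le_sq ?_ (mul_nonneg hR hv.le)
  have h1 : t ^ 2 * (1 - T ^ 2) ≤ (1 - T * s) ^ 2 := by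
    have h2 : t ^ 2 * (1 - T ^ 2) ≤ (1 - s ^ 2) * (1 - T ^ 2) :=
      mul_le_mul_of_nonneg_right (by linarith) hw.le
    nlinarith [sq_nonneg (s - T)]
  have h3 : t ^ 2 * (1 - T ^ 2) ≤ (R * (1 - T * s)) ^ 2 * (1 - T ^ 2) := by
    calc t ^ 2 * (1 - T ^ 2) ≤ (1 - T * s) ^ 2 * 1 := by linarith
      _ ≤ (1 - T * s) ^ 2 * (R ^ 2 * (1 - T ^ 2)) :=
          mul_le_mul_of_nonneg_left hRT (sq_nonneg _)
      _ = _ := by ring
  exact le_of_mul_le_mul_right h3 hw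

lemma abs_add_mul_le {R v t p P2 P1 : ℝ} (hP20 : 0 ≤ P2) (hPv : P2 * v = P1)
    (ht : |t| ≤ R * v) (hp : |p| ≤ R * v) : |t + p| * P2 ≤ 2 * R * P1 := by
  have htp : |t + p| ≤ 2 * (R * v) := (abs_add_le _ _).trans (by linarith)
  calc |t + p| * P2 ≤ 2 * (R * v) * P2 := mul_le_mul_of_nonneg_right htp hP20
    _ = 2 * R * (P2 * v) := by ring
    _ = _ := by rw [hPv]

lemma part1 {a b s lam κ t p q x1 P1 P2 : ℝ} (hκ : 0 ≤ κ) (htp2 : |t + p| ≤ 2)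
    (hab : a + b * s ≤ x1 * P1 - 2 * κ * |P2 - lam|) :
    (a + b * s - lam * κ * (t + p)) * q ^ 2 ≤ (x1 * P1 - κ * (t + p) * P2) * q ^ 2 := by
  refine mul_le_mul_of_nonneg_right ?_ (sq_nonneg _)
  have h1 : κ * (t + p) * (P2 - lam) ≤ 2 * κ * |P2 - lam| := by
    calc κ * (t + p) * (P2 - lam) ≤ |κ * (t + p) * (P2 - lam)| := le_abs_self _
      _ = κ * |t + p| * |P2 - lam| := by rw [abs_mul, abs_mul, abs_of_nonneg hκ]
      _ ≤ κ * 2 * |P2 - lam| := by gcongr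
      _ = _ := by ring
  linarith

lemma part2 {R X κ t p d x1 P1 P2 : ℝ} (hX : 0 ≤ X) (hκ : 0 ≤ κ) (hx1 : 0 ≤ x1) (hP1 : 0 ≤ P1)
    (hP2 : 0 ≤ P2) (htpP : |t + p| * P2 ≤ 2 * R * P1) :
    -(X / 2 * (R * κ * d ^ 2 * P1)) ≤ (x1 * P1 - κ * (t + p) * P2) * (d ^ 2 * X / 4) := by
  have h1 : κ * (t + p) * P2 ≤ κ * (2 * R * P1) := by
    calc κ * (t + p) * P2 = κ * ((t + p) * P2) := by ring
      _ ≤ κ * (|t + p| * P2) :=
        mul_le_mul_of_nonneg_left (mul_le_mul_of_nonneg_right (le_abs_self _) hP2) hκ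
      _ ≤ _ := mul_le_mul_of_nonneg_left htpP hκ
  have h2 : -(κ * (2 * R * P1)) ≤ x1 * P1 - κ * (t + p) * P2 := by
    have := mul_nonneg hx1 hP1
    linarith
  have h3 := mul_le_mul_of_nonneg_right h2 (show 0 ≤ d ^ 2 * X / 4 by positivity)
  refine le_trans (le_of_eq ?_) h3
  ring

lemma part3 {X κ t p d s c P2 : ℝ} (hX : 0 ≤ X) (hκ : 0 ≤ κ) (hd : 0 ≤ d) (hP2 : 0 ≤ P2)
    (hs : |s| ≤ 1) (hc : |c| ≤ 1) (htp2 : |t + p| ≤ 2) :
    -(X / 2 * (2 * κ * d * (2 + d) * P2)) ≤ κ * P2 * d * (c - s - d * (t + p) / 2) * X := by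
  have h1 : |c - s - d * (t + p) / 2| ≤ 2 + d := by
    have h2 : |d * (t + p) / 2| ≤ d := by
      rw [abs_div, abs_mul, abs_of_nonneg hd, abs_of_pos (by norm_num : (0 : ℝ) < 2)]
      have := mul_le_mul_of_nonneg_left htp2 hd
      linarith
    have h3 : |c - s| ≤ 2 := (abs_sub _ _).trans (by linarith)
    calc |c - s - d * (t + p) / 2| ≤ |c - s| + |d * (t + p) / 2| := abs_sub _ _
      _ ≤ 2 + d := add_le_add h3 h2
  have h2 : -(2 + d) ≤ c - s - d * (t + p) / 2 := (abs_le.1 h1).1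
  have h3 := mul_le_mul_of_nonneg_right h2 (show 0 ≤ κ * P2 * d * X by positivity)
  refine le_trans (le_of_eq ?_) (h3.trans (le_of_eq ?_)) <;> ring

lemma part4 {R m k1 t p P1 P2 : ℝ} (hm : 0 ≤ m) (hk1 : 0 ≤ k1) (hP2 : 0 ≤ P2)
    (htpP : |t + p| * P2 ≤ 2 * R * P1) :
    -(2 * R * (m + 1) * k1 * P1) ≤ -((m + 1) * k1 * (p + t) * P2) := by
  have h1 : (p + t) * P2 ≤ 2 * R * P1 := by
    have h2 : (p + t) * P2 ≤ |t + p| * P2 :=
      mul_le_mul_of_nonneg_right (by rw [add_comm p t]; exact le_abs_self _) hP2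
    linarith
  have h3 := mul_le_mul_of_nonneg_left h1 (show 0 ≤ (m + 1) * k1 by positivity)
  linarith

lemma part5 {R m T j2 t p P1 v : ℝ} (hm : 0 ≤ m) (hT : 0 ≤ T) (hj2 : 0 ≤ j2) (hP1 : 0 ≤ P1)
    (hv : 0 < v) (hpt : |p * t| ≤ R ^ 2 * v ^ 2) :
    -((m + 2) * T * j2 * R ^ 2 * P1) ≤ -((m + 2) * T * j2 * (p * t) * (P1 / v ^ 2)) := by
  have h1 : p * t * (P1 / v ^ 2) ≤ R ^ 2 * P1 := by
    calc p * t * (P1 / v ^ 2) ≤ R ^ 2 * v ^ 2 * (P1 / v ^ 2) :=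
          mul_le_mul_of_nonneg_right ((le_abs_self _).trans hpt) (by positivity)
      _ = _ := by field_simp
  have h2 := mul_le_mul_of_nonneg_left h1 (show 0 ≤ (m + 2) * T * j2 by positivity)
  linarith

lemma part6 {A B l Y : ℝ} (hl : 0 ≤ l) (hB : 0 ≤ B) (hAB : B ≤ A) :
    A * Y + B * |Y| ≤ (A + B) * (l + max (Y - l) 0) := by
  have h4 : Y ≤ l + max (Y - l) 0 := by
    have := le_max_left (Y - l) 0
    linarith
  have h5 : 0 ≤ l + max (Y - l) 0 := add_nonneg hl (le_max_right _ _)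
  rcases le_total 0 Y with hY0 | hY0
  · rw [abs_of_nonneg hY0]
    have := mul_le_mul_of_nonneg_left h4 (show 0 ≤ A + B by linarith)
    linarith
  · rw [abs_of_nonpos hY0]
    have h6 : A * Y + B * -Y ≤ 0 := by
      have := mul_nonneg (sub_nonneg.2 hAB) (neg_nonneg.2 hY0)
      linarith
    exact h6.trans (mul_nonneg (by linarith) h5)

lemma part7 {z g f R t p P1 v : ℝ} (hz : 0 < z) (hf : 0 ≤ f) (hP1 : 0 ≤ P1)
    (hv : 0 < v) (htp : |t + p| ≤ 2 * (R * v)) :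
    -((g / z) * (-(z * (p * t) / v ^ 2)) * P1
        + (2 * R * f / z) * |-(z * (p * t) / v ^ 2)| * P1)
      ≤ g * (p * t) * (P1 / v ^ 2) - f * (p * t) * (p + t) * (P1 / v ^ 3) := by
  have hz' := hz.ne'
  have h1 : g * (p * t) * (P1 / v ^ 2) = -((g / z) * (-(z * (p * t) / v ^ 2)) * P1) := by
    field_simp
  have h3 : |(p + t) / v| ≤ 2 * R := by
    rw [abs_div, abs_of_pos hv, div_le_iff₀ hv, add_comm p t]
    linarith
  have h5 : ((p * t) / v ^ 2) * ((p + t) / v) ≤ |(p * t) / v ^ 2| * (2 * R) := by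
    calc ((p * t) / v ^ 2) * ((p + t) / v) ≤ |((p * t) / v ^ 2) * ((p + t) / v)| :=
          le_abs_self _
      _ = |(p * t) / v ^ 2| * |(p + t) / v| := abs_mul _ _
      _ ≤ _ := mul_le_mul_of_nonneg_left h3 (abs_nonneg _)
  have h6 : |-(z * (p * t) / v ^ 2)| = z * |(p * t) / v ^ 2| := by
    rw [abs_neg, show z * (p * t) / v ^ 2
      = z * ((p * t) / v ^ 2) by ring, abs_mul, abs_of_pos hz]
  have h4 : f * (p * t) * (p + t) * (P1 / v ^ 3)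
      = f * P1 * (((p * t) / v ^ 2) * ((p + t) / v)) := by
    field_simp
  have h7 := mul_le_mul_of_nonneg_left h5 (mul_nonneg hf hP1)
  rw [h1, h4, h6]
  have h8 : (2 * R * f / z) * (z * |(p * t) / v ^ 2|) * P1
      = f * P1 * (|(p * t) / v ^ 2| * (2 * R)) := by
    field_simp
  rw [h8]
  linarith

lemma part8 {R T f3 t p P2 v : ℝ} (hT : 0 ≤ T) (hf : 0 ≤ f3) (hP3 : |p + t| * (P2 / v) ≤ 2 * R * P2)
    (hPv : 0 ≤ P2 / v) :
    -(6 * R * T * f3 * P2) ≤ -(3 * T * f3 * (p + t) * (P2 / v)) := by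
  have h1 : (p + t) * (P2 / v) ≤ 2 * R * P2 :=
    (mul_le_mul_of_nonneg_right (le_abs_self _) hPv).trans hP3
  have h2 := mul_le_mul_of_nonneg_left h1 (show 0 ≤ 3 * T * f3 by positivity)
  linarith

lemma part9 {c w P2 : ℝ} (hc : |c| ≤ 1) (hP2 : 0 ≤ P2) : -(|w| * P2) ≤ -(c * (w * P2)) := by
  have h1 : c * w ≤ |w| := by
    calc c * w ≤ |c * w| := le_abs_self _
      _ = |c| * |w| := abs_mul _ _
      _ ≤ 1 * |w| := mul_le_mul_of_nonneg_right hc (abs_nonneg _)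
      _ = _ := one_mul _
  have h2 := mul_le_mul_of_nonneg_right h1 hP2
  linarith

lemma part10 {R c w t p P2 v : ℝ} (hc : |c| ≤ 1) (hP3 : |p + t| * (P2 / v) ≤ 2 * R * P2)
    (hPv : 0 ≤ P2 / v) :
    -(2 * R * |w| * P2) ≤ -(c * (w * (p + t) * (P2 / v))) := by
  have h1 : c * (w * (p + t) * (P2 / v)) ≤ |w| * (|p + t| * (P2 / v)) := by
    calc c * (w * (p + t) * (P2 / v)) ≤ |c * (w * (p + t) * (P2 / v))| := le_abs_self _
      _ = |c| * (|w| * |p + t| * (P2 / v)) := by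
          rw [abs_mul, abs_mul, abs_mul, abs_of_nonneg hPv]
      _ ≤ 1 * (|w| * |p + t| * (P2 / v)) :=
          mul_le_mul_of_nonneg_right hc (by positivity)
      _ = _ := by ring
  have h2 := mul_le_mul_of_nonneg_left hP3 (abs_nonneg w)
  linarith

/-- the defect in terms of the powers -/
lemma fV_eq {m T d x1 κ h0 k1 f2 f3 s t p c v P1 P2 : ℝ} (hv : 0 < v) (hP2 : P2 = P1 / v) :
    fV m T d x1 (-κ) h0 k1 f2 f3 s t p c v (P1 * v)
      = (x1 * P1 - κ * (t + p) * P2) * (c - s - d * (t + p) / 2) ^ 2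
        + (x1 * P1 - κ * (t + p) * P2) * (d ^ 2 * (p - t) ^ 2 / 4)
        + κ * P2 * d * (c - s - d * (t + p) / 2) * (p - t) ^ 2
        + (p - t) ^ 2 / 2 * (-(m * h0) * P1 + -((m + 1) * k1 * (p + t) * P2) - 2 * T * f2 * P2
          - (m + 2) * T * f2 * (p * t) * (P1 / v ^ 2)
            - (m + 3) * T * f3 * (p * t) * (p + t) * (P1 / v ^ 3)
          + -(3 * T * f3 * (p + t) * (P2 / v))
          + -(c * ((2 * f2 + (m + 1) * T * x1) * P2))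
          + -(c * ((3 * f3 - (m + 2) * T * κ) * (p + t) * (P2 / v)))) := by
  have e1 : P1 * v / v = P1 := by field_simp
  have e2 : P1 * v / v ^ 2 = P2 := by rw [hP2]; field_simp
  have e3 : P1 * v / v ^ 3 = P1 / v ^ 2 := by field_simp
  have e4 : P1 * v / v ^ 4 = P1 / v ^ 3 := by field_simp
  have e5 : P2 / v = P1 / v ^ 2 := by rw [hP2]; field_simp
  unfold fV
  rw [e1, e2, e3, e4, e5]
  ring

/-- the second part -/
lemma part11 {m T x1 κ h0 k1 g2 j2 f3 R l α β G D t p c v P1 P2 : ℝ}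
    (hm : 0 < m) (hT0 : 0 ≤ T) (hw : 0 < 1 - T ^ 2)
    (hk1 : 0 ≤ k1) (hj2 : 0 ≤ j2) (hf3 : 0 ≤ f3)
    (hl : 0 ≤ l) (hc : |c| ≤ 1) (hR : 0 ≤ R)
    (hv : 0 < v) (hP1 : 0 < P1) (hP2 : P2 = P1 / v)
    (ht : |t| ≤ R * v) (hp : |p| ≤ R * v)
    (h57 : 2 * R * (m + 3) * f3 ≤ (m + 2) * g2)
    (hα : α ≤ -(m * h0) - 2 * R * (m + 1) * k1 - (m + 2) * T * j2 * R ^ 2 - D
      - ((m + 2) * T * g2 + 2 * R * (m + 3) * T * f3) / (m * (1 - T ^ 2)) * l)
    (hβ : 2 * T * (j2 - g2) + |2 * (j2 - g2) + (m + 1) * T * x1| + 6 * R * T * f3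
      + 2 * R * |3 * f3 - (m + 2) * T * κ| ≤ β)
    (hG : ((m + 2) * T * g2 + 2 * R * (m + 3) * T * f3) / (m * (1 - T ^ 2)) ≤ 2 * G) :
    α * P1 - β * P2 - 2 * G * (P1 * max (-(m * (1 - T ^ 2) * (p * t) / v ^ 2) - l) 0) + D * P1
      ≤ -(m * h0) * P1 + -((m + 1) * k1 * (p + t) * P2) - 2 * T * (j2 - g2) * P2
          - (m + 2) * T * (j2 - g2) * (p * t) * (P1 / v ^ 2)
            - (m + 3) * T * f3 * (p * t) * (p + t) * (P1 / v ^ 3)
          + -(3 * T * f3 * (p + t) * (P2 / v))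
          + -(c * ((2 * (j2 - g2) + (m + 1) * T * x1) * P2))
          + -(c * ((3 * f3 - (m + 2) * T * κ) * (p + t) * (P2 / v))) := by
  have hP20 : 0 < P2 := by rw [hP2]; positivity
  have hmw : 0 < m * (1 - T ^ 2) := mul_pos hm hw
  have hPv : P2 * v = P1 := by rw [hP2]; field_simp
  have htp : |t + p| ≤ 2 * (R * v) := (abs_add_le _ _).trans (by linarith)
  have htpP := abs_add_mul_le hP20.le hPv ht hp
  have hPv0 : 0 ≤ P2 / v := by positivity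
  have hP3 : |p + t| * (P2 / v) ≤ 2 * R * P2 := by
    rw [add_comm p t]
    calc |t + p| * (P2 / v) ≤ 2 * (R * v) * (P2 / v) :=
          mul_le_mul_of_nonneg_right htp hPv0
      _ = _ := by field_simp
  have hpt : |p * t| ≤ R ^ 2 * v ^ 2 := by
    rw [abs_mul]
    calc |p| * |t| ≤ (R * v) * (R * v) := mul_le_mul hp ht (abs_nonneg _) (by positivity)
      _ = _ := by ring
  have r4 := part4 (P1 := P1) (R := R) hm.le hk1 hP20.le htpP
  have r5 := part5 (m := m) hm.le hT0 hj2 hP1.le hv hpt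
  have r7 := part7 (g := (m + 2) * T * g2) (f := (m + 3) * T * f3) (R := R) hmw (by positivity)
    hP1.le hv htp
  have r8 := part8 hT0 hf3 hP3 hPv0
  have r9 := part9 (w := 2 * (j2 - g2) + (m + 1) * T * x1) hc hP20.le
  have r10 := part10 (w := 3 * f3 - (m + 2) * T * κ) hc hP3 hPv0
  have hA7 : 2 * R * ((m + 3) * T * f3) / (m * (1 - T ^ 2)) ≤ (m + 2) * T * g2 / (m * (1 - T ^ 2)) := by
    apply div_le_div_of_nonneg_right _ hmw.le
    nlinarith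
  have r6 := part6 (Y := -(m * (1 - T ^ 2) * (p * t) / v ^ 2)) hl
    (show 0 ≤ 2 * R * ((m + 3) * T * f3) / (m * (1 - T ^ 2)) by positivity) hA7
  have r6' := mul_le_mul_of_nonneg_right r6 hP1.le
  have ha57 : ((m + 2) * T * g2 + 2 * R * (m + 3) * T * f3) / (m * (1 - T ^ 2))
      = (m + 2) * T * g2 / (m * (1 - T ^ 2)) + 2 * R * ((m + 3) * T * f3) / (m * (1 - T ^ 2)) := by
    rw [← add_div]
    congr 1
    ring
  rw [ha57] at hα hG
  generalize (m + 2) * T * g2 / (m * (1 - T ^ 2)) = a5 at *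
  generalize 2 * R * ((m + 3) * T * f3) / (m * (1 - T ^ 2)) = a7 at *
  generalize -(m * (1 - T ^ 2) * (p * t) / v ^ 2) = Y at *
  have h1 : 0 ≤ P1 * max (Y - l) 0 := mul_nonneg hP1.le (le_max_right _ _)
  have hGG := mul_le_mul_of_nonneg_right hG h1
  have hαα := mul_le_mul_of_nonneg_right hα hP1.le
  have hββ := mul_le_mul_of_nonneg_right hβ hP20.le
  generalize P1 / v ^ 2 = P3 at *
  generalize P1 / v ^ 3 = P4 at *
  generalize P2 / v = P5 at *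
  generalize |2 * (j2 - g2) + (m + 1) * T * x1| = A9 at *
  generalize |3 * f3 - (m + 2) * T * κ| = A10 at *
  generalize max (Y - l) 0 = MX at *
  linarith

/-- the pointwise lower bound, in terms of numbers -/
theorem fV_ge {m T d x1 κ h0 k1 g2 j2 f3 R l a b lam α β G s t p c v P1 P2 : ℝ}
    (hm : 0 < m) (hT0 : 0 ≤ T) (hw : 0 < 1 - T ^ 2) (hd : 0 ≤ d) (hx1 : 0 ≤ x1) (hκ : 0 ≤ κ)
    (hk1 : 0 ≤ k1) (hj2 : 0 ≤ j2) (hf3 : 0 ≤ f3) (hR : 0 ≤ R)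
    (hl : 0 ≤ l) (hs : |s| ≤ 1) (hc : |c| ≤ 1) (ht1 : |t| ≤ 1) (hp1 : |p| ≤ 1)
    (hv : 0 < v) (hP1 : 0 < P1) (hP2 : P2 = P1 / v)
    (ht : |t| ≤ R * v) (hp : |p| ≤ R * v)
    (hab : a + b * s ≤ x1 * P1 - 2 * κ * |P2 - lam|)
    (h57 : 2 * R * (m + 3) * f3 ≤ (m + 2) * g2)
    (hα : α ≤ -(m * h0) - 2 * R * (m + 1) * k1 - (m + 2) * T * j2 * R ^ 2 - R * κ * d ^ 2
      - ((m + 2) * T * g2 + 2 * R * (m + 3) * T * f3) / (m * (1 - T ^ 2)) * l)
    (hβ : 2 * T * (j2 - g2) + |2 * (j2 - g2) + (m + 1) * T * x1| + 6 * R * T * f3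
      + 2 * R * |3 * f3 - (m + 2) * T * κ| + 2 * κ * d * (2 + d) ≤ β)
    (hG : ((m + 2) * T * g2 + 2 * R * (m + 3) * T * f3) / (m * (1 - T ^ 2)) ≤ 2 * G) :
    (a + b * s - lam * κ * (t + p)) * (c - s - d * (t + p) / 2) ^ 2
      + (p - t) ^ 2 / 2 * (α * P1 - β * P2
        - 2 * G * (P1 * max (-(m * (1 - T ^ 2) * (p * t) / v ^ 2) - l) 0))
      ≤ fV m T d x1 (-κ) h0 k1 (j2 - g2) f3 s t p c v (P1 * v) := by
  have hP20 : 0 < P2 := by rw [hP2]; positivity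
  have hPv : P2 * v = P1 := by rw [hP2]; field_simp
  have htp2 : |t + p| ≤ 2 := (abs_add_le _ _).trans (by linarith)
  have htpP := abs_add_mul_le hP20.le hPv ht hp
  have hX0 : 0 ≤ (p - t) ^ 2 := sq_nonneg _
  have r1 := part1 (q := c - s - d * (t + p) / 2) hκ htp2 hab
  have r2 := part2 (d := d) hX0 hκ hx1 hP1.le hP20.le htpP
  have r3 := part3 (s := s) (c := c) hX0 hκ hd hP20.le hs hc htp2
  have r11 := part11 (m := m) (T := T) (x1 := x1) (κ := κ) (h0 := h0) (k1 := k1) (g2 := g2)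
    (j2 := j2) (f3 := f3) (R := R) (l := l) (α := α) (β := β - 2 * κ * d * (2 + d)) (G := G)
    (D := R * κ * d ^ 2) (t := t) (p := p)
    (c := c) (v := v) (P1 := P1) (P2 := P2) hm hT0 hw hk1 hj2 hf3 hl hc hR hv hP1 hP2 ht hp h57
    (by linarith) (by linarith) hG
  have r12 := mul_le_mul_of_nonneg_left r11 (show 0 ≤ (p - t) ^ 2 / 2 by positivity)
  rw [fV_eq hv hP2]
  generalize max (-(m * (1 - T ^ 2) * (p * t) / v ^ 2) - l) 0 = MX at *
  have e9 : (p - t) ^ 2 / 2 * (α * P1 - (β - 2 * κ * d * (2 + d)) * P2 - 2 * G * (P1 * MX)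
      + R * κ * d ^ 2 * P1)
      = (p - t) ^ 2 / 2 * (α * P1 - β * P2 - 2 * G * (P1 * MX))
        + (p - t) ^ 2 / 2 * (R * κ * d ^ 2 * P1)
        + (p - t) ^ 2 / 2 * (2 * κ * d * (2 + d) * P2) := by ring
  rw [e9] at r12
  linarith

end Vale.Agent.P224.R2.H742
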