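import Vale.Agent.P224.R2.H742.LawO

/-!
The near law in odd dimension in terms of the one point tensors.
-/

namespace Vale.Agent.P224.R2.H742

open MeasureTheory Set Filter Function Real Module Vale.Agent.P224 Vale.Agent.P224.FV
  Vale.Agent.P224.R2.H925 Vale.Agent.P224.R2.H582 Vale.Agent.P224.R2.H728
open Vale.Agent.P224.SM2 Vale.Agent.P224.R2.H820
open scoped RealInnerProductSpace Topology ContDiff Manifold ENNReal

set_option linter.unusedSectionVars false

/-- the cubic polynomial with coefficients depending on `T` -/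
def cub (a : Fin 4 → ℝ → ℝ) (T s : ℝ) : ℝ := a 0 T + a 1 T * s + a 2 T * s ^ 2 + a 3 T * s ^ 3

/-- the level weight of the second square -/
noncomputable def wO (m : ℕ) (κ σ : ℝ) (ξ lam : ℝ → ℝ) (T : ℝ) : ℝ :=
  b0 m κ σ T (yM m T) (eM m T) (rM m T) (lam T) - 1 / 2 * (ξ T * PMo m T)

/-- the level weight of the slope term -/
noncomputable def wO1 (m : ℕ) (κ σ : ℝ) (lam : ℝ → ℝ) (T : ℝ) : ℝ :=
  b1 m κ σ T (yM m T) (eM m T) (rM m T) (lam T)

section

variable {V W M : Type*} [NormedAddCommGroup V] [InnerProductSpace ℝ V] [FiniteDimensional ℝ V]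
  [NormedAddCommGroup W] [InnerProductSpace ℝ W] [FiniteDimensional ℝ W]
  [TopologicalSpace M] [ChartedSpace V M]
  [MeasurableSpace V] [BorelSpace V] [MeasurableSpace M] [BorelSpace M]
  [MeasurableSpace W] [BorelSpace W] [IsManifold 𝓘(ℝ, V) ∞ M]
  [CompactSpace M] [T2Space M]

/-- the law with the tangent line in odd dimension, level by level -/
theorem levelO [Nonempty M] {m : ℕ} (hm : 4 ≤ m) (hV : finrank ℝ V = m)
    (hW : finrank ℝ W = finrank ℝ V + 2)
    {F : M → W} (hF : SphImm V F) (hmin : ∀ x n, IsUnitNormal V F x n → meanCurv V F x n = 0)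
    {N : M → W} (hNs : ContMDiff 𝓘(ℝ, V) 𝓘(ℝ, W) ∞ N) (hN : ∀ x, IsUnitNormal V F x (N x))
    {d K θ κ σ g1 lmb : ℝ} {ξ lam l' τ kap : ℝ → ℝ} {a : Fin 4 → ℝ → ℝ} {u : St}
    (hd : 0 ≤ d) (hd1 : d ≤ 1) (hK : 0 ≤ K) (hθ : θ ≤ 1) (hκ : 0 ≤ κ) (hσ : 0 ≤ σ)
    (hlmb : 0 ≤ lmb) (hsg : OddSgn u) {T : ℝ} (hT : T ∈ Ioo (0 : ℝ) 1)
    (hc : OddAt m d K θ κ g1 ξ lam l' u T)
    (hab : ∀ s ∈ Icc (-1 : ℝ) 1, cub a T s
      ≤ m * u.e T * ker T (m + 1) s - 2 * (d * -u.ε T) * |ker T (m + 2) s - lmb|)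
    (hkap : d * -u.ε T ≤ kap T)
    (hτ : K * (1 + g1) * ((m + 1) * (m + 2) * T ^ 2 * rM m T / (1 - T ^ 2)) / 2
      * E2 (volM V F) F N (TK m T (l' T)) ≤ τ T * (volM V F).real univ ^ 2) :
    a 0 T * E2 (volM V F) F N (fun k => k.1 ^ 0 * Qk d k)
      + a 1 T * E2 (volM V F) F N (fun k => k.1 ^ 1 * Qk d k)
      + a 2 T * E2 (volM V F) F N (fun k => k.1 ^ 2 * Qk d k)
      + a 3 T * E2 (volM V F) F N (fun k => k.1 ^ 3 * Qk d k)
      - lmb * kap T * |E2 (volM V F) F N (fun k => (k.2.1 + k.2.2.1) * Qk d k)|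
      + K * (1 - θ) * (wO m κ σ ξ lam T * E2 (volM V F) F N Xk
        + wO1 m κ σ lam T * min (E2 (volM V F) F N (fun k => Xk k * k.1)
          + σ * E2 (volM V F) F N Xk) 0)
      - τ T * (volM V F).real univ ^ 2
      ≤ DS ((volM V F).prod (volM V F)) (finrank ℝ V) (SM2.pr F N) d u T := by
  have hfin : IsFiniteMeasure (volM V F) := isFiniteMeasure_volM hF
  have hm1 : 1 ≤ m := by omega
  have hP : PL ((volM V F).prod (volM V F)) m (SM2.pr F N) := by
    rw [← hV]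
    exact PL_of_min hW hF hmin hNs hN
  have hc0 := certO_M hm
  have hk : 0 < 1 - T ^ 2 := by nlinarith [hT.1, hT.2]
  have hy := hc0.y0 T hT
  have he := hc0.e0 T hT
  have hr := hc0.r0 T hT
  have hRT : 1 ≤ (1 / √(1 - T ^ 2)) ^ 2 * (1 - T ^ 2) := by
    rw [div_pow, Real.sq_sqrt hk.le]
    field_simp
    exact le_rfl
  have hK1 : 0 ≤ K * (1 - θ) := mul_nonneg hK (by linarith)
  have hPM := PMo_nonneg hT.1.le hy hr
  have hx := hc.x0
  have hcv := hc.hc
  have hal := hc.h0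
  have q1 := DS_ge_zero_phi hP (T := T) (d := d) (R := 1 / √(1 - T ^ 2)) (l := l' T)
    (lam := lmb) (φ := cub a T) (u := u)
    (α := K * (1 - θ) * H582.al m T (yM m T) (rM m T) (lam T))
    (β := K * (1 - θ) * (H582.be m κ T (eM m T) (rM m T) + ξ T * PMo m T))
    (G := K * (1 + g1) * ((m + 1) * (m + 2) * T ^ 2 * rM m T / (1 - T ^ 2)) / 2)
    (s0 := -σ) (by unfold cub; fun_prop) (by unfold cub; fun_prop) hm1 hT hd hd1 (by positivity)
    hRT hc.l0 (hsg.e0 T hT) (hsg.ρ0 T hT) (hsg.ε0 T hT) hab hc.ho hc.ha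
    hc.hb (by have := hc.hg; linarith) (mul_nonneg hK1 hal) (by linarith)
    (by
      have := mul_le_mul_of_nonneg_left hcv hK1
      linarith)
  rw [hV]
  refine le_trans ?_ q1
  -- the first square
  set q0 := E2 (volM V F) F N (fun k => k.1 ^ 0 * Qk d k) with hq0
  set q1' := E2 (volM V F) F N (fun k => k.1 ^ 1 * Qk d k) with hq1
  set q2 := E2 (volM V F) F N (fun k => k.1 ^ 2 * Qk d k) with hq2
  set q3 := E2 (volM V F) F N (fun k => k.1 ^ 3 * Qk d k) with hq3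
  have mQ := measurable_Qk d
  have cQ := continuous_Qk d
  have e1 : Ek ((volM V F).prod (volM V F)) (SM2.pr F N) (fun k => cub a T k.1 * Qk d k)
      = a 0 T * q0 + a 1 T * q1' + a 2 T * q2 + a 3 T * q3 := by
    obtain ⟨_, he⟩ := Ek_comb4 hP (f1 := fun k => k.1 ^ 0 * Qk d k) (by fun_prop) (by fun_prop)
      (f2 := fun k => k.1 ^ 1 * Qk d k) (by fun_prop) (by fun_prop)
      (f3 := fun k => k.1 ^ 2 * Qk d k) (by fun_prop) (by fun_prop)
      (f4 := fun k => k.1 ^ 3 * Qk d k) (by fun_prop) (by fun_prop)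
      (f5 := fun _ => (0 : ℝ)) (by fun_prop) (by fun_prop) (a 0 T) (a 1 T) (a 2 T) (a 3 T) 0
    have e2 : a 0 T * q0 + a 1 T * q1' + a 2 T * q2 + a 3 T * q3
        = a 0 T * Ek ((volM V F).prod (volM V F)) (SM2.pr F N) (fun k => k.1 ^ 0 * Qk d k)
        + a 1 T * Ek ((volM V F).prod (volM V F)) (SM2.pr F N) (fun k => k.1 ^ 1 * Qk d k)
        + a 2 T * Ek ((volM V F).prod (volM V F)) (SM2.pr F N) (fun k => k.1 ^ 2 * Qk d k)
        + a 3 T * Ek ((volM V F).prod (volM V F)) (SM2.pr F N) (fun k => k.1 ^ 3 * Qk d k)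
        + 0 * Ek ((volM V F).prod (volM V F)) (SM2.pr F N) (fun _ => (0 : ℝ)) := by
      rw [zero_mul, add_zero]
      rfl
    rw [e2, ← he]
    unfold Ek
    refine integral_congr_ae (Eventually.of_forall fun q => ?_)
    unfold cub
    simp only
    ring
  rw [e1]
  -- the mixed term
  set qq := E2 (volM V F) F N (fun k => (k.2.1 + k.2.2.1) * Qk d k) with hqq
  have e3 : Ek ((volM V F).prod (volM V F)) (SM2.pr F N) (fun k => (k.2.1 + k.2.2.1) * Qk d k)
      = qq := rfl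
  rw [e3]
  have h1 : -(lmb * kap T * |qq|) ≤ -(lmb * (d * -u.ε T)) * qq := by
    have h2 : lmb * (d * -u.ε T) * qq ≤ lmb * (d * -u.ε T) * |qq| :=
      mul_le_mul_of_nonneg_left (le_abs_self _) (mul_nonneg hlmb (mul_nonneg hd
        (neg_nonneg.2 (hsg.ε0 T hT))))
    have h3 : lmb * (d * -u.ε T) * |qq| ≤ lmb * kap T * |qq| :=
      mul_le_mul_of_nonneg_right (mul_le_mul_of_nonneg_left hkap hlmb) (abs_nonneg _)
    linarith
  -- the second square
  set X0 := E2 (volM V F) F N Xk with hX0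
  set X1 := E2 (volM V F) F N (fun k => Xk k * k.1) with hX1
  have e4 : Ek ((volM V F).prod (volM V F)) (SM2.pr F N) Xk = X0 := rfl
  have e5 : Ek ((volM V F).prod (volM V F)) (SM2.pr F N) (fun k => Xk k * k.1) = X1 := rfl
  rw [e4, e5]
  have hX0n : 0 ≤ X0 := integral_nonneg fun q => sq_nonneg _
  have hα' : (m + 3) * H582.be m κ T (eM m T) (rM m T)
      ≤ (m + 1) * H582.al m T (yM m T) (rM m T) (lam T) * (1 - T) := by
    have : 0 ≤ ((m : ℝ) + 3) * (ξ T * PMo m T) := by positivity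
    linarith
  have p1 := b0_le (m := m) (κ := κ) (σ := σ) (T := T) hκ hσ hT.1.le hT.2.le hy he hr
    hc.lm0
  have p2 := le_b1 (m := m) (κ := κ) (σ := σ) (T := T) hκ hσ hT.1.le hT.2.le hy he hr
    hc.lm0
  have k1 := ker_neg_le_one hT.1.le hσ (m + 2)
  have k2 : 0 ≤ SM2.ker T (m + 3) (-σ) := by
    refine (ker_pos (m + 3) ?_).le
    nlinarith [mul_nonneg hT.1.le hσ]
  have t1 : wO m κ σ ξ lam T ≤ 1 / 2 * ta (m + 1) T (H582.al m T (yM m T) (rM m T) (lam T))
      (H582.be m κ T (eM m T) (rM m T) + ξ T * PMo m T) (-σ) := by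
    unfold wO
    have e6 : ta (m + 1) T (H582.al m T (yM m T) (rM m T) (lam T))
      (H582.be m κ T (eM m T) (rM m T) + ξ T * PMo m T) (-σ)
      = ta (m + 1) T (H582.al m T (yM m T) (rM m T) (lam T)) (H582.be m κ T (eM m T) (rM m T)) (-σ)
        - ξ T * PMo m T * SM2.ker T (m + 2) (-σ) := by
      unfold ta
      rw [show m + 1 + 1 = m + 2 from rfl]
      ring
    rw [e6]
    have h9 : ξ T * PMo m T * SM2.ker T (m + 2) (-σ) ≤ ξ T * PMo m T * 1 :=
      mul_le_mul_of_nonneg_left k1 (mul_nonneg hx hPM)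
    linarith
  have t2 : 1 / 2 * tb (m + 1) T (H582.al m T (yM m T) (rM m T) (lam T))
      (H582.be m κ T (eM m T) (rM m T) + ξ T * PMo m T) (-σ) ≤ wO1 m κ σ lam T := by
    refine le_trans ?_ p2
    have e6 : tb (m + 1) T (H582.al m T (yM m T) (rM m T) (lam T))
      (H582.be m κ T (eM m T) (rM m T) + ξ T * PMo m T) (-σ)
      = tb (m + 1) T (H582.al m T (yM m T) (rM m T) (lam T)) (H582.be m κ T (eM m T) (rM m T)) (-σ)
        - T * (((m + 1 : ℕ) + 1) * (ξ T * PMo m T) * SM2.ker T (m + 3) (-σ)) := by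
      unfold tb
      rw [show m + 1 + 2 = m + 3 from rfl]
      ring
    rw [e6]
    have h9 : 0 ≤ T * (((m + 1 : ℕ) + 1) * (ξ T * PMo m T) * SM2.ker T (m + 3) (-σ)) := by
      have := hT.1.le
      positivity
    linarith
  have t3 := tb_nonneg (m := m) (σ := σ) (T := T) (α := H582.al m T (yM m T) (rM m T) (lam T))
    (β := H582.be m κ T (eM m T) (rM m T) + ξ T * PMo m T) hσ hT.1.le hal hcv
  have t4 : wO1 m κ σ lam T * min (X1 + σ * X0) 0
      ≤ 1 / 2 * tb (m + 1) T (H582.al m T (yM m T) (rM m T) (lam T))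
        (H582.be m κ T (eM m T) (rM m T) + ξ T * PMo m T) (-σ) * (X1 + σ * X0) := by
    rcases le_total (X1 + σ * X0) 0 with h | h
    · rw [min_eq_left h]
      exact mul_le_mul_of_nonpos_right t2 h
    · rw [min_eq_right h, mul_zero]
      exact mul_nonneg (by linarith) h
  have t5 := mul_le_mul_of_nonneg_right t1 hX0n
  have t6 := mul_le_mul_of_nonneg_left (add_le_add t5 t4) hK1
  have e7 : ta (m + 1) T (K * (1 - θ) * H582.al m T (yM m T) (rM m T) (lam T))
      (K * (1 - θ) * (H582.be m κ T (eM m T) (rM m T) + ξ T * PMo m T)) (-σ)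
      = K * (1 - θ) * ta (m + 1) T (H582.al m T (yM m T) (rM m T) (lam T))
      (H582.be m κ T (eM m T) (rM m T) + ξ T * PMo m T) (-σ) := by
    unfold ta
    ring
  have e8 : tb (m + 1) T (K * (1 - θ) * H582.al m T (yM m T) (rM m T) (lam T))
      (K * (1 - θ) * (H582.be m κ T (eM m T) (rM m T) + ξ T * PMo m T)) (-σ)
      = K * (1 - θ) * tb (m + 1) T (H582.al m T (yM m T) (rM m T) (lam T))
      (H582.be m κ T (eM m T) (rM m T) + ξ T * PMo m T) (-σ) := by
    unfold tb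
    ring
  rw [e7, e8]
  have e9 : Ek ((volM V F).prod (volM V F)) (SM2.pr F N) (TK m T (l' T))
      = E2 (volM V F) F N (TK m T (l' T)) := rfl
  rw [e9]
  have e10 : X1 - -σ * X0 = X1 + σ * X0 := by ring
  rw [e10]
  linarith

end

end Vale.Agent.P224.R2.H742
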