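import Vale.Agent.P224.SM2.Rows

/-!
A line below the combination of the kernels of the first square, uniformly in the dimension.
-/

namespace Vale.Agent.P224.R2.H742

open Set Real Vale.Agent.P224.SM2

/-- second order lower bound of the negative power -/
lemma inv_pow_ge (n : ℕ) {τ : ℝ} (h0 : 0 ≤ τ) (h1 : τ < 1) :
    1 + n * τ + n * (n + 1) / 2 * τ ^ 2 ≤ ((1 - τ) ^ n)⁻¹ := by
  have hv : 0 < 1 - τ := by linarith
  have key : ∀ n : ℕ, (1 - τ) ^ n * (1 + n * τ + n * (n + 1) / 2 * τ ^ 2) ≤ 1 := by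
    intro n
    induction n with
    | zero => simp
    | succ n ih =>
      have hp : 0 ≤ (1 - τ) ^ n := by positivity
      have e : (1 - τ) ^ (n + 1) * (1 + ((n + 1 : ℕ) : ℝ) * τ
          + ((n + 1 : ℕ) : ℝ) * (((n + 1 : ℕ) : ℝ) + 1) / 2 * τ ^ 2)
          = (1 - τ) ^ n * (1 + n * τ + n * (n + 1) / 2 * τ ^ 2)
            - (1 - τ) ^ n * (((n : ℝ) + 1) * (n + 2) / 2 * τ ^ 3) := by
        push_cast
        ring
      rw [e]
      have : 0 ≤ (1 - τ) ^ n * (((n : ℝ) + 1) * (n + 2) / 2 * τ ^ 3) := by positivity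
      linarith
  have hp : 0 < (1 - τ) ^ n := by positivity
  rw [← one_div, le_div_iff₀ hp, mul_comm]
  exact key n

/-- first order lower bound of the negative power, both signs -/
lemma inv_pow_ge_one (n : ℕ) {c : ℝ} (h1 : -1 < c) : 1 - n * c ≤ ((1 + c) ^ n)⁻¹ := by
  have hv : 0 < 1 + c := by linarith
  have h2 : -1 ≤ -c / (1 + c) := by
    rw [le_div_iff₀ hv]
    linarith
  have h3 := one_add_mul_le_pow (show (-2 : ℝ) ≤ -c / (1 + c) by linarith) n
  have e : 1 + -c / (1 + c) = (1 + c)⁻¹ := by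
    field_simp
    ring
  rw [e, inv_pow] at h3
  by_cases hc : 0 ≤ c
  · refine le_trans ?_ h3
    have h4 : c / (1 + c) ≤ c := div_le_self hc (by linarith)
    have h5 : (n : ℝ) * (c / (1 + c)) ≤ n * c := mul_le_mul_of_nonneg_left h4 (Nat.cast_nonneg n)
    have e2 : (n : ℝ) * (-c / (1 + c)) = -(n * (c / (1 + c))) := by ring
    linarith
  · push Not at hc
    have h4 := inv_pow_ge n (τ := -c) (by linarith) (by linarith)
    have h5 : 0 ≤ (n : ℝ) * (n + 1) / 2 * (-c) ^ 2 := by positivity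
    have e3 : 1 - -c = 1 + c := by ring
    rw [e3] at h4
    linarith

/-- the part where the kernel is at least one -/
lemma part_pos {n : ℕ} (hn : 1 ≤ n) {τ T r μ D : ℝ} (h0 : 0 ≤ τ) (hτ : τ ≤ T) (hT : T < 1)
    (hr : 0 ≤ r) (hD : 0 < D) (hD' : D ≤ 1 - r * (1 + 2 / n) / (1 - T))
    (hμ : r ^ 2 * (n + 1) / (2 * n * D) ≤ μ) :
    r * (((1 - τ) ^ (n + 1))⁻¹ - 1) ≤ ((1 - τ) ^ n)⁻¹ - 1 - n * τ + μ := by
  have hnR : (0 : ℝ) < n := by exact_mod_cast hn
  have hv : 0 < 1 - τ := by linarith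
  have hv' : 0 < 1 - T := by linarith
  have hG := inv_pow_ge n h0 (by linarith : τ < 1)
  set G := ((1 - τ) ^ n)⁻¹ with hGd
  have e1 : ((1 - τ) ^ (n + 1))⁻¹ = G / (1 - τ) := by
    rw [hGd, pow_succ, mul_inv]
    rfl
  rw [e1]
  set g := G - 1 - n * τ with hg
  have hg0 : (n : ℝ) * (n + 1) / 2 * τ ^ 2 ≤ g := by rw [hg]; linarith
  have hg1 : 0 ≤ g := le_trans (by positivity) hg0
  have e2 : G / (1 - τ) - 1 = (n + 1) * τ + ((n + 1) * τ ^ 2 + g) / (1 - τ) := by
    have : G = g + 1 + n * τ := by rw [hg]; ring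
    rw [this]
    field_simp
    ring
  have h3 : ((n : ℝ) + 1) * τ ^ 2 ≤ 2 / n * g := by
    have h4 := mul_le_mul_of_nonneg_left hg0 (show (0 : ℝ) ≤ 2 / n by positivity)
    have e3 : 2 / (n : ℝ) * (n * (n + 1) / 2 * τ ^ 2) = (n + 1) * τ ^ 2 := by
      field_simp
    linarith
  have h5 : (((n : ℝ) + 1) * τ ^ 2 + g) / (1 - τ) ≤ (1 + 2 / n) * g / (1 - T) := by
    have h6 : ((n : ℝ) + 1) * τ ^ 2 + g ≤ (1 + 2 / n) * g := by linarith
    exact div_le_div₀ (by positivity) h6 hv' (by linarith)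
  have h7 : r * (G / (1 - τ) - 1) ≤ r * ((n + 1) * τ) + r * (1 + 2 / n) / (1 - T) * g := by
    rw [e2, mul_add]
    have h8 := mul_le_mul_of_nonneg_left h5 hr
    have e4 : r * ((1 + 2 / (n : ℝ)) * g / (1 - T)) = r * (1 + 2 / n) / (1 - T) * g := by ring
    linarith
  have h9 : D * g ≤ g - r * (1 + 2 / n) / (1 - T) * g := by
    have := mul_le_mul_of_nonneg_right hD' hg1
    have e7 : (1 - r * (1 + 2 / (n : ℝ)) / (1 - T)) * g
        = g - r * (1 + 2 / n) / (1 - T) * g := by ring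
    rwa [e7] at this
  have h10 : D * (n * (n + 1) / 2 * τ ^ 2) ≤ D * g := mul_le_mul_of_nonneg_left hg0 hD.le
  have h11 : 0 ≤ D * (n * (n + 1) / 2 * τ ^ 2) - r * ((n + 1) * τ) + μ := by
    have h12 : 0 ≤ (D * n * τ - r) ^ 2 * ((n + 1) / (2 * n * D)) := by positivity
    have e5 : (D * n * τ - r) ^ 2 * ((n + 1) / (2 * n * D))
        = D * (n * (n + 1) / 2 * τ ^ 2) - r * ((n + 1) * τ) + r ^ 2 * (n + 1) / (2 * n * D) := by
      field_simp
      ring
    linarith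
  have e6 : g + μ = G - 1 - n * τ + μ := by rw [hg]
  linarith

/-- the part where the kernel is at most one -/
lemma part_neg {n : ℕ} (hn : 1 ≤ n) {c r μ : ℝ} (h0 : 0 ≤ c) (hr : 0 ≤ r)
    (hμ : r ^ 2 * (1 + 1 / n) ^ 2 / 2 ≤ μ) :
    r * (1 - ((1 + c) ^ (n + 1))⁻¹) ≤ ((1 + c) ^ n)⁻¹ - 1 + n * c + μ := by
  have hnR : (0 : ℝ) < n := by exact_mod_cast hn
  have hv : 0 < 1 + c := by linarith
  set G := ((1 + c) ^ n)⁻¹ with hGd
  have hG : 0 < G := by positivity
  have e1 : ((1 + c) ^ (n + 1))⁻¹ = G / (1 + c) := by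
    rw [hGd, pow_succ, mul_inv]
    rfl
  rw [e1]
  set r' := r * (1 + 1 / n) with hr'
  have hr0 : 0 ≤ r' := by positivity
  -- comparison of the two kernels
  have h1 : 1 - G / (1 + c) ≤ (1 + 1 / n) * (1 - G) := by
    have h2 := one_add_mul_le_pow (show (-2 : ℝ) ≤ c by linarith) (n + 1)
    have h3 : ((n + 1 : ℕ) : ℝ) * (1 + c) ≤ (1 + c) ^ (n + 1) + n := by
      push_cast at h2 ⊢
      linarith
    have h4 : ((n + 1 : ℕ) : ℝ) * G ≤ 1 + n * (G / (1 + c)) := by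
      have h5 := mul_le_mul_of_nonneg_right h3 (show 0 ≤ G / (1 + c) by positivity)
      have e2 : ((n + 1 : ℕ) : ℝ) * (1 + c) * (G / (1 + c)) = ((n + 1 : ℕ) : ℝ) * G := by
        field_simp
      have e3 : ((1 + c) ^ (n + 1) + (n : ℝ)) * (G / (1 + c)) = 1 + n * (G / (1 + c)) := by
        have e4 : (1 + c) ^ (n + 1) * (G / (1 + c)) = 1 := by
          rw [hGd, pow_succ]
          field_simp
        rw [add_mul, e4]
      rw [e2, e3] at h5
      exact h5
    push_cast at h4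
    have e5 : (1 + 1 / (n : ℝ)) * (1 - G) - (1 - G / (1 + c))
        = (1 + n * (G / (1 + c)) - (n + 1) * G) / n := by
      field_simp
      ring
    have h6 : 0 ≤ (1 + n * (G / (1 + c)) - ((n : ℝ) + 1) * G) / n :=
      div_nonneg (by linarith) hnR.le
    linarith
  have h7 : r * (1 - G / (1 + c)) ≤ r' * (1 - G) := by
    have := mul_le_mul_of_nonneg_left h1 hr
    rw [hr']
    linarith
  -- the exponential
  have h8 : Real.exp (-(n * c)) ≤ G := by
    rw [hGd, Real.exp_neg]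
    refine inv_anti₀ (by positivity) ?_
    have h9 : (1 + c) ^ n ≤ Real.exp c ^ n :=
      pow_le_pow_left₀ hv.le (by linarith [Real.add_one_le_exp c]) n
    rwa [← Real.exp_nat_mul] at h9
  have h10 : 1 + Real.log (1 + r') - n * c ≤ (1 + r') * G := by
    have h11 : 1 + Real.log (1 + r') - n * c ≤ Real.exp (Real.log (1 + r') - n * c) := by
      linarith [Real.add_one_le_exp (Real.log (1 + r') - n * c)]
    have e6 : Real.exp (Real.log (1 + r') - n * c) = (1 + r') * Real.exp (-(n * c)) := by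
      rw [sub_eq_add_neg, Real.exp_add, Real.exp_log (by linarith)]
    rw [e6] at h11
    exact h11.trans (mul_le_mul_of_nonneg_left h8 (by linarith))
  have h12 : r' - r' ^ 2 / 2 ≤ Real.log (1 + r') := by
    have h13 := Real.le_log_one_add_of_nonneg hr0
    refine le_trans ?_ h13
    rw [le_div_iff₀ (by linarith)]
    nlinarith [mul_nonneg hr0 (mul_nonneg hr0 hr0)]
  have e7 : r' ^ 2 / 2 = r ^ 2 * (1 + 1 / n) ^ 2 / 2 := by rw [hr']; ring
  rw [e7] at h12
  have e8 : (1 + r') * G = G + r' * G := by ring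
  have e9 : r' * (1 - G) = r' - r' * G := by ring
  rw [e8] at h10
  rw [e9] at h7
  linarith

/-- a line below the combination of the kernels -/
theorem line_ge {n : ℕ} (hn : 1 ≤ n) {T x1 κ r μ D : ℝ} (hT : T ∈ Ioo (0 : ℝ) 1) (hx : 0 ≤ x1)
    (hr : 0 ≤ r) (hκ : 2 * κ ≤ r * x1) (hD : 0 < D)
    (hD' : D ≤ 1 - r * (1 + 2 / n) / (1 - T))
    (h1 : r ^ 2 * (n + 1) / (2 * n * D) ≤ μ) (h2 : r ^ 2 * (1 + 1 / n) ^ 2 / 2 ≤ μ) :
    ∀ s ∈ Icc (-1 : ℝ) 1, (1 - μ) * x1 + n * T * x1 * s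
      ≤ x1 * ker T n s - 2 * κ * |ker T (n + 1) s - 1| := by
  intro s hs
  have hT0 := hT.1
  have hT1 := hT.2
  have hv : 0 < 1 - T * s := by nlinarith [hs.2]
  have key : r * |ker T (n + 1) s - 1| ≤ ker T n s - 1 - n * (T * s) + μ := by
    unfold ker
    rcases le_total 0 s with h | h
    · have hτ0 : 0 ≤ T * s := mul_nonneg hT0.le h
      have hτ1 : T * s ≤ T := by nlinarith [hs.2]
      have h3 := part_pos hn hτ0 hτ1 hT1 hr hD hD' h1
      have h4 : 1 ≤ ((1 - T * s) ^ (n + 1))⁻¹ :=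
        (one_le_inv₀ (by positivity)).2 (pow_le_one₀ hv.le (by linarith))
      rw [abs_of_nonneg (by linarith)]
      exact h3
    · have hc : 0 ≤ -(T * s) := by nlinarith
      have h3 := part_neg hn hc hr h2
      have e : 1 + -(T * s) = 1 - T * s := by ring
      rw [e] at h3
      have h4 : ((1 - T * s) ^ (n + 1))⁻¹ ≤ 1 :=
        inv_le_one_of_one_le₀ (one_le_pow₀ (by linarith))
      rw [abs_of_nonpos (by linarith)]
      have e2 : r * (1 - ((1 - T * s) ^ (n + 1))⁻¹) = r * -(((1 - T * s) ^ (n + 1))⁻¹ - 1) := by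
        ring
      rw [← e2]
      linarith
  have h5 : 2 * κ * |ker T (n + 1) s - 1| ≤ x1 * (ker T n s - 1 - n * (T * s) + μ) := by
    calc 2 * κ * |ker T (n + 1) s - 1| ≤ r * x1 * |ker T (n + 1) s - 1| :=
          mul_le_mul_of_nonneg_right hκ (abs_nonneg _)
      _ = x1 * (r * |ker T (n + 1) s - 1|) := by ring
      _ ≤ _ := mul_le_mul_of_nonneg_left key hx
  have e : x1 * (ker T n s - 1 - n * (T * s) + μ)
      = x1 * ker T n s - ((1 - μ) * x1 + n * T * x1 * s) := by ring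
  rw [e] at h5
  linarith

/-- the line for small parameter -/
theorem line_small {n : ℕ} {T x1 κ r μ : ℝ} (hT : T ∈ Ioo (0 : ℝ) 1) (hx : 0 ≤ x1)
    (hr : 0 ≤ r) (hκ : 2 * κ ≤ r * x1) (hμ : r * (((1 - T) ^ (n + 1))⁻¹ - 1) ≤ μ) :
    ∀ s ∈ Icc (-1 : ℝ) 1, (1 - μ) * x1 + n * T * x1 * s
      ≤ x1 * ker T n s - 2 * κ * |ker T (n + 1) s - 1| := by
  intro s hs
  have hT0 := hT.1
  have hT1 := hT.2
  have hv : 0 < 1 - T * s := by nlinarith [hs.2]
  have hvT : 0 < 1 - T := by linarith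
  have h3 : |ker T (n + 1) s - 1| ≤ ((1 - T) ^ (n + 1))⁻¹ - 1 := by
    unfold ker
    rw [abs_le]
    constructor
    · have h4 := inv_pow_ge (n + 1) hT0.le hT1
      have h5 : 0 ≤ ((n + 1 : ℕ) : ℝ) * (((n + 1 : ℕ) : ℝ) + 1) / 2 * T ^ 2 := by positivity
      have h6 := inv_pow_ge_one (n + 1) (c := -(T * s)) (by linarith)
      have e : 1 + -(T * s) = 1 - T * s := by ring
      rw [e] at h6
      have h7 : ((n + 1 : ℕ) : ℝ) * -(T * s) ≤ ((n + 1 : ℕ) : ℝ) * T :=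
        mul_le_mul_of_nonneg_left (by nlinarith [hs.1]) (Nat.cast_nonneg _)
      linarith
    · have h4 : ((1 - T * s) ^ (n + 1))⁻¹ ≤ ((1 - T) ^ (n + 1))⁻¹ := by
        refine inv_anti₀ (by positivity) (pow_le_pow_left₀ hvT.le ?_ _)
        nlinarith [hs.2]
      linarith
  have h8 : 1 + n * (T * s) ≤ ker T n s := by
    have h6 := inv_pow_ge_one n (c := -(T * s)) (by linarith)
    have e : 1 + -(T * s) = 1 - T * s := by ring
    rw [e] at h6
    unfold ker
    linarith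
  have h9 : r * |ker T (n + 1) s - 1| ≤ μ :=
    (mul_le_mul_of_nonneg_left h3 hr).trans hμ
  have h5 : 2 * κ * |ker T (n + 1) s - 1| ≤ x1 * μ := by
    calc 2 * κ * |ker T (n + 1) s - 1| ≤ r * x1 * |ker T (n + 1) s - 1| :=
          mul_le_mul_of_nonneg_right hκ (abs_nonneg _)
      _ = x1 * (r * |ker T (n + 1) s - 1|) := by ring
      _ ≤ _ := mul_le_mul_of_nonneg_left h9 hx
  have h10 := mul_le_mul_of_nonneg_left h8 hx
  have e : (1 - μ) * x1 + n * T * x1 * s = x1 * (1 + n * (T * s)) - x1 * μ := by ring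
  rw [e]
  linarith

end Vale.Agent.P224.R2.H742
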