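import Vale.Agent.P224.R2.H742.Spec
import Vale.Agent.P224.R2.H728.T0b

/-!
The spectral inequality for odd `m` in terms of the two point quantities at level zero.
-/

namespace Vale.Agent.P224.R2.H742

open MeasureTheory Matrix Finset Vale.Agent.P224.R2.H728

set_option linter.unusedSectionVars false

section

variable {ι Ω : Type*} [Fintype ι] [DecidableEq ι] [MeasurableSpace Ω] {μ : Measure Ω}
  {m : ℝ} {x N : ι → Ω → ℝ}

/-- `(m + 1) tr (G C) = - tr (P C)` -/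
lemma GC (h : T0Data μ m x N) :
    (m + 1) * ∑ a, ∑ b, m2 μ x x a b * m2 μ N x a b = -∑ a, ∑ b, m2 μ N N a b * m2 μ N x a b := by
  have e : ∀ a b, (m + 1) * (m2 μ x x a b * m2 μ N x a b)
      = (if a = b then m2 μ N x a b else 0) - m2 μ N N a b * m2 μ N x a b := by
    intro a b
    have h1 := h.GP a b
    have h2 : (if a = b then m2 μ N x a b else 0) = m2 μ N x a b * (if a = b then 1 else 0) := by
      split_ifs <;> simp
    rw [h2, ← h1]
    ring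
  simp_rw [Finset.mul_sum, e, Finset.sum_sub_distrib]
  have := h.trC
  simp [this]

/-- the integral of a quadratic expression in the four two point functions -/
lemma E_quad (h : T0Data μ m x N) (hm : m + 1 ≠ 0) (δ : ℝ) :
    ∫ q, (ip N N q.1 q.2 - ip x x q.1 q.2 - δ * (ip x N q.1 q.2 + ip N x q.1 q.2)) ^ 2
      ∂(μ.prod μ)
      = (1 + 1 / (m + 1) ^ 2) * ∑ a, ∑ b, m2 μ N N a b ^ 2 + m / (m + 1) ^ 2
        - 2 * ∑ a, ∑ b, m2 μ N x a b ^ 2
        - 4 * δ * ((m + 2) / (m + 1)) * ∑ a, ∑ b, m2 μ N N a b * m2 μ N x a b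
        + δ ^ 2 * (2 * (1 - ∑ a, ∑ b, m2 μ N N a b ^ 2) / (m + 1)
          + 2 * ∑ a, ∑ b, m2 μ N x a b ^ 2) := by
  have hp := h.prob
  have e : ∀ q : Ω × Ω,
      (ip N N q.1 q.2 - ip x x q.1 q.2 - δ * (ip x N q.1 q.2 + ip N x q.1 q.2)) ^ 2
      = (ip N N q.1 q.2 * ip N N q.1 q.2 - 2 * (ip N N q.1 q.2 * ip x x q.1 q.2)
        + ip x x q.1 q.2 * ip x x q.1 q.2)
        + (-2 * δ) * (ip N N q.1 q.2 * ip x N q.1 q.2 + ip N N q.1 q.2 * ip N x q.1 q.2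
          - ip x x q.1 q.2 * ip x N q.1 q.2 - ip x x q.1 q.2 * ip N x q.1 q.2)
        + δ ^ 2 * (ip x N q.1 q.2 * ip x N q.1 q.2 + ip N x q.1 q.2 * ip N x q.1 q.2
          + 2 * (ip x N q.1 q.2 * ip N x q.1 q.2)) := fun q => by ring
  simp_rw [e]
  have i1 := h.int2 h.bN h.bN h.bN h.bN
  have i2 := h.int2 h.bN h.bN h.bx h.bx
  have i3 := h.int2 h.bx h.bx h.bx h.bx
  have i4 := h.int2 h.bN h.bN h.bx h.bN
  have i5 := h.int2 h.bN h.bN h.bN h.bx
  have i6 := h.int2 h.bx h.bx h.bx h.bN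
  have i7 := h.int2 h.bx h.bx h.bN h.bx
  have i8 := h.int2 h.bx h.bN h.bx h.bN
  have i9 := h.int2 h.bN h.bx h.bN h.bx
  have i10 := h.int2 h.bx h.bN h.bN h.bx
  rw [integral_add, integral_add, integral_const_mul, integral_const_mul,
    T0Data.int_comb i1 i2 i3, integral_sub, integral_sub, integral_add i4 i5, integral_add,
    integral_add i8 i9, integral_const_mul]
  · rw [E2_two h.bN h.bN h.bN h.bN, E2_two h.bN h.bN h.bx h.bx, E2_two h.bx h.bx h.bx h.bx,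
      E2_two h.bN h.bN h.bx h.bN, E2_two h.bN h.bN h.bN h.bx, E2_two h.bx h.bx h.bx h.bN,
      E2_two h.bx h.bx h.bN h.bx, E2_two h.bx h.bN h.bx h.bN, E2_two h.bN h.bx h.bN h.bx,
      E2_two h.bx h.bN h.bN h.bx]
    simp_rw [h.xN_eq]
    have g1 := GC h
    have g2 := h.PG
    have g3 := h.GG2
    have c1 : ∑ a, ∑ b, m2 μ N x a b * m2 μ N N a b = ∑ a, ∑ b, m2 μ N N a b * m2 μ N x a b :=
      Finset.sum_congr rfl fun a _ => Finset.sum_congr rfl fun b _ => mul_comm _ _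
    have c2 : ∑ a, ∑ b, m2 μ x x a b * m2 μ N N a b = ∑ a, ∑ b, m2 μ N N a b * m2 μ x x a b :=
      Finset.sum_congr rfl fun a _ => Finset.sum_congr rfl fun b _ => mul_comm _ _
    have c3 : ∑ a, ∑ b, m2 μ N x a b * m2 μ x x a b = ∑ a, ∑ b, m2 μ x x a b * m2 μ N x a b :=
      Finset.sum_congr rfl fun a _ => Finset.sum_congr rfl fun b _ => mul_comm _ _
    simp only [c1, c2, c3, ← sq]
    set A := ∑ a, ∑ b, m2 μ N N a b ^ 2
    set B := ∑ a, ∑ b, m2 μ N x a b ^ 2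
    set D := ∑ a, ∑ b, m2 μ N N a b * m2 μ N x a b
    set G1 := ∑ a, ∑ b, m2 μ x x a b * m2 μ N x a b
    set G2 := ∑ a, ∑ b, m2 μ N N a b * m2 μ x x a b
    set G3 := ∑ a, ∑ b, m2 μ x x a b ^ 2
    have k1 : G1 = -D / (m + 1) := by rw [eq_div_iff hm]; linarith
    have k2 : G2 = (1 - A) / (m + 1) := by rw [eq_div_iff hm]; linarith
    have k3 : G3 = (m + A) / (m + 1) ^ 2 := by rw [eq_div_iff (pow_ne_zero 2 hm)]; linarith
    rw [k1, k2, k3]
    field_simp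
    ring
  all_goals first
    | exact (((i1.sub (i2.const_mul 2)).add i3).add
        ((((i4.add i5).sub i6).sub i7).const_mul (-2 * δ)))
    | exact (((i8.add i9).add (i10.const_mul 2)).const_mul (δ ^ 2))
    | exact ((i1.sub (i2.const_mul 2)).add i3)
    | exact ((((i4.add i5).sub i6).sub i7).const_mul (-2 * δ))
    | exact ((i4.add i5).sub i6)
    | exact (i4.add i5)
    | exact (i8.add i9)
    | exact (i10.const_mul 2)
    | exact i6
    | exact i7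

/-- the linear two point functional at level zero -/
lemma E_lin (h : T0Data μ m x N) (hm : m + 1 ≠ 0) (α β δ : ℝ) :
    ∫ q, (α * (ip N N q.1 q.2 * (ip x N q.1 q.2 + ip N x q.1 q.2) / 2)
      - β * (ip x x q.1 q.2 * (ip x N q.1 q.2 + ip N x q.1 q.2) / 2)
      - δ * ((ip x N q.1 q.2 ^ 2 + ip N x q.1 q.2 ^ 2) / 2)) ∂(μ.prod μ)
      = (α + β / (m + 1)) * ∑ a, ∑ b, m2 μ N N a b * m2 μ N x a b
        - δ * (1 - ∑ a, ∑ b, m2 μ N N a b ^ 2) / (m + 1) := by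
  have hp := h.prob
  have e : ∀ q : Ω × Ω, α * (ip N N q.1 q.2 * (ip x N q.1 q.2 + ip N x q.1 q.2) / 2)
      - β * (ip x x q.1 q.2 * (ip x N q.1 q.2 + ip N x q.1 q.2) / 2)
      - δ * ((ip x N q.1 q.2 ^ 2 + ip N x q.1 q.2 ^ 2) / 2)
      = (α / 2) * (ip N N q.1 q.2 * ip x N q.1 q.2 + ip N N q.1 q.2 * ip N x q.1 q.2)
        + (-β / 2) * (ip x x q.1 q.2 * ip x N q.1 q.2 + ip x x q.1 q.2 * ip N x q.1 q.2)
        + (-δ / 2) * (ip x N q.1 q.2 * ip x N q.1 q.2 + ip N x q.1 q.2 * ip N x q.1 q.2) :=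
    fun q => by ring
  simp_rw [e]
  have i4 := h.int2 h.bN h.bN h.bx h.bN
  have i5 := h.int2 h.bN h.bN h.bN h.bx
  have i6 := h.int2 h.bx h.bx h.bx h.bN
  have i7 := h.int2 h.bx h.bx h.bN h.bx
  have i8 := h.int2 h.bx h.bN h.bx h.bN
  have i9 := h.int2 h.bN h.bx h.bN h.bx
  rw [integral_add, integral_add, integral_const_mul, integral_const_mul, integral_const_mul,
    integral_add i4 i5, integral_add i6 i7, integral_add i8 i9]
  · rw [E2_two h.bN h.bN h.bx h.bN, E2_two h.bN h.bN h.bN h.bx, E2_two h.bx h.bx h.bx h.bN,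
      E2_two h.bx h.bx h.bN h.bx, E2_two h.bx h.bN h.bx h.bN, E2_two h.bN h.bx h.bN h.bx]
    simp_rw [h.xN_eq]
    have g1 := GC h
    have g2 := h.PG
    have c1 : ∑ a, ∑ b, m2 μ N x a b * m2 μ N N a b = ∑ a, ∑ b, m2 μ N N a b * m2 μ N x a b :=
      Finset.sum_congr rfl fun a _ => Finset.sum_congr rfl fun b _ => mul_comm _ _
    have c2 : ∑ a, ∑ b, m2 μ x x a b * m2 μ N N a b = ∑ a, ∑ b, m2 μ N N a b * m2 μ x x a b :=
      Finset.sum_congr rfl fun a _ => Finset.sum_congr rfl fun b _ => mul_comm _ _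
    have c3 : ∑ a, ∑ b, m2 μ N x a b * m2 μ x x a b = ∑ a, ∑ b, m2 μ x x a b * m2 μ N x a b :=
      Finset.sum_congr rfl fun a _ => Finset.sum_congr rfl fun b _ => mul_comm _ _
    simp only [c1, c2, c3]
    set A := ∑ a, ∑ b, m2 μ N N a b ^ 2
    set D := ∑ a, ∑ b, m2 μ N N a b * m2 μ N x a b
    set G1 := ∑ a, ∑ b, m2 μ x x a b * m2 μ N x a b
    set G2 := ∑ a, ∑ b, m2 μ N N a b * m2 μ x x a b
    have k1 : G1 = -D / (m + 1) := by rw [eq_div_iff hm]; linarith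
    have k2 : G2 = (1 - A) / (m + 1) := by rw [eq_div_iff hm]; linarith
    rw [k1, k2]
    field_simp
    ring
  all_goals first
    | exact ((i4.add i5).const_mul (α / 2)).add ((i6.add i7).const_mul (-β / 2))
    | exact ((i4.add i5).const_mul (α / 2))
    | exact ((i6.add i7).const_mul (-β / 2))
    | exact ((i8.add i9).const_mul (-δ / 2))

lemma cs_int [IsProbabilityMeasure μ] {f g : Ω → ℝ} (bf : BM f) (bg : BM g) :
    (∫ ω, f ω * g ω ∂μ) ^ 2 ≤ (∫ ω, f ω * f ω ∂μ) * ∫ ω, g ω * g ω ∂μ := by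
  have key : ∀ t : ℝ, 0 ≤ (∫ ω, f ω * f ω ∂μ) * (t * t) + (2 * ∫ ω, f ω * g ω ∂μ) * t
      + ∫ ω, g ω * g ω ∂μ := by
    intro t
    have i1 := (bf.mul bf).int (μ := μ)
    have i2 := (bf.mul bg).int (μ := μ)
    have i3 := (bg.mul bg).int (μ := μ)
    have e : (∫ ω, f ω * f ω ∂μ) * (t * t) + (2 * ∫ ω, f ω * g ω ∂μ) * t
        + ∫ ω, g ω * g ω ∂μ = ∫ ω, (f ω * t + g ω) ^ 2 ∂μ := by
      have e2 : ∀ ω, (f ω * t + g ω) ^ 2
          = (t * t) * (f ω * f ω) + (2 * t) * (f ω * g ω) + g ω * g ω := fun ω => by ring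
      simp_rw [e2]
      have i4 := i1.const_mul (t * t)
      have i5 := i2.const_mul (2 * t)
      have i6 : Integrable (fun ω => (t * t) * (f ω * f ω) + (2 * t) * (f ω * g ω)) μ :=
        i4.add i5
      rw [integral_add i6 i3, integral_add i4 i5, integral_const_mul, integral_const_mul]
      ring
    rw [e]
    exact integral_nonneg fun ω => sq_nonneg _
  have := discrim_le_zero key
  unfold discrim at this
  linarith

/-- Cauchy-Schwarz for one direction -/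
lemma dir_bound (h : T0Data μ m x N) (hm : 0 < m + 1) {v : ι → ℝ} (hv : v ⬝ᵥ v = 1) :
    0 ≤ v ⬝ᵥ (Matrix.of (m2 μ N N)) *ᵥ v ∧ v ⬝ᵥ (Matrix.of (m2 μ N N)) *ᵥ v ≤ 1
      ∧ (m + 1) * (v ⬝ᵥ (Matrix.of (m2 μ N x)) *ᵥ v) ^ 2
        ≤ (v ⬝ᵥ (Matrix.of (m2 μ N N)) *ᵥ v) * (1 - v ⬝ᵥ (Matrix.of (m2 μ N N)) *ᵥ v) := by
  have hp := h.prob
  set f : Ω → ℝ := fun ω => ∑ a, v a * N a ω with hf
  set g : Ω → ℝ := fun ω => ∑ a, v a * x a ω with hg
  have bf : BM f := BM.sum _ fun a _ => (h.bN a).const_mul _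
  have bg : BM g := BM.sum _ fun a _ => (h.bx a).const_mul _
  have q : ∀ (y z : ι → Ω → ℝ), (∀ a, BM (y a)) → (∀ a, BM (z a)) →
      v ⬝ᵥ (Matrix.of (m2 μ y z)) *ᵥ v
        = ∫ ω, (∑ a, v a * y a ω) * (∑ b, v b * z b ω) ∂μ := by
    intro y z hy hz
    have e : ∀ ω, (∑ a, v a * y a ω) * (∑ b, v b * z b ω)
        = ∑ a, ∑ b, v a * v b * (y a ω * z b ω) := by
      intro ω
      rw [Finset.sum_mul_sum]
      exact Finset.sum_congr rfl fun a _ => Finset.sum_congr rfl fun b _ => by ring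
    simp_rw [e]
    rw [integral_finsetSum _ fun a _ => (BM.sum _ fun b _ =>
      (((hy a).mul (hz b)).const_mul (v a * v b))).int]
    simp only [dotProduct, mulVec, Matrix.of_apply, Finset.mul_sum]
    refine Finset.sum_congr rfl fun a _ => ?_
    rw [integral_finsetSum _ fun b _ => (((hy a).mul (hz b)).const_mul (v a * v b)).int]
    refine Finset.sum_congr rfl fun b _ => ?_
    rw [integral_const_mul]
    unfold m2
    ring
  have qN := q N N h.bN h.bN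
  have qC := q N x h.bN h.bx
  have qG := q x x h.bx h.bx
  have hG : (m + 1) * (v ⬝ᵥ (Matrix.of (m2 μ x x)) *ᵥ v) + v ⬝ᵥ (Matrix.of (m2 μ N N)) *ᵥ v = 1 := by
    have e : (m + 1) • (Matrix.of (m2 μ x x)) + Matrix.of (m2 μ N N) = (1 : Matrix ι ι ℝ) := by
      ext a b
      simp only [Matrix.add_apply, Matrix.smul_apply, Matrix.of_apply, smul_eq_mul,
        Matrix.one_apply]
      exact h.GP a b
    have e2 := congrArg (fun A : Matrix ι ι ℝ => v ⬝ᵥ A *ᵥ v) e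
    simp only [Matrix.add_mulVec, Matrix.smul_mulVec, dotProduct_add, dotProduct_smul,
      smul_eq_mul, Matrix.one_mulVec, hv] at e2
    exact e2
  have n0 : 0 ≤ v ⬝ᵥ (Matrix.of (m2 μ N N)) *ᵥ v := by
    rw [qN]; exact integral_nonneg fun ω => mul_self_nonneg _
  have g0 : 0 ≤ v ⬝ᵥ (Matrix.of (m2 μ x x)) *ᵥ v := by
    rw [qG]; exact integral_nonneg fun ω => mul_self_nonneg _
  have cs : (v ⬝ᵥ (Matrix.of (m2 μ N x)) *ᵥ v) ^ 2
      ≤ (v ⬝ᵥ (Matrix.of (m2 μ N N)) *ᵥ v) * (v ⬝ᵥ (Matrix.of (m2 μ x x)) *ᵥ v) := by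
    rw [qN, qC, qG]
    exact cs_int bf bg
  refine ⟨n0, by nlinarith, ?_⟩
  nlinarith

/-- the value of the linear functional at the Clifford product `C_{k, l}`, `k - l = 1` -/
noncomputable def Jkl (m r : ℝ) : ℝ :=
  al m * (2 * r / (m ^ 2 * (m + 3))) - be m / r * (1 - (m ^ 2 + m + 2) / (m ^ 2 * (m + 3)))

/-- **The spectral inequality for odd `m`.**  For one of the two orientations `σ = 1`, `σ = -1`
the linear two point functional at level zero is at least its value at the Clifford product,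
up to the two defects. -/
theorem odd_spectral (h : T0Data μ m x N) (hm : 3 ≤ m) (ho : Odd (Fintype.card ι)) {r : ℝ}
    (hr : 0 < r) (hr2 : r ^ 2 = m ^ 2 - 1) :
    ∃ σ : ℝ, (σ = 1 ∨ σ = -1) ∧ ∀ W1 W2 : ℝ, (m + 1) * (2 * m - 1) ≤ r * W1 → 7 ≤ r * W2 →
      Jkl m r - ∫ q, ((m + 3 - 4 / (m ^ 2 - 1)) * (ip N N q.1 q.2
            * (σ * (ip x N q.1 q.2 + ip N x q.1 q.2)) / 2)
          - ip x x q.1 q.2 * (σ * (ip x N q.1 q.2 + ip N x q.1 q.2)) / 2
          - 4 * (m + 2) / r * ((ip x N q.1 q.2 ^ 2 + ip N x q.1 q.2 ^ 2) / 2)) ∂(μ.prod μ)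
      ≤ W1 * ∫ q, (ip N N q.1 q.2 - ip x x q.1 q.2
            - σ / r * (ip x N q.1 q.2 + ip N x q.1 q.2)) ^ 2 ∂(μ.prod μ)
        + W2 * ((m + 1) / 2 * ∫ q, (ip N x q.1 q.2 - ip x N q.1 q.2) ^ 2 ∂(μ.prod μ)) := by
  have hp := h.prob
  have a1 : m + 1 ≠ 0 := by linarith
  have a2 : m - 1 ≠ 0 := by linarith
  have a3 : m ^ 2 - 1 ≠ 0 := by nlinarith
  have a4 : 0 < m + 1 := by linarith
  set P : Matrix ι ι ℝ := Matrix.of (m2 μ N N) with hP
  set C : Matrix ι ι ℝ := Matrix.of (m2 μ N x) with hC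
  have hK : (r • C).IsSymm := by
    ext a b
    simp only [Matrix.transpose_apply, Matrix.smul_apply, hC, Matrix.of_apply, smul_eq_mul]
    rw [h.C_symm b a]
  have trP : ∑ i, P i i = 1 := h.trP
  have trK : ∑ i, (r • C) i i = 0 := by
    simp only [Matrix.smul_apply, smul_eq_mul, ← Finset.mul_sum]
    have : ∑ i, C i i = 0 := h.trC
    rw [this, mul_zero]
  have hb : ∀ v : ι → ℝ, v ⬝ᵥ v = 1 → 0 ≤ v ⬝ᵥ P *ᵥ v ∧ v ⬝ᵥ P *ᵥ v ≤ 1
      ∧ (v ⬝ᵥ (r • C) *ᵥ v) ^ 2 ≤ (m - 1) * (v ⬝ᵥ P *ᵥ v) * (1 - v ⬝ᵥ P *ᵥ v) := by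
    intro v hv
    obtain ⟨b1, b2, b3⟩ := dir_bound h a4 hv
    refine ⟨b1, b2, ?_⟩
    have e : v ⬝ᵥ (r • C) *ᵥ v = r * (v ⬝ᵥ C *ᵥ v) := by
      rw [Matrix.smul_mulVec, dotProduct_smul, smul_eq_mul]
    rw [e, mul_pow, hr2]
    have := mul_le_mul_of_nonneg_left b3 (by linarith : 0 ≤ m - 1)
    calc (m ^ 2 - 1) * (v ⬝ᵥ C *ᵥ v) ^ 2 = (m - 1) * ((m + 1) * (v ⬝ᵥ C *ᵥ v) ^ 2) := by ring
      _ ≤ (m - 1) * ((v ⬝ᵥ P *ᵥ v) * (1 - v ⬝ᵥ P *ᵥ v)) := this
      _ = _ := by ring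
  have hcard := h.card
  obtain ⟨σ, hσ, hF⟩ := spec_matrix hm hcard ho hK trP trK hb
  refine ⟨σ, hσ, fun W1 W2 h1 h2 => ?_⟩
  have hσ2 : σ ^ 2 = 1 := by rcases hσ with h | h <;> rw [h] <;> norm_num
  set A := ∑ a, ∑ b, m2 μ N N a b ^ 2 with hA
  set B := ∑ a, ∑ b, m2 μ N x a b ^ 2 with hB
  set D := ∑ a, ∑ b, m2 μ N N a b * m2 μ N x a b with hD
  have e1 : ∑ a, ∑ b, P a b ^ 2 = A := rfl
  have e2 : ∑ a, ∑ b, P a b * (r • C) a b = r * D := by
    rw [hD, Finset.mul_sum]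
    refine Finset.sum_congr rfl fun a _ => ?_
    rw [Finset.mul_sum]
    refine Finset.sum_congr rfl fun b _ => ?_
    simp only [Matrix.smul_apply, hC, hP, Matrix.of_apply, smul_eq_mul]
    ring
  have e3 : ∑ a, ∑ b, (r • C) a b ^ 2 = (m ^ 2 - 1) * B := by
    rw [hB, Finset.mul_sum]
    refine Finset.sum_congr rfl fun a _ => ?_
    rw [Finset.mul_sum]
    refine Finset.sum_congr rfl fun b _ => ?_
    simp only [Matrix.smul_apply, hC, Matrix.of_apply, smul_eq_mul]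
    rw [← hr2]
    ring
  rw [e1, e2, e3] at hF
  have q1 := E_quad h a1 (σ / r)
  have q2 := h.E_pt a1
  have q3 := E_lin h a1 (σ * (m + 3 - 4 / (m ^ 2 - 1))) σ (4 * (m + 2) / r)
  rw [← hA, ← hB, ← hD] at q1
  rw [← hA, ← hB] at q2
  rw [← hA, ← hD] at q3
  set I1 := ∫ q, (ip N N q.1 q.2 - ip x x q.1 q.2
            - σ / r * (ip x N q.1 q.2 + ip N x q.1 q.2)) ^ 2 ∂(μ.prod μ) with hI1
  set I2 := ∫ q, (ip N x q.1 q.2 - ip x N q.1 q.2) ^ 2 ∂(μ.prod μ) with hI2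
  have n1 : 0 ≤ I1 := integral_nonneg fun q => sq_nonneg _
  have n2 : 0 ≤ I2 := integral_nonneg fun q => sq_nonneg _
  have q4 : ∫ q, ((m + 3 - 4 / (m ^ 2 - 1)) * (ip N N q.1 q.2
            * (σ * (ip x N q.1 q.2 + ip N x q.1 q.2)) / 2)
          - ip x x q.1 q.2 * (σ * (ip x N q.1 q.2 + ip N x q.1 q.2)) / 2
          - 4 * (m + 2) / r * ((ip x N q.1 q.2 ^ 2 + ip N x q.1 q.2 ^ 2) / 2)) ∂(μ.prod μ)
      = al m * (σ * D) - be m / r * (1 - A) := by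
    have e4 : ∀ q : Ω × Ω, (m + 3 - 4 / (m ^ 2 - 1)) * (ip N N q.1 q.2
            * (σ * (ip x N q.1 q.2 + ip N x q.1 q.2)) / 2)
          - ip x x q.1 q.2 * (σ * (ip x N q.1 q.2 + ip N x q.1 q.2)) / 2
          - 4 * (m + 2) / r * ((ip x N q.1 q.2 ^ 2 + ip N x q.1 q.2 ^ 2) / 2)
        = σ * (m + 3 - 4 / (m ^ 2 - 1)) * (ip N N q.1 q.2 * (ip x N q.1 q.2 + ip N x q.1 q.2) / 2)
          - σ * (ip x x q.1 q.2 * (ip x N q.1 q.2 + ip N x q.1 q.2) / 2)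
          - 4 * (m + 2) / r * ((ip x N q.1 q.2 ^ 2 + ip N x q.1 q.2 ^ 2) / 2) := fun q => by ring
    simp_rw [e4]
    rw [q3]
    have e5 : al m = m + 3 - 4 / (m ^ 2 - 1) + 1 / (m + 1) := by
      unfold al
      have e6 : m ^ 2 - 1 = (m + 1) * (m - 1) := by ring
      rw [e6]
      field_simp
      ring
    rw [e5]
    unfold be
    field_simp
  rw [q4]
  -- the two weights at their least values
  have main : Jkl m r - (al m * (σ * D) - be m / r * (1 - A))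
      ≤ ((m + 1) * (2 * m - 1) / r) * I1 + (7 / r) * ((m + 1) / 2 * I2) := by
    have hφ : Ph m A (σ * (r * D)) ((m ^ 2 - 1) * B)
        = (m + 1) * (2 * m - 1) * I1 + 7 * ((m + 1) / 2 * I2) + al m * (σ * (r * D))
          + be m * A := by
      rw [q1, q2]
      unfold Ph w1 w2
      have e6 : m ^ 2 - 1 = (m + 1) * (m - 1) := by ring
      have e7 : (σ / r) ^ 2 = 1 / ((m + 1) * (m - 1)) := by
        rw [div_pow, hσ2, hr2, e6]
      have e8 : σ * (r * D) = ((m + 1) * (m - 1)) * (σ / r * D) := by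
        rw [← e6, ← hr2]
        field_simp
      rw [e7, e8, e6]
      field_simp
      ring
    rw [hφ, tg_eq hm] at hF
    have hr0 : r ≠ 0 := hr.ne'
    have e9 : r * (Jkl m r - (al m * (σ * D) - be m / r * (1 - A)))
        = al m * (2 * (m ^ 2 - 1) / (m ^ 2 * (m + 3)))
          + be m * ((m ^ 2 + m + 2) / (m ^ 2 * (m + 3))) - al m * (σ * (r * D)) - be m * A := by
      unfold Jkl
      rw [← hr2]
      field_simp
      ring
    have e10 : r * (((m + 1) * (2 * m - 1) / r) * I1 + (7 / r) * ((m + 1) / 2 * I2))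
        = (m + 1) * (2 * m - 1) * I1 + 7 * ((m + 1) / 2 * I2) := by
      field_simp
    refine le_of_mul_le_mul_left ?_ hr
    rw [e9, e10]
    linarith
  have b1 : (m + 1) * (2 * m - 1) / r ≤ W1 := by
    rw [div_le_iff₀ hr]; linarith
  have b2 : 7 / r ≤ W2 := by
    rw [div_le_iff₀ hr]; linarith
  have b3 : 0 ≤ (m + 1) / 2 * I2 := by positivity
  exact main.trans (add_le_add (mul_le_mul_of_nonneg_right b1 n1)
    (mul_le_mul_of_nonneg_right b2 b3))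

end

end Vale.Agent.P224.R2.H742
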