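import Vale.Agent.P224.R2.H742.IfO2
import Vale.Agent.P224.R2.H742.SpecT0
import Vale.Agent.P224.R2.H582.Conv
import Vale.Agent.P224.R2.H728.T0g
import Vale.Agent.P224.R2.H925.Law
import Vale.Agent.P224.R2.H925.Cl6
import Vale.Agent.P224.RIG.Least
import Vale.Agent.P224.UE.LawM
import Vale.Agent.P224.TP.Top
import Vale.Agent.P224.Bdl.B5

/-!
Final assembly in odd dimension: the near law gives the sharp volume bound.
-/

namespace Vale.Agent.P224.R2.H742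

open MeasureTheory Set Filter Function Real Module Vale.Agent.P224 Vale.Agent.P224.FV
  Vale.Agent.P224.R2.H925 Vale.Agent.P224.R2.H582 Vale.Agent.P224.R2.H728
open Vale.Agent.P224.SM2
open scoped RealInnerProductSpace Topology ContDiff Manifold ENNReal

set_option linter.unusedSectionVars false

/-- the linear functional at level zero -/
noncomputable def JK (m : ℕ) (d : ℝ) (k : R4) : ℝ :=
  (m + 3 - d ^ 2) * (k.2.2.2 * ((k.2.1 + k.2.2.1) / 2)) - k.1 * ((k.2.1 + k.2.2.1) / 2)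
      - 2 * d * (m + 2) * ((k.2.1 ^ 2 + k.2.2.1 ^ 2) / 2)

lemma continuous_JK (m : ℕ) (d : ℝ) : Continuous (JK m d) := by
  unfold JK
  fun_prop

section

variable {X : Type*} [MeasurableSpace X] {E : Type*} [NormedAddCommGroup E]
  [InnerProductSpace ℝ E] [CompleteSpace E] [MeasurableSpace E] [BorelSpace E]
  [SecondCountableTopology E] {μ : Measure X} [IsFiniteMeasure μ] {m : ℕ} {p n : X → E}

/-- the value of the functional at level zero -/
lemma int_f0K (h : PL (μ.prod μ) m (SM2.pr p n)) (hn : Integrable n μ) (d ε0 r0 c0 : ℝ) :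
    ∫ q, f0K m d ε0 r0 c0 (SM2.pr p n q) ∂(μ.prod μ)
      = c0 * μ.real univ ^ 2 + m * r0 * ‖∫ x, n x ∂μ‖ ^ 2
        + 2 * d * ε0 / (m + 1) * E2 μ p n (JK m d) := by
  have i1 : Integrable (fun q : X × X => c0 + m * r0 * ⟪n q.1, n q.2⟫) (μ.prod μ) := by
    refine (integrable_const c0).add ((int_Ek h (f := fun k => k.2.2.2) (by fun_prop)
      (by fun_prop)).const_mul _)
  have i0 : Integrable (fun q : X × X => m * r0 * ⟪n q.1, n q.2⟫) (μ.prod μ) :=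
    (int_Ek h (f := fun k => k.2.2.2) (by fun_prop) (by fun_prop)).const_mul _
  have i2 : Integrable (fun q : X × X => 2 * d * ε0 / (m + 1) * JK m d (SM2.pr p n q))
      (μ.prod μ) := (int_Ek h (continuous_JK m d).measurable
        (continuous_JK m d).continuousOn).const_mul _
  have e : ∀ q, f0K m d ε0 r0 c0 (SM2.pr p n q)
      = (c0 + m * r0 * ⟪n q.1, n q.2⟫) + 2 * d * ε0 / (m + 1) * JK m d (SM2.pr p n q) := by
    intro q
    unfold f0K JK SM2.pr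
    ring
  simp_rw [e]
  rw [integral_add i1 i2, integral_add (integrable_const c0) i0, integral_const_mul,
    integral_const_mul, integral_const, smul_eq_mul]
  have e3 : ∫ q : X × X, ⟪n q.1, n q.2⟫ ∂(μ.prod μ) = ‖∫ x, n x ∂μ‖ ^ 2 := by
    have h1 : Integrable (fun q : X × X => ⟪n q.1, n q.2⟫) (μ.prod μ) :=
      int_Ek h (f := fun k => k.2.2.2) (by fun_prop) (by fun_prop)
    rw [integral_prod _ h1]
    have h2 : ∀ x, ∫ y, ⟪n x, n y⟫ ∂μ = ⟪n x, ∫ y, n y ∂μ⟫ := fun x => integral_inner hn (n x)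
    simp only [h2]
    have h3 : ∀ x, ⟪n x, ∫ y, n y ∂μ⟫ = ⟪∫ y, n y ∂μ, n x⟫ := fun x => real_inner_comm _ _
    simp only [h3]
    rw [integral_inner hn, real_inner_self_eq_norm_sq]
  rw [e3]
  have e4 : (μ.prod μ).real univ = μ.real univ ^ 2 := by
    rw [measureReal_def, ← univ_prod_univ, Measure.prod_prod, ENNReal.toReal_mul, sq]
    rfl
  rw [e4]
  unfold E2
  ring

end

section

variable {X : Type*} [MeasurableSpace X] {E : Type*} [NormedAddCommGroup E]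
  [InnerProductSpace ℝ E] {μ : Measure X} [IsFiniteMeasure μ] [NeZero μ] {p n : X → E}
  {ι : Type*} [Fintype ι] [DecidableEq ι] (b : OrthonormalBasis ι ℝ E)

/-- the spectral inequality in terms of the two point means -/
theorem spectral_E2 {m : ℕ} (h : T0Data (nrm μ) (m : ℝ) (co b p) (co b n)) (hm : 3 ≤ m)
    (ho : Odd (Fintype.card ι)) {d r : ℝ} (hr : 0 < r) (hr2 : r ^ 2 = (m : ℝ) ^ 2 - 1)
    (hd : d = 2 / r) {W1 W2 : ℝ} (hW1 : ((m : ℝ) + 1) * (2 * m - 1) ≤ r * W1) (hW2 : 7 ≤ r * W2) :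
    ∃ n' : X → E, (n' = n ∨ n' = fun x => -n x) ∧
      Jkl m r * μ.real univ ^ 2 - E2 μ p n' (JK m d)
        ≤ W1 * E2 μ p n' (Qk d) + W2 * ((m + 1) / 2 * E2 μ p n' Xk) := by
  obtain ⟨σ, hσ, hs⟩ := odd_spectral h (by exact_mod_cast hm) ho hr hr2
  have hs' := hs W1 W2 hW1 hW2
  have hd2 : d ^ 2 = 4 / ((m : ℝ) ^ 2 - 1) := by
    rw [hd, div_pow, hr2]
    norm_num
  have hA : 0 ≤ μ.real univ ^ 2 := sq_nonneg _
  refine ⟨fun x => σ • n x, ?_, ?_⟩
  · rcases hσ with h1 | h1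
    · left
      rw [h1]
      simp
    · right
      rw [h1]
      simp
  have hσ2 : σ ^ 2 = 1 := by rcases hσ with h1 | h1 <;> rw [h1] <;> norm_num
  have e1 : E2 μ p (fun x => σ • n x) (JK m d) = μ.real univ ^ 2 *
      ∫ q, (((m : ℝ) + 3 - 4 / ((m : ℝ) ^ 2 - 1)) * (ip (co b n) (co b n) q.1 q.2
            * (σ * (ip (co b p) (co b n) q.1 q.2 + ip (co b n) (co b p) q.1 q.2)) / 2)
          - ip (co b p) (co b p) q.1 q.2
            * (σ * (ip (co b p) (co b n) q.1 q.2 + ip (co b n) (co b p) q.1 q.2)) / 2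
          - 4 * (m + 2) / r * ((ip (co b p) (co b n) q.1 q.2 ^ 2
            + ip (co b n) (co b p) q.1 q.2 ^ 2) / 2)) ∂((nrm μ).prod (nrm μ)) := by
    rw [E2_nrm]
    congr 1
    refine integral_congr_ae (Eventually.of_forall fun q => ?_)
    simp only [ip_co]
    unfold JK SM2.pr
    simp only [real_inner_smul_left, real_inner_smul_right]
    rw [hd2, hd]
    linear_combination (((m : ℝ) + 3 - 4 / ((m : ℝ) ^ 2 - 1)) * (⟪n q.1, n q.2⟫
      * (σ * (⟪p q.1, n q.2⟫ + ⟪n q.1, p q.2⟫)) / 2)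
      - 4 * (m + 2) / r * ((⟪p q.1, n q.2⟫ ^ 2 + ⟪n q.1, p q.2⟫ ^ 2) / 2)) * hσ2
  have e2 : E2 μ p (fun x => σ • n x) (Qk d) = μ.real univ ^ 2 *
      ∫ q, (ip (co b n) (co b n) q.1 q.2 - ip (co b p) (co b p) q.1 q.2
            - σ / r * (ip (co b p) (co b n) q.1 q.2 + ip (co b n) (co b p) q.1 q.2)) ^ 2
        ∂((nrm μ).prod (nrm μ)) := by
    rw [E2_nrm]
    congr 1
    refine integral_congr_ae (Eventually.of_forall fun q => ?_)
    simp only [ip_co]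
    unfold Qk SM2.pr
    simp only [real_inner_smul_left, real_inner_smul_right]
    have e5 : σ * (σ * ⟪n q.1, n q.2⟫) = ⟪n q.1, n q.2⟫ := by
      linear_combination ⟪n q.1, n q.2⟫ * hσ2
    rw [e5, hd]
    ring
  have e3 : E2 μ p (fun x => σ • n x) Xk = μ.real univ ^ 2 *
      ∫ q, (ip (co b n) (co b p) q.1 q.2 - ip (co b p) (co b n) q.1 q.2) ^ 2
        ∂((nrm μ).prod (nrm μ)) := by
    rw [E2_nrm]
    congr 1
    refine integral_congr_ae (Eventually.of_forall fun q => ?_)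
    simp only [ip_co]
    unfold Xk SM2.pr
    simp only [real_inner_smul_left, real_inner_smul_right]
    linear_combination (⟪n q.1, p q.2⟫ - ⟪p q.1, n q.2⟫) ^ 2 * hσ2
  rw [e1, e2, e3]
  have h9 := mul_le_mul_of_nonneg_left hs' hA
  refine le_trans (le_of_eq ?_) (h9.trans (le_of_eq ?_)) <;> ring

end

/-- the value of the functional at the Clifford product of the flow -/
lemma F0C_eq {h : ℕ} (hh : 1 ≤ h) {r : ℝ} (hr : 0 < r)
    (hr2 : r ^ 2 = ((2 * h + 1 : ℕ) : ℝ) ^ 2 - 1) (ε0 c0 : ℝ) :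
    F0C (2 * h + 1) (2 / r) ε0 c0
      ((√((h + 1 : ℕ) * (h : ℕ)) / (2 * h + 1 : ℕ)) * (((h + 1 : ℕ) : ℝ) / (2 * h + 1 : ℕ))
          / ((h : ℕ) + 1)
        - (√((h + 1 : ℕ) * (h : ℕ)) / (2 * h + 1 : ℕ)) * (((h : ℕ) : ℝ) / (2 * h + 1 : ℕ))
          / ((h + 1 : ℕ) + 1))
      ((((h : ℕ) : ℝ) / (2 * h + 1 : ℕ)) ^ 2 / ((h + 1 : ℕ) + 1)
        + (((h + 1 : ℕ) : ℝ) / (2 * h + 1 : ℕ)) ^ 2 / ((h : ℕ) + 1))
      = c0 + 2 * (2 / r) * ε0 / ((2 * h + 1 : ℕ) + 1) * Jkl (2 * h + 1 : ℕ) r := by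
  have hhR : (1 : ℝ) ≤ h := by exact_mod_cast hh
  have hs : √(((h + 1 : ℕ) : ℝ) * (h : ℕ)) = r / 2 := by
    rw [show ((h + 1 : ℕ) : ℝ) * (h : ℕ) = (r / 2) ^ 2 by
      rw [div_pow, hr2]; push_cast; ring]
    exact Real.sqrt_sq (by positivity)
  rw [hs]
  unfold F0C Jkl al be
  have e1 : (2 / r) ^ 2 = 4 / (((2 * h + 1 : ℕ) : ℝ) ^ 2 - 1) := by
    rw [div_pow, hr2]
    norm_num
  rw [e1]
  have h1 : ((2 * h + 1 : ℕ) : ℝ) ^ 2 - 1 ≠ 0 := by rw [← hr2]; positivity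
  have h2 : ((2 * h + 1 : ℕ) : ℝ) ^ 2 - 1 = 4 * h * (h + 1) := by push_cast; ring
  rw [h2]
  push_cast
  have h3 : (h : ℝ) ≠ 0 := by positivity
  have h4 : (h : ℝ) + 1 ≠ 0 := by positivity
  have h5 : 2 * (h : ℝ) + 1 ≠ 0 := by positivity
  have h6 : 2 * (h : ℝ) + 1 + 3 ≠ 0 := by positivity
  have h7 : (h : ℝ) + 1 + 1 ≠ 0 := by positivity
  have h8 : 2 * (h : ℝ) + 1 + 1 ≠ 0 := by positivity
  field_simp
  ring

end Vale.Agent.P224.R2.H742
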