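import Vale.Agent.P224.R2.H742.LineO
import Vale.Agent.P224.R2.H742.LawO2

/-!
The line below the weight of the first square, uniformly in the dimension: the step function.
-/

namespace Vale.Agent.P224.R2.H742

open MeasureTheory Set Real Vale.Agent.P224.SM2 Vale.Agent.P224.R2.H925

/-- step at `y / m` -/
noncomputable def stp (m : ℕ) (y T : ℝ) : ℝ := if T ≤ y / m then 1 else 0

/-- the relative loss of the line -/
noncomputable def muO (m : ℕ) (T : ℝ) : ℝ :=
  146 / 10000 + 104 / 10000 * stp m 3 T + 247 / 10000 * stp m 2 T + 578 / 10000 * stp m (7 / 5) T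
    + 1256 / 10000 * stp m 1 T + 2507 / 10000 * stp m (3 / 4) T + 882 / 10000 * stp m (3 / 5) T

/-- one cell -/
lemma cell_line {m : ℕ} (hm : 17 ≤ m) {T x1 κ R D μ y1 : ℝ} (hT : T ∈ Ioo (0 : ℝ) 1)
    (hx : 0 ≤ x1) (hR : 0 ≤ R) (hκ : 2 * κ ≤ R * x1) (hy : T * 17 ≤ y1) (hy1 : y1 < 17)
    (hD : 0 < D) (hD1 : D ≤ 1) (h0 : R * (10 / 9) * 17 ≤ (1 - D) * (17 - y1))
    (h1 : R ^ 2 * (19 / 36) ≤ μ * D)
    (h2 : R ^ 2 * (361 / 648) ≤ μ) :
    ∀ s ∈ Icc (-1 : ℝ) 1, (1 - μ) * x1 + (m + 1) * T * x1 * s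
      ≤ x1 * ker T (m + 1) s - 2 * κ * |ker T (m + 2) s - 1| := by
  have hmR : (17 : ℝ) ≤ m := by exact_mod_cast hm
  have hT1 : 0 < 1 - T := by linarith [hT.2]
  have hn : ((m + 1 : ℕ) : ℝ) = m + 1 := by push_cast; ring
  have e1 : (1 : ℝ) + 2 / ((m + 1 : ℕ) : ℝ) ≤ 10 / 9 := by
    rw [hn]
    have : (2 : ℝ) / (m + 1) ≤ 1 / 9 := by
      rw [div_le_div_iff₀ (by positivity) (by norm_num)]
      linarith
    linarith
  have e2 : R * (1 + 2 / ((m + 1 : ℕ) : ℝ)) / (1 - T) ≤ 1 - D := by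
    rw [div_le_iff₀ hT1]
    have k1 : R * (1 + 2 / ((m + 1 : ℕ) : ℝ)) ≤ R * (10 / 9) := mul_le_mul_of_nonneg_left e1 hR
    have k2 : (1 - D) * (17 - y1) ≤ (1 - D) * (17 - T * 17) :=
      mul_le_mul_of_nonneg_left (by linarith) (by linarith)
    nlinarith
  have e3 : R ^ 2 * (((m + 1 : ℕ) : ℝ) + 1) / (2 * ((m + 1 : ℕ) : ℝ) * D) ≤ μ := by
    rw [div_le_iff₀ (by rw [hn]; positivity), hn]
    have k1 : ((m : ℝ) + 1 + 1) ≤ 19 / 36 * (2 * (m + 1)) := by linarith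
    have k2 := mul_le_mul_of_nonneg_left k1 (sq_nonneg R)
    have k3 := mul_le_mul_of_nonneg_right h1 (show (0 : ℝ) ≤ 2 * (m + 1) by positivity)
    linarith
  have e4 : R ^ 2 * (1 + 1 / ((m + 1 : ℕ) : ℝ)) ^ 2 / 2 ≤ μ := by
    refine le_trans ?_ h2
    have k1 : (1 : ℝ) + 1 / ((m + 1 : ℕ) : ℝ) ≤ 19 / 18 := by
      rw [hn]
      have : (1 : ℝ) / (m + 1) ≤ 1 / 18 := by
        rw [div_le_div_iff₀ (by positivity) (by norm_num)]
        linarith
      linarith
    have k2 : (1 + 1 / ((m + 1 : ℕ) : ℝ)) ^ 2 ≤ (19 / 18) ^ 2 :=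
      pow_le_pow_left₀ (by positivity) k1 2
    have k3 := mul_le_mul_of_nonneg_left k2 (sq_nonneg R)
    linarith
  have key := line_ge (n := m + 1) (by omega) hT hx hR hκ hD (by linarith) e3 e4
  intro s hs
  have h := key s hs
  rw [hn] at h
  exact h

/-- the first cell -/
lemma first_cell {m : ℕ} (hm : 17 ≤ m) {T x1 κ r : ℝ} (hT : T ∈ Ioo (0 : ℝ) 1)
    (hx : 0 ≤ x1) (hr : 0 ≤ r) (hκ : 2 * κ ≤ r * x1) (hy : T * m ≤ 3 / 5)
    (hr1 : r * (3 * (m * T)) ≤ 10018 / 10000 * (1 + 9 * T ^ 2)) :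
    ∀ s ∈ Icc (-1 : ℝ) 1, (1 - 5720 / 10000) * x1 + (m + 1) * T * x1 * s
      ≤ x1 * ker T (m + 1) s - 2 * κ * |ker T (m + 2) s - 1| := by
  have hmR : (17 : ℝ) ≤ m := by exact_mod_cast hm
  have hT0 := hT.1
  have hT1 : 0 < 1 - T := by linarith [hT.2]
  have hT17 : T * 17 ≤ 3 / 5 := le_trans (mul_le_mul_of_nonneg_left hmR hT0.le) hy
  set X : ℝ := (m + 2) * (T / (1 - T)) with hX
  have hX0 : 0 ≤ X := by positivity
  have hX1 : X ≤ 190 / 164 * (m * T) := by
    rw [hX, mul_div_assoc', div_le_iff₀ hT1]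
    nlinarith
  have hX2 : X ≤ 70 / 100 := by linarith
  have h1 : ((1 - T) ^ (m + 2))⁻¹ ≤ Real.exp X := by
    have h2 : (1 - T)⁻¹ ≤ Real.exp (T / (1 - T)) := by
      have h3 := Real.add_one_le_exp (T / (1 - T))
      have e : T / (1 - T) + 1 = (1 - T)⁻¹ := by
        field_simp
        ring
      rwa [e] at h3
    have h4 := pow_le_pow_left₀ (by positivity) h2 (m + 2)
    rw [inv_pow, ← Real.exp_nat_mul] at h4
    push_cast at h4
    rw [hX]
    exact h4
  have h5 : Real.exp X ≤ 1 + X + X ^ 2 / 2 + 2 / 9 * X ^ 3 := by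
    have h6 := Real.exp_bound' hX0 (by linarith) (n := 3) (by norm_num)
    simp only [Finset.sum_range_succ, Finset.range_zero, Finset.sum_empty, Nat.factorial] at h6
    push_cast at h6
    linarith
  have h7 : ((1 - T) ^ (m + 2))⁻¹ - 1 ≤ 14589 / 10000 * X := by
    have h8 : X ^ 2 / 2 + 2 / 9 * X ^ 3 ≤ 4589 / 10000 * X := by nlinarith
    linarith
  have hμ : r * (((1 - T) ^ (m + 1 + 1))⁻¹ - 1) ≤ 5720 / 10000 := by
    have k1 : r * (((1 - T) ^ (m + 1 + 1))⁻¹ - 1) ≤ r * (14589 / 10000 * X) :=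
      mul_le_mul_of_nonneg_left h7 hr
    have k2 : r * (14589 / 10000 * X) ≤ r * (14589 / 10000 * (190 / 164 * (m * T))) :=
      mul_le_mul_of_nonneg_left (by linarith) hr
    have k3 : T ^ 2 ≤ 9 / 7225 := by nlinarith
    nlinarith
  have key := line_small (n := m + 1) hT hx hr hκ hμ
  intro s hs
  have h := key s hs
  push_cast at h
  exact h

/-- bound of the ratio in a cell -/
lemma cell_r {r T y y0 y1 R : ℝ} (h289 : 289 * T ^ 2 ≤ y ^ 2)
    (hr2 : r * (3 * y) ≤ 10018 / 10000 * (1 + 9 * T ^ 2)) (h0 : 0 < y0) (h1 : y0 ≤ y)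
    (h2 : y ≤ y1)
    (h3 : 10018 / 10000 * (289 - 9 * (y0 * y1) + 9 * (y0 + y1) * y0) ≤ 289 * 3 * R * y0)
    (h4 : 10018 / 10000 * (9 * (y0 + y1)) ≤ 289 * 3 * R) : r ≤ R := by
  have hy : 0 < y := by linarith
  have k1 : 289 * (r * (3 * y)) ≤ 10018 / 10000 * (289 + 9 * y ^ 2) := by
    have : 289 * (1 + 9 * T ^ 2) ≤ 289 + 9 * y ^ 2 := by linarith
    linarith
  have k2 : y ^ 2 ≤ (y0 + y1) * y - y0 * y1 := by
    nlinarith [mul_nonneg (sub_nonneg.2 h1) (sub_nonneg.2 h2)]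
  have k3 : 289 * (r * (3 * y)) ≤ 289 * (R * (3 * y)) := by
    have k4 : 0 ≤ (289 * 3 * R - 10018 / 10000 * (9 * (y0 + y1))) * (y - y0) :=
      mul_nonneg (by linarith) (by linarith)
    nlinarith
  have k5 : r * (289 * (3 * y)) ≤ R * (289 * (3 * y)) := by linarith
  exact le_of_mul_le_mul_right k5 (by positivity)

/-- bounds of the ratio in the last cell -/
lemma last_r {r φ T y : ℝ} (hT : T ∈ Ioo (0 : ℝ) 1) (hr0 : 0 ≤ r)
    (hφ : φ = (1 + 11 * T ^ 2) / (1 + T ^ 2) * (1 - T ^ 2)) (hyT : 17 * T ≤ y)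
    (h289 : 289 * T ^ 2 ≤ y ^ 2)
    (hr1 : r * (3 * y) ≤ 10018 / 10000 * φ)
    (hr2 : r * (3 * y) ≤ 10018 / 10000 * (1 + 9 * T ^ 2)) (c5 : 3 < y) :
    r ≤ 1426 / 10000 ∧ r * (10 / 9) ≤ (1 - 738 / 1000) * (1 - T) := by
  have hT1 : 0 < 1 - T := by linarith [hT.2]
  have hT0 := hT.1
  constructor
  · rcases le_or_gt y (11 / 2) with c6 | c6
    · exact cell_r h289 hr2 (by norm_num) c5.le c6 (by norm_num) (by norm_num)
    · have k1 : φ ≤ 234 / 100 := by
        rw [hφ, div_mul_eq_mul_div, div_le_iff₀ (by positivity)]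
        nlinarith [sq_nonneg (T ^ 2 - 766 / 2200)]
      have k2 : r * (3 * y) ≤ 10018 / 10000 * (234 / 100) :=
        hr1.trans (mul_le_mul_of_nonneg_left k1 (by norm_num))
      by_contra hc
      push Not at hc
      have k3 : 1426 / 10000 * (3 * (11 / 2)) ≤ r * (3 * y) :=
        mul_le_mul hc.le (by linarith) (by norm_num) hr0
      linarith
  · have k1 : φ = (1 + 11 * T ^ 2) * (1 + T) / (1 + T ^ 2) * (1 - T) := by
      rw [hφ]
      field_simp
      ring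
    set g : ℝ := (1 + 11 * T ^ 2) * (1 + T) / (1 + T ^ 2) with hg
    have k2 : r * (3 * y) ≤ 10018 / 10000 * g * (1 - T) := by
      rw [k1] at hr1
      linarith
    have k3 : 10018 / 10000 * g * (10 / 9) ≤ (1 - 738 / 1000) * (3 * y) := by
      rcases le_or_gt T (102 / 1000) with c7 | c7
      · have k4 : g ≤ 13 / 10 := by
          rw [hg, div_le_iff₀ (by positivity)]
          have k5 : T ^ 2 ≤ 102 / 1000 * T := by nlinarith
          have k6 : T ^ 3 ≤ 102 / 1000 * T ^ 2 := by nlinarith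
          nlinarith
        linarith
      · have k4 : g ≤ 12 * T := by
          rw [hg, div_le_iff₀ (by positivity)]
          have k5 : 1 - 10 * T + T ^ 2 ≤ 0 := by nlinarith [hT.2]
          have k6 := mul_nonneg hT1.le (neg_nonneg.2 k5)
          have e : 12 * T * (1 + T ^ 2) - (1 + 11 * T ^ 2) * (1 + T)
              = (1 - T) * -(1 - 10 * T + T ^ 2) := by ring
          linarith
        linarith
    have hy : 0 < y := by linarith
    have k6 : r * (10 / 9) * (3 * y) ≤ (1 - 738 / 1000) * (1 - T) * (3 * y) := by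
      have k7 := mul_le_mul_of_nonneg_right k3 hT1.le
      linarith
    exact le_of_mul_le_mul_right k6 (by positivity)

/-- the last cell -/
lemma last_line {m : ℕ} (hm : 17 ≤ m) {T x1 κ r : ℝ} (hT : T ∈ Ioo (0 : ℝ) 1)
    (hx : 0 ≤ x1) (hr0 : 0 ≤ r) (hκ : 2 * κ ≤ r * x1) (hR : r ≤ 1426 / 10000)
    (hrD : r * (10 / 9) ≤ (1 - 738 / 1000) * (1 - T)) :
    ∀ s ∈ Icc (-1 : ℝ) 1, (1 - 146 / 10000) * x1 + (m + 1) * T * x1 * s
      ≤ x1 * ker T (m + 1) s - 2 * κ * |ker T (m + 2) s - 1| := by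
  have hmR : (17 : ℝ) ≤ m := by exact_mod_cast hm
  have hT1 : 0 < 1 - T := by linarith [hT.2]
  have hn : ((m + 1 : ℕ) : ℝ) = m + 1 := by push_cast; ring
  have e1 : (1 : ℝ) + 2 / ((m + 1 : ℕ) : ℝ) ≤ 10 / 9 := by
    rw [hn]
    have : (2 : ℝ) / (m + 1) ≤ 1 / 9 := by
      rw [div_le_div_iff₀ (by positivity) (by norm_num)]
      linarith
    linarith
  have e2 : (738 / 1000 : ℝ) ≤ 1 - r * (1 + 2 / ((m + 1 : ℕ) : ℝ)) / (1 - T) := by
    have k1 : r * (1 + 2 / ((m + 1 : ℕ) : ℝ)) ≤ (1 - 738 / 1000) * (1 - T) :=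
      (mul_le_mul_of_nonneg_left e1 hr0).trans hrD
    have k2 : r * (1 + 2 / ((m + 1 : ℕ) : ℝ)) / (1 - T) ≤ 1 - 738 / 1000 := by
      rwa [div_le_iff₀ hT1]
    linarith
  have hr2' : r ^ 2 ≤ (1426 / 10000) ^ 2 := pow_le_pow_left₀ hr0 hR 2
  have e3 : r ^ 2 * (((m + 1 : ℕ) : ℝ) + 1) / (2 * ((m + 1 : ℕ) : ℝ) * (738 / 1000))
      ≤ 146 / 10000 := by
    rw [div_le_iff₀ (by rw [hn]; positivity), hn]
    have k1 : ((m : ℝ) + 1 + 1) ≤ 19 / 36 * (2 * (m + 1)) := by linarith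
    have k2 : r ^ 2 * ((m : ℝ) + 1 + 1) ≤ (1426 / 10000) ^ 2 * (19 / 36 * (2 * (m + 1))) :=
      mul_le_mul hr2' k1 (by positivity) (by norm_num)
    have k3 : (1426 / 10000 : ℝ) ^ 2 * (19 / 36 * (2 * (m + 1)))
        ≤ 146 / 10000 * (2 * (m + 1) * (738 / 1000)) := by
      have : (1426 / 10000 : ℝ) ^ 2 * (19 / 36) ≤ 146 / 10000 * (738 / 1000) := by norm_num
      have := mul_le_mul_of_nonneg_right this (show (0 : ℝ) ≤ 2 * (m + 1) by positivity)
      linarith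
    linarith
  have e4 : r ^ 2 * (1 + 1 / ((m + 1 : ℕ) : ℝ)) ^ 2 / 2 ≤ 146 / 10000 := by
    have k1 : (1 : ℝ) + 1 / ((m + 1 : ℕ) : ℝ) ≤ 19 / 18 := by
      rw [hn]
      have : (1 : ℝ) / (m + 1) ≤ 1 / 18 := by
        rw [div_le_div_iff₀ (by positivity) (by norm_num)]
        linarith
      linarith
    have k2 : (1 + 1 / ((m + 1 : ℕ) : ℝ)) ^ 2 ≤ (19 / 18) ^ 2 :=
      pow_le_pow_left₀ (by positivity) k1 2
    have k3 : r ^ 2 * (1 + 1 / ((m + 1 : ℕ) : ℝ)) ^ 2 ≤ (1426 / 10000) ^ 2 * (19 / 18) ^ 2 :=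
      mul_le_mul hr2' k2 (by positivity) (by norm_num)
    have k4 : (1426 / 10000 : ℝ) ^ 2 * (19 / 18) ^ 2 / 2 ≤ 146 / 10000 := by norm_num
    linarith
  have key := line_ge (n := m + 1) (by omega) hT hx hr0 hκ (by norm_num) e2 e3 e4
  intro s hs
  have h := key s hs
  rw [hn] at h
  exact h

/-- the line for every level -/
theorem q_line {m : ℕ} (hm : 17 ≤ m) {d : ℝ} (hd : 0 ≤ d) (hdm : d * m ≤ 2 * (10018 / 10000))
    {T x1 ε : ℝ} (hT : T ∈ Ioo (0 : ℝ) 1) (hx : 0 ≤ x1)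
    (hε : T * ε ≤ 1 / 12 * ((1 + 11 * T ^ 2) / (1 + T ^ 2)) * (1 - T ^ 2) * x1) :
    ∀ s ∈ Icc (-1 : ℝ) 1, (1 - muO m T) * x1 + (m + 1) * T * x1 * s
      ≤ x1 * ker T (m + 1) s - 2 * (d * ε) * |ker T (m + 2) s - 1| := by
  have hmR : (17 : ℝ) ≤ m := by exact_mod_cast hm
  have hm0 : (0 : ℝ) < m := by linarith
  have hT0 := hT.1
  have hT1 : 0 < 1 - T := by linarith [hT.2]
  have hk : 0 < 1 - T ^ 2 := by nlinarith [hT.2]
  set φ : ℝ := (1 + 11 * T ^ 2) / (1 + T ^ 2) * (1 - T ^ 2) with hφ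
  have hφ0 : 0 ≤ φ := by positivity
  set r : ℝ := d * φ / (6 * T) with hr
  have hr0 : 0 ≤ r := by positivity
  have hκ : 2 * (d * ε) ≤ r * x1 := by
    have h1 : T * (2 * (d * ε)) ≤ T * (r * x1) := by
      have e1 : T * (r * x1) = 2 * d * (1 / 12 * φ * x1) := by
        rw [hr]
        field_simp
        ring
      have e2 : T * (2 * (d * ε)) = 2 * d * (T * ε) := by ring
      rw [e1, e2]
      refine mul_le_mul_of_nonneg_left ?_ (by positivity)
      rw [hφ]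
      linarith
    exact le_of_mul_le_mul_left h1 hT0
  have hφ1 : φ ≤ 1 + 9 * T ^ 2 := by
    rw [hφ, div_mul_eq_mul_div, div_le_iff₀ (by positivity)]
    nlinarith [sq_nonneg (T ^ 2)]
  have hrm : r * (3 * (m * T)) = d * m / 2 * φ := by
    rw [hr]
    field_simp
    ring
  have hr1 : r * (3 * (m * T)) ≤ 10018 / 10000 * φ := by
    rw [hrm]
    exact mul_le_mul_of_nonneg_right (by linarith) hφ0
  have hr2 : r * (3 * (m * T)) ≤ 10018 / 10000 * (1 + 9 * T ^ 2) :=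
    hr1.trans (mul_le_mul_of_nonneg_left hφ1 (by norm_num))
  set y : ℝ := m * T with hy
  have hy0 : 0 < y := by positivity
  have hyT : 17 * T ≤ y := mul_le_mul_of_nonneg_right hmR hT0.le
  have hT2 : 289 * T ^ 2 ≤ y ^ 2 := by nlinarith
  have hcell : ∀ y0 y1 R : ℝ, 0 < y0 → y0 ≤ y → y ≤ y1 →
      10018 / 10000 * (289 - 9 * (y0 * y1) + 9 * (y0 + y1) * y0) ≤ 289 * 3 * R * y0 →
      10018 / 10000 * (9 * (y0 + y1)) ≤ 289 * 3 * R → r ≤ R :=
    fun y0 y1 R h0 h1 h2 h3 h4 => cell_r hT2 hr2 h0 h1 h2 h3 h4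
  have hst : ∀ c : ℝ, y ≤ c → stp m c T = 1 := fun c hc => by
    unfold stp
    rw [if_pos]
    rw [le_div_iff₀ hm0]
    linarith
  have hst0 : ∀ c : ℝ, c < y → stp m c T = 0 := fun c hc => by
    unfold stp
    rw [if_neg]
    rw [not_le, div_lt_iff₀ hm0]
    linarith
  have hle : ∀ R : ℝ, r ≤ R → 2 * (d * ε) ≤ R * x1 := fun R h =>
    hκ.trans (mul_le_mul_of_nonneg_right h hx)
  rcases le_or_gt y (3 / 5) with c0 | c0
  · have e : muO m T = 5720 / 10000 := by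
      unfold muO
      rw [hst 3 (by linarith), hst 2 (by linarith), hst (7 / 5) (by linarith),
        hst 1 (by linarith), hst (3 / 4) (by linarith), hst (3 / 5) c0]
      norm_num
    rw [e]
    exact first_cell hm hT hx hr0 hκ (by rw [mul_comm]; exact c0) hr2
  rcases le_or_gt y (3 / 4) with c1 | c1
  · have e : muO m T = 4838 / 10000 := by
      unfold muO
      rw [hst 3 (by linarith), hst 2 (by linarith), hst (7 / 5) (by linarith),
        hst 1 (by linarith), hst (3 / 4) c1, hst0 (3 / 5) c0]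
      norm_num
    rw [e]
    have h := hcell (3 / 5) (3 / 4) (5628 / 10000) (by norm_num) c0.le c1 (by norm_num)
      (by norm_num)
    exact cell_line hm hT hx (by norm_num) (hle _ h) (y1 := 3 / 4) (D := 3458 / 10000)
      (by linarith) (by norm_num) (by norm_num) (by norm_num) (by norm_num) (by norm_num)
      (by norm_num)
  rcases le_or_gt y 1 with c2 | c2
  · have e : muO m T = 2331 / 10000 := by
      unfold muO
      rw [hst 3 (by linarith), hst 2 (by linarith), hst (7 / 5) (by linarith),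
        hst 1 c2, hst0 (3 / 4) c1, hst0 (3 / 5) c0]
      norm_num
    rw [e]
    have h := hcell (3 / 4) 1 (45305 / 100000) (by norm_num) c1.le c2 (by norm_num)
      (by norm_num)
    exact cell_line hm hT hx (by norm_num) (hle _ h) (y1 := 1) (D := 4651 / 10000)
      (by linarith) (by norm_num) (by norm_num) (by norm_num) (by norm_num) (by norm_num)
      (by norm_num)
  rcases le_or_gt y (7 / 5) with c3 | c3
  · have e : muO m T = 1075 / 10000 := by
      unfold muO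
      rw [hst 3 (by linarith), hst 2 (by linarith), hst (7 / 5) c3,
        hst0 1 c2, hst0 (3 / 4) c1, hst0 (3 / 5) c0]
      norm_num
    rw [e]
    have h := hcell 1 (7 / 5) (34434 / 100000) (by norm_num) c2.le c3 (by norm_num)
      (by norm_num)
    exact cell_line hm hT hx (by norm_num) (hle _ h) (y1 := 7 / 5) (D := 5830 / 10000)
      (by linarith) (by norm_num) (by norm_num) (by norm_num) (by norm_num) (by norm_num)
      (by norm_num)
  rcases le_or_gt y 2 with c4 | c4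
  · have e : muO m T = 497 / 10000 := by
      unfold muO
      rw [hst 3 (by linarith), hst 2 c4, hst0 (7 / 5) c3,
        hst0 1 c2, hst0 (3 / 4) c1, hst0 (3 / 5) c0]
      norm_num
    rw [e]
    have h := hcell (7 / 5) 2 (25309 / 100000) (by norm_num) c3.le c4 (by norm_num)
      (by norm_num)
    exact cell_line hm hT hx (by norm_num) (hle _ h) (y1 := 2) (D := 6812 / 10000)
      (by linarith) (by norm_num) (by norm_num) (by norm_num) (by norm_num) (by norm_num)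
      (by norm_num)
  rcases le_or_gt y 3 with c5 | c5
  · have e : muO m T = 250 / 10000 := by
      unfold muO
      rw [hst 3 c5, hst0 2 c4, hst0 (7 / 5) c3,
        hst0 1 c2, hst0 (3 / 4) c1, hst0 (3 / 5) c0]
      norm_num
    rw [e]
    have h := hcell 2 3 (18777 / 100000) (by norm_num) c4.le c5 (by norm_num)
      (by norm_num)
    exact cell_line hm hT hx (by norm_num) (hle _ h) (y1 := 3) (D := 7466 / 10000)
      (by linarith) (by norm_num) (by norm_num) (by norm_num) (by norm_num) (by norm_num)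
      (by norm_num)
  · have e : muO m T = 146 / 10000 := by
      unfold muO
      rw [hst0 3 c5, hst0 2 c4, hst0 (7 / 5) c3,
        hst0 1 c2, hst0 (3 / 4) c1, hst0 (3 / 5) c0]
      norm_num
    rw [e]
    obtain ⟨hR, hrD⟩ := last_r hT hr0 hφ hyT hT2 hr1 hr2 c5
    exact last_line hm hT hx hr0 hκ hR hrD

end Vale.Agent.P224.R2.H742
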