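import Vale.Agent.P224.R2.H742.QLine
import Vale.Agent.P224.R2.H627.Const

/-!
The integrals of the line below the weight of the first square.
-/

namespace Vale.Agent.P224.R2.H742

open MeasureTheory Set Filter Function Real Vale.Agent.P224.SM2 Vale.Agent.P224.R2.H925
  Vale.Agent.P224.R2.H627 Vale.Agent.P224.R2.H820
open scoped Topology

/-- integral of a function cut at `t` -/
lemma int_stp {m : ℕ} {y : ℝ} (hy : 0 ≤ y) (hy1 : y ≤ m) (hm : 0 < (m : ℝ)) {f : ℝ → ℝ}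
    (hf : IntervalIntegrable f volume 0 1) :
    IntervalIntegrable (fun T => stp m y T * f T) volume 0 1
      ∧ ∫ T in (0 : ℝ)..1, stp m y T * f T = ∫ T in (0 : ℝ)..(y / m), f T := by
  have ht : y / m ∈ Icc (0 : ℝ) 1 := ⟨by positivity, by rw [div_le_one hm]; exact hy1⟩
  have e : (fun T => stp m y T * f T) = indicator {x | x ≤ y / m} f := by
    funext T
    unfold stp indicator
    simp only [mem_ofPred_eq]
    split_ifs <;> simp
  have hf0 : IntervalIntegrable f volume 0 (y / m) :=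
    hf.mono_set (by rw [uIcc_of_le ht.1, uIcc_of_le zero_le_one]; exact Icc_subset_Icc_right ht.2)
  rw [e]
  constructor
  · have h1 : IntervalIntegrable (indicator {x | x ≤ y / m} f) volume 0 (y / m) := by
      refine hf0.congr ?_
      rw [uIoc_of_le ht.1]
      intro x hx
      exact (indicator_of_mem (show x ∈ {x | x ≤ y / m} from hx.2) f).symm
    have h2 : IntervalIntegrable (indicator {x | x ≤ y / m} f) volume (y / m) 1 := by
      have h3 : IntervalIntegrable (fun _ : ℝ => (0 : ℝ)) volume (y / m) 1 :=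
        intervalIntegrable_const
      refine h3.congr ?_
      rw [uIoc_of_le ht.2]
      intro x hx
      exact (indicator_of_notMem (show x ∉ {x | x ≤ y / m} from not_le.2 hx.1) f).symm
    exact h1.trans h2
  · exact intervalIntegral.integral_indicator ht

/-- bound of the integral over the beginning of the interval -/
lemma int_begin_le {t C : ℝ} (ht : t ∈ Icc (0 : ℝ) 1) {f : ℝ → ℝ}
    (hf : IntervalIntegrable f volume 0 1) (h : ∀ T ∈ Ioo (0 : ℝ) 1, f T ≤ C * T) :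
    ∫ T in (0 : ℝ)..t, f T ≤ C * (t ^ 2 / 2) := by
  have hf0 : IntervalIntegrable f volume 0 t :=
    hf.mono_set (by rw [uIcc_of_le ht.1, uIcc_of_le zero_le_one]; exact Icc_subset_Icc_right ht.2)
  have h1 : ∫ T in (0 : ℝ)..t, f T ≤ ∫ T in (0 : ℝ)..t, C * T := by
    refine intervalIntegral.integral_mono_on_of_le_Ioo ht.1 hf0 ?_ fun x hx => ?_
    · exact (Continuous.intervalIntegrable (by fun_prop) _ _)
    · exact h x ⟨hx.1, hx.2.trans_le ht.2⟩
  refine h1.trans (le_of_eq ?_)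
  rw [intervalIntegral.integral_const_mul, integral_id]
  ring

/-- the loss of the line -/
theorem int_mu {m : ℕ} (hm : 17 ≤ m) {x1 : ℝ → ℝ} {C : ℝ} (hx : IntervalIntegrable x1 volume 0 1)
    (hC : 0 ≤ C) (hE : ∀ T ∈ Ioo (0 : ℝ) 1, x1 T ≤ C * T) :
    IntervalIntegrable (fun T => (1 - muO m T) * x1 T) volume 0 1
      ∧ 9854 / 10000 * (∫ T in (0 : ℝ)..1, x1 T) - C * (302030 / 1000000) / m ^ 2
        ≤ ∫ T in (0 : ℝ)..1, (1 - muO m T) * x1 T := by
  have hmR : (17 : ℝ) ≤ m := by exact_mod_cast hm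
  have hm0 : (0 : ℝ) < m := by linarith
  have key : ∀ y : ℝ, 0 ≤ y → y ≤ 3 →
      IntervalIntegrable (fun T => stp m y T * x1 T) volume 0 1
      ∧ ∫ T in (0 : ℝ)..1, stp m y T * x1 T ≤ C * (y ^ 2 / 2) / m ^ 2 := by
    intro y h0 h1
    obtain ⟨i, e⟩ := int_stp h0 (by linarith : y ≤ m) hm0 hx
    refine ⟨i, ?_⟩
    rw [e]
    have := int_begin_le (t := y / m) ⟨by positivity, by rw [div_le_one hm0]; linarith⟩ hx hE
    refine this.trans (le_of_eq ?_)
    field_simp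
  obtain ⟨a5, b5⟩ := key 3 (by norm_num) (by norm_num)
  obtain ⟨a4, b4⟩ := key 2 (by norm_num) (by norm_num)
  obtain ⟨a3, b3⟩ := key (7 / 5) (by norm_num) (by norm_num)
  obtain ⟨a2, b2⟩ := key 1 (by norm_num) (by norm_num)
  obtain ⟨a1, b1⟩ := key (3 / 4) (by norm_num) (by norm_num)
  obtain ⟨a0, b0⟩ := key (3 / 5) (by norm_num) (by norm_num)
  have e : (fun T => (1 - muO m T) * x1 T) = fun T => 9854 / 10000 * x1 T
      - (104 / 10000 * (stp m 3 T * x1 T) + 247 / 10000 * (stp m 2 T * x1 T)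
        + 578 / 10000 * (stp m (7 / 5) T * x1 T) + 1256 / 10000 * (stp m 1 T * x1 T)
        + 2507 / 10000 * (stp m (3 / 4) T * x1 T) + 882 / 10000 * (stp m (3 / 5) T * x1 T)) := by
    funext T
    unfold muO
    ring
  have i5 := a5.const_mul (104 / 10000)
  have i4 := a4.const_mul (247 / 10000)
  have i3 := a3.const_mul (578 / 10000)
  have i2 := a2.const_mul (1256 / 10000)
  have i1 := a1.const_mul (2507 / 10000)
  have i0 := a0.const_mul (882 / 10000)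
  have iS := ((((i5.add i4).add i3).add i2).add i1).add i0
  rw [e]
  refine ⟨(hx.const_mul _).sub iS, ?_⟩
  rw [intervalIntegral.integral_sub (hx.const_mul _) iS,
    intervalIntegral.integral_add ((((i5.add i4).add i3).add i2).add i1) i0,
    intervalIntegral.integral_add (((i5.add i4).add i3).add i2) i1,
    intervalIntegral.integral_add ((i5.add i4).add i3) i2,
    intervalIntegral.integral_add (i5.add i4) i3,
    intervalIntegral.integral_add i5 i4]
  simp only [intervalIntegral.integral_const_mul]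
  have e2 : C * (302030 / 1000000) / (m : ℝ) ^ 2
      = 104 / 10000 * (C * (3 ^ 2 / 2) / m ^ 2) + 247 / 10000 * (C * (2 ^ 2 / 2) / m ^ 2)
        + 578 / 10000 * (C * ((7 / 5) ^ 2 / 2) / m ^ 2) + 1256 / 10000 * (C * (1 ^ 2 / 2) / m ^ 2)
        + 2507 / 10000 * (C * ((3 / 4) ^ 2 / 2) / m ^ 2)
        + 882 / 10000 * (C * ((3 / 5) ^ 2 / 2) / m ^ 2) + C * (625 / 1000000000) / m ^ 2 := by
    ring
  have h9 : 0 ≤ C * (625 / 1000000000) / (m : ℝ) ^ 2 := by positivity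
  rw [e2]
  linarith

/-- the bound of `d |ε|` -/
noncomputable def kapO (m : ℕ) (d T : ℝ) : ℝ :=
  d / 10 * √2 * ((1 - T ^ 2) ^ ((m : ℝ) / 2 + 3 - 1) + 10 * (T ^ 2 * (1 - T ^ 2) ^ ((m : ℝ) / 2 + 3 - 1)))

lemma kap_le {m : ℕ} {d : ℝ} (hd : 0 ≤ d) {T x1 ε : ℝ} (hT : T ∈ Ioo (0 : ℝ) 1)
    (hε : T * ε ≤ 1 / 12 * ((1 + 11 * T ^ 2) / (1 + T ^ 2)) * (1 - T ^ 2) * x1)
    (hE : x1 ≤ 6 / 5 * √2 * (T * ((1 - T ^ 2) ^ ((m : ℝ) / 2) * (1 - T ^ 2)))) :
    d * ε ≤ kapO m d T := by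
  have hT0 := hT.1
  have hk : 0 < 1 - T ^ 2 := by nlinarith [hT.1, hT.2]
  set φ : ℝ := (1 + 11 * T ^ 2) / (1 + T ^ 2) with hφ
  have hφ0 : 0 ≤ φ := by positivity
  have hφ1 : φ ≤ 1 + 10 * T ^ 2 := by
    rw [hφ, div_le_iff₀ (by positivity)]
    nlinarith [sq_nonneg (T ^ 2)]
  set p : ℝ := (1 - T ^ 2) ^ ((m : ℝ) / 2) with hp
  have hp0 : 0 < p := by positivity
  have e1 : (1 - T ^ 2) ^ ((m : ℝ) / 2 + 3 - 1) = p * (1 - T ^ 2) ^ 2 := by
    rw [hp, show (m : ℝ) / 2 + 3 - 1 = (m : ℝ) / 2 + (2 : ℕ) by push_cast; ring,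
      rpow_add_natCast hk.ne']
  have h1 : T * ε ≤ T * (1 / 10 * √2 * φ * (p * (1 - T ^ 2) ^ 2)) := by
    refine hε.trans ?_
    have := mul_le_mul_of_nonneg_left hE (show 0 ≤ 1 / 12 * φ * (1 - T ^ 2) by positivity)
    refine this.trans (le_of_eq ?_)
    ring
  have h2 : ε ≤ 1 / 10 * √2 * φ * (p * (1 - T ^ 2) ^ 2) := le_of_mul_le_mul_left h1 hT0
  have h3 : 1 / 10 * √2 * φ * (p * (1 - T ^ 2) ^ 2)
      ≤ 1 / 10 * √2 * (1 + 10 * T ^ 2) * (p * (1 - T ^ 2) ^ 2) := by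
    refine mul_le_mul_of_nonneg_right ?_ (by positivity)
    exact mul_le_mul_of_nonneg_left hφ1 (by positivity)
  unfold kapO
  rw [e1]
  have h4 := mul_le_mul_of_nonneg_left (h2.trans h3) hd
  refine h4.trans (le_of_eq ?_)
  ring

/-- the integral of the bound -/
theorem int_kapO {m : ℕ} (d : ℝ) :
    IntervalIntegrable (kapO m d) volume 0 1
      ∧ ∫ T in (0 : ℝ)..1, kapO m d T = d / 10 * √2 * (BM (m + 6) * (1 + 10 / (m + 7))) := by
  have ha : (1 : ℝ) ≤ (m : ℝ) / 2 + 3 := by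
    have : (0 : ℝ) ≤ m := Nat.cast_nonneg m
    linarith
  have c0 := contOn_KM ha 0
  have c2 := contOn_KM ha 2
  have i0 := intble c0
  have i2 := intble c2
  have e : kapO m d = fun T => d / 10 * √2 * (T ^ 0 * (1 - T ^ 2) ^ ((m : ℝ) / 2 + 3 - 1)
      + 10 * (T ^ 2 * (1 - T ^ 2) ^ ((m : ℝ) / 2 + 3 - 1))) := by
    funext T
    unfold kapO
    simp only [pow_zero, one_mul]
  rw [e]
  refine ⟨(i0.add (i2.const_mul 10)).const_mul _, ?_⟩
  rw [intervalIntegral.integral_const_mul, intervalIntegral.integral_add i0 (i2.const_mul 10),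
    intervalIntegral.integral_const_mul]
  have e0 : ∫ T in (0 : ℝ)..1, T ^ 0 * (1 - T ^ 2) ^ ((m : ℝ) / 2 + 3 - 1) = BM (m + 6) := by
    unfold BM KM
    rw [show (((m + 6 : ℕ) : ℝ)) / 2 = (m : ℝ) / 2 + 3 by push_cast; ring]
  have e2 : ∫ T in (0 : ℝ)..1, T ^ 2 * (1 - T ^ 2) ^ ((m : ℝ) / 2 + 3 - 1)
      = BM (m + 6) / (m + 7) := by
    have h := KM_rec ha 0
    have e3 : KM ((m : ℝ) / 2 + 3) 0 = BM (m + 6) := e0
    rw [e3] at h
    have e4 : KM ((m : ℝ) / 2 + 3) (0 + 2)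
        = ∫ T in (0 : ℝ)..1, T ^ 2 * (1 - T ^ 2) ^ ((m : ℝ) / 2 + 3 - 1) := rfl
    rw [← e4, eq_div_iff (by positivity)]
    push_cast at h
    linarith
  rw [e0, e2]
  ring

/-- the slope -/
theorem int_slope {m : ℕ} {x1 : ℝ → ℝ} (hx : IntervalIntegrable x1 volume 0 1)
    (h0 : ∀ T ∈ Ioo (0 : ℝ) 1, 0 ≤ x1 T)
    (hE : ∀ T ∈ Ioo (0 : ℝ) 1,
      x1 T ≤ 6 / 5 * √2 * (T * ((1 - T ^ 2) ^ ((m : ℝ) / 2) * (1 - T ^ 2)))) :
    IntervalIntegrable (fun T => (m + 1) * T * x1 T) volume 0 1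
      ∧ 0 ≤ ∫ T in (0 : ℝ)..1, (m + 1) * T * x1 T
      ∧ ∫ T in (0 : ℝ)..1, (m + 1) * T * x1 T
        ≤ 6 / 5 * √2 * ((m + 1) / (m + 5) * BM (m + 4)) := by
  have i1 : IntervalIntegrable (fun T => ((m : ℝ) + 1) * T * x1 T) volume 0 1 :=
    hx.continuousOn_mul (by fun_prop)
  refine ⟨i1, ?_, ?_⟩
  · refine intervalIntegral.integral_nonneg_of_ae_restrict zero_le_one ?_
    rw [← restrict_Ioo_eq_restrict_Icc]
    filter_upwards [ae_restrict_mem measurableSet_Ioo] with T hT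
    have := h0 T hT
    have := hT.1
    simp only [Pi.zero_apply]
    positivity
  · have ha : (1 : ℝ) ≤ (m : ℝ) / 2 + 2 := by
      have : (0 : ℝ) ≤ m := Nat.cast_nonneg m
      linarith
    have c2 := contOn_KM ha 2
    have i2 := (intble c2).const_mul (6 / 5 * √2 * (m + 1))
    have h1 : ∫ T in (0 : ℝ)..1, (m + 1) * T * x1 T
        ≤ ∫ T in (0 : ℝ)..1, 6 / 5 * √2 * (m + 1)
          * (T ^ 2 * (1 - T ^ 2) ^ ((m : ℝ) / 2 + 2 - 1)) := by
      refine intervalIntegral.integral_mono_on_of_le_Ioo zero_le_one i1 i2 fun T hT => ?_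
      have hk : 0 < 1 - T ^ 2 := by nlinarith [hT.1, hT.2]
      have h2 := hE T hT
      have hT0 := hT.1
      have e1 : (1 - T ^ 2) ^ ((m : ℝ) / 2 + 2 - 1) = (1 - T ^ 2) ^ ((m : ℝ) / 2) * (1 - T ^ 2) := by
        rw [show (m : ℝ) / 2 + 2 - 1 = (m : ℝ) / 2 + 1 by ring, rpow_add_one hk.ne']
      rw [e1]
      have h3 := mul_le_mul_of_nonneg_left h2 (show 0 ≤ ((m : ℝ) + 1) * T by positivity)
      refine h3.trans (le_of_eq ?_)
      ring
    refine h1.trans (le_of_eq ?_)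
    rw [intervalIntegral.integral_const_mul]
    have h := KM_rec ha 0
    have e3 : KM ((m : ℝ) / 2 + 2) 0 = BM (m + 4) := by
      unfold BM
      rw [show (((m + 4 : ℕ) : ℝ)) / 2 = (m : ℝ) / 2 + 2 by push_cast; ring]
    rw [e3] at h
    have e4 : KM ((m : ℝ) / 2 + 2) (0 + 2)
        = ∫ T in (0 : ℝ)..1, T ^ 2 * (1 - T ^ 2) ^ ((m : ℝ) / 2 + 2 - 1) := rfl
    have e5 : KM ((m : ℝ) / 2 + 2) (0 + 2) = BM (m + 4) / (m + 5) := by
      rw [eq_div_iff (by positivity)]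
      push_cast at h
      linarith
    rw [← e4, e5]
    ring

end Vale.Agent.P224.R2.H742
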