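import Vale.Agent.P224.R2.H728.T0c

/-!
Third order two point means at level zero.
-/

namespace Vale.Agent.P224.R2.H742

open MeasureTheory Set Filter Function Real Finset Vale.Agent.P224.R2.H728

set_option linter.unusedSectionVars false

section

variable {ι Ω : Type*} [Fintype ι] [DecidableEq ι] [MeasurableSpace Ω] {μ : Measure Ω}
  {m : ℝ} {x N : ι → Ω → ℝ}

/-- contraction of two tensors -/
def tc (A B : ι → ι → ι → ℝ) : ℝ := ∑ a, ∑ b, ∑ c, A a b c * B a b c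

/-- the monomials of degree three -/
noncomputable def mon (x N : ι → Ω → ℝ) (q : Ω × Ω) : Fin 20 → ℝ :=
  ![ip N N q.1 q.2 * ip N N q.1 q.2 * ip x x q.1 q.2,
    ip N N q.1 q.2 * ip x x q.1 q.2 * ip x x q.1 q.2,
    ip x x q.1 q.2 * ip x x q.1 q.2 * ip x x q.1 q.2,
    ip N N q.1 q.2 * ip x N q.1 q.2 * ip x x q.1 q.2,
    ip N N q.1 q.2 * ip N x q.1 q.2 * ip x x q.1 q.2,
    ip x N q.1 q.2 * ip x x q.1 q.2 * ip x x q.1 q.2,
    ip N x q.1 q.2 * ip x x q.1 q.2 * ip x x q.1 q.2,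
    ip x N q.1 q.2 * ip x N q.1 q.2 * ip x x q.1 q.2,
    ip N x q.1 q.2 * ip N x q.1 q.2 * ip x x q.1 q.2,
    ip N x q.1 q.2 * ip x N q.1 q.2 * ip x x q.1 q.2,
    ip N N q.1 q.2 * ip N N q.1 q.2 * ip x N q.1 q.2,
    ip N N q.1 q.2 * ip N N q.1 q.2 * ip N x q.1 q.2,
    ip N N q.1 q.2 * ip x N q.1 q.2 * ip x N q.1 q.2,
    ip N N q.1 q.2 * ip N x q.1 q.2 * ip N x q.1 q.2,
    ip N N q.1 q.2 * ip x N q.1 q.2 * ip N x q.1 q.2,
    ip x N q.1 q.2 * ip x N q.1 q.2 * ip x N q.1 q.2,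
    ip N x q.1 q.2 * ip N x q.1 q.2 * ip N x q.1 q.2,
    ip N x q.1 q.2 * ip x N q.1 q.2 * ip x N q.1 q.2,
    ip x N q.1 q.2 * ip N x q.1 q.2 * ip N x q.1 q.2,
    ip N N q.1 q.2 * ip N N q.1 q.2 * ip N N q.1 q.2]

/-- their means -/
noncomputable def val (μ : Measure Ω) (m : ℝ) (x N : ι → Ω → ℝ) : Fin 20 → ℝ :=
  ![((m + 2) / 2) ^ 2 * tc (m3 μ x x x) (m3 μ x x x),
    tc (m3 μ N x x) (m3 μ N x x),
    tc (m3 μ x x x) (m3 μ x x x),
    -((m + 2) / 2) * tc (m3 μ x x x) (m3 μ N x x),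
    -((m + 2) / 2) * tc (m3 μ x x x) (m3 μ N x x),
    tc (m3 μ x x x) (m3 μ N x x),
    tc (m3 μ x x x) (m3 μ N x x),
    -((m + 2) / 2) * tc (m3 μ x x x) (m3 μ x x x),
    -((m + 2) / 2) * tc (m3 μ x x x) (m3 μ x x x),
    tc (m3 μ N x x) (m3 μ N x x) - (∑ a, m1 μ N a ^ 2) / (m + 1),
    -((m + 2) / 2) * tc (m3 μ x x x) (m3 μ N N N),
    -((m + 2) / 2) * tc (m3 μ x x x) (m3 μ N N N),
    tc (m3 μ N x x) (m3 μ N N N),
    tc (m3 μ N x x) (m3 μ N N N),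
    ((m + 2) / 2) ^ 2 * tc (m3 μ x x x) (m3 μ x x x),
    tc (m3 μ x x x) (m3 μ N N N),
    tc (m3 μ x x x) (m3 μ N N N),
    -((m + 2) / 2) * tc (m3 μ x x x) (m3 μ N x x),
    -((m + 2) / 2) * tc (m3 μ x x x) (m3 μ N x x),
    tc (m3 μ N N N) (m3 μ N N N)]

lemma tc_comm (A B : ι → ι → ι → ℝ) : tc A B = tc B A := by
  unfold tc
  exact Finset.sum_congr rfl fun a _ => Finset.sum_congr rfl fun b _ =>
    Finset.sum_congr rfl fun c _ => mul_comm _ _

lemma tc_smul_left (k : ℝ) (A B : ι → ι → ι → ℝ) :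
    tc (fun a b c => k * A a b c) B = k * tc A B := by
  unfold tc
  simp only [Finset.mul_sum]
  exact Finset.sum_congr rfl fun a _ => Finset.sum_congr rfl fun b _ =>
    Finset.sum_congr rfl fun c _ => by ring

lemma tc_smul_right (k : ℝ) (A B : ι → ι → ι → ℝ) :
    tc A (fun a b c => k * B a b c) = k * tc A B := by
  rw [tc_comm, tc_smul_left, tc_comm]

lemma E3 (h : T0Data μ m x N) {f1 g1 f2 g2 f3 g3 : ι → Ω → ℝ}
    (h1 : ∀ a, BM (f1 a)) (h2 : ∀ a, BM (g1 a)) (h3 : ∀ a, BM (f2 a)) (h4 : ∀ a, BM (g2 a))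
    (h5 : ∀ a, BM (f3 a)) (h6 : ∀ a, BM (g3 a)) :
    ∫ q, ip f1 g1 q.1 q.2 * ip f2 g2 q.1 q.2 * ip f3 g3 q.1 q.2 ∂(μ.prod μ)
      = tc (m3 μ f1 f2 f3) (m3 μ g1 g2 g3) := by
  have := h.prob
  exact E2_three h1 h2 h3 h4 h5 h6

lemma NNx' (h : T0Data μ m x N) : m3 μ N N x = fun a b c => -((m + 2) / 2) * m3 μ x x x a b c := by
  funext a b c
  exact h.NNx a b c

lemma xxx_swap (a b c : ι) : m3 μ x x x a b c = m3 μ x x x b a c :=
  integral_congr_ae (Eventually.of_forall fun ω => by ring)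

lemma xxx_swap' (a b c : ι) : m3 μ x x x a b c = m3 μ x x x a c b :=
  integral_congr_ae (Eventually.of_forall fun ω => by ring)

lemma NxN' (h : T0Data μ m x N) : m3 μ N x N = fun a b c => -((m + 2) / 2) * m3 μ x x x a b c := by
  funext a b c
  have e : m3 μ N x N a b c = m3 μ N N x a c b :=
    integral_congr_ae (Eventually.of_forall fun ω => by ring)
  rw [e, h.NNx, xxx_swap' (μ := μ) (x := x) a c b]

lemma xNN' (h : T0Data μ m x N) : m3 μ x N N = fun a b c => -((m + 2) / 2) * m3 μ x x x a b c := by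
  funext a b c
  have e : m3 μ x N N a b c = m3 μ N N x b c a :=
    integral_congr_ae (Eventually.of_forall fun ω => by ring)
  rw [e, h.NNx, xxx_swap' (μ := μ) (x := x) b c a, xxx_swap (μ := μ) (x := x) b a c]

lemma twist' (h : T0Data μ m x N) (hm : m + 1 ≠ 0) :
    tc (m3 μ N x x) (m3 μ x N x) = tc (m3 μ N x x) (m3 μ N x x) - (∑ a, m1 μ N a ^ 2) / (m + 1) := by
  have h3 : ∀ a b c, m3 μ x N x a b c = m3 μ N x x b a c := fun a b c =>
    integral_congr_ae (Eventually.of_forall fun ω => by ring)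
  have h5 := h.Y_twist
  have e1 : tc (m3 μ N x x) (m3 μ x N x) = ∑ a, ∑ b, ∑ c, m3 μ N x x a b c * m3 μ N x x b a c := by
    unfold tc
    simp_rw [h3]
  have e2 : tc (m3 μ N x x) (m3 μ N x x) = ∑ a, ∑ b, ∑ c, m3 μ N x x a b c ^ 2 := by
    unfold tc
    exact Finset.sum_congr rfl fun a _ => Finset.sum_congr rfl fun b _ =>
      Finset.sum_congr rfl fun c _ => by ring
  rw [e1, e2]
  field_simp
  linarith

/-- the means of the monomials -/
theorem int_mon (h : T0Data μ m x N) (hm : m + 1 ≠ 0) (i : Fin 20) :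
    ∫ q, mon x N q i ∂(μ.prod μ) = val μ m x N i := by
  fin_cases i
  · refine (E3 h h.bN h.bN h.bN h.bN h.bx h.bx).trans ?_
    rw [NNx' h, tc_smul_left, tc_smul_right]
    simp [val]
    ring
  · exact E3 h h.bN h.bN h.bx h.bx h.bx h.bx
  · exact E3 h h.bx h.bx h.bx h.bx h.bx h.bx
  · refine (E3 h h.bN h.bN h.bx h.bN h.bx h.bx).trans ?_
    rw [NNx' h, tc_smul_right, tc_comm]
    rfl
  · refine (E3 h h.bN h.bN h.bN h.bx h.bx h.bx).trans ?_
    rw [NNx' h, tc_smul_left]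
    rfl
  · exact E3 h h.bx h.bN h.bx h.bx h.bx h.bx
  · refine (E3 h h.bN h.bx h.bx h.bx h.bx h.bx).trans ?_
    rw [tc_comm]
    rfl
  · refine (E3 h h.bx h.bN h.bx h.bN h.bx h.bx).trans ?_
    rw [NNx' h, tc_smul_right]
    rfl
  · refine (E3 h h.bN h.bx h.bN h.bx h.bx h.bx).trans ?_
    rw [NNx' h, tc_smul_left]
    rfl
  · refine (E3 h h.bN h.bx h.bx h.bN h.bx h.bx).trans ?_
    exact twist' h hm
  · refine (E3 h h.bN h.bN h.bN h.bN h.bx h.bN).trans ?_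
    rw [NNx' h, tc_smul_left]
    rfl
  · refine (E3 h h.bN h.bN h.bN h.bN h.bN h.bx).trans ?_
    rw [NNx' h, tc_smul_right, tc_comm]
    rfl
  · exact E3 h h.bN h.bN h.bx h.bN h.bx h.bN
  · refine (E3 h h.bN h.bN h.bN h.bx h.bN h.bx).trans ?_
    rw [tc_comm]
    rfl
  · refine (E3 h h.bN h.bN h.bx h.bN h.bN h.bx).trans ?_
    rw [NNx' h, NxN' h, tc_smul_left, tc_smul_right]
    simp [val]
    ring
  · exact E3 h h.bx h.bN h.bx h.bN h.bx h.bN
  · refine (E3 h h.bN h.bx h.bN h.bx h.bN h.bx).trans ?_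
    rw [tc_comm]
    rfl
  · refine (E3 h h.bN h.bx h.bx h.bN h.bx h.bN).trans ?_
    rw [xNN' h, tc_smul_right, tc_comm]
    rfl
  · refine (E3 h h.bx h.bN h.bN h.bx h.bN h.bx).trans ?_
    rw [xNN' h, tc_smul_left]
    rfl
  · exact E3 h h.bN h.bN h.bN h.bN h.bN h.bN

lemma int_mon_integrable (h : T0Data μ m x N) (i : Fin 20) :
    Integrable (fun q => mon x N q i) (μ.prod μ) := by
  have := h.prob
  have b1 := BM.ip2 h.bN h.bN
  have b2 := BM.ip2 h.bx h.bx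
  have b3 := BM.ip2 h.bx h.bN
  have b4 := BM.ip2 h.bN h.bx
  fin_cases i
  · exact ((b1.mul b1).mul b2).int
  · exact ((b1.mul b2).mul b2).int
  · exact ((b2.mul b2).mul b2).int
  · exact ((b1.mul b3).mul b2).int
  · exact ((b1.mul b4).mul b2).int
  · exact ((b3.mul b2).mul b2).int
  · exact ((b4.mul b2).mul b2).int
  · exact ((b3.mul b3).mul b2).int
  · exact ((b4.mul b4).mul b2).int
  · exact ((b4.mul b3).mul b2).int
  · exact ((b1.mul b1).mul b3).int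
  · exact ((b1.mul b1).mul b4).int
  · exact ((b1.mul b3).mul b3).int
  · exact ((b1.mul b4).mul b4).int
  · exact ((b1.mul b3).mul b4).int
  · exact ((b3.mul b3).mul b3).int
  · exact ((b4.mul b4).mul b4).int
  · exact ((b4.mul b3).mul b3).int
  · exact ((b3.mul b4).mul b4).int
  · exact ((b1.mul b1).mul b1).int

/-- the mean of a cubic polynomial -/
theorem int_cubic (h : T0Data μ m x N) (hm : m + 1 ≠ 0) (c : Fin 20 → ℝ) :
    ∫ q, ∑ i, c i * mon x N q i ∂(μ.prod μ) = ∑ i, c i * val μ m x N i := by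
  rw [integral_finsetSum _ fun i _ => (int_mon_integrable h i).const_mul (c i)]
  refine Finset.sum_congr rfl fun i _ => ?_
  rw [integral_const_mul, int_mon h hm]

end

end Vale.Agent.P224.R2.H742
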