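import Vale.Agent.P224.R2.H742.LawO3
import Vale.Agent.P224.R2.H460.LawS

/-!
The near law in odd dimension with the quadratic form of the antisymmetric part kept at the levels
below `Ts`.
-/

namespace Vale.Agent.P224.R2.H742

open MeasureTheory Set Filter Function Real Module Vale.Agent.P224 Vale.Agent.P224.FV
  Vale.Agent.P224.R2.H925 Vale.Agent.P224.R2.H582 Vale.Agent.P224.R2.H728
open Vale.Agent.P224.SM2 Vale.Agent.P224.R2.H820 Vale.Agent.P224.R2.H470
open scoped RealInnerProductSpace Topology ContDiff Manifold ENNReal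

set_option linter.unusedSectionVars false

section

variable {V W M : Type*} [NormedAddCommGroup V] [InnerProductSpace ℝ V] [FiniteDimensional ℝ V]
  [NormedAddCommGroup W] [InnerProductSpace ℝ W] [FiniteDimensional ℝ W]
  [TopologicalSpace M] [ChartedSpace V M]
  [MeasurableSpace V] [BorelSpace V] [MeasurableSpace M] [BorelSpace M]
  [MeasurableSpace W] [BorelSpace W] [IsManifold 𝓘(ℝ, V) ∞ M]
  [CompactSpace M] [T2Space M]

/-- the level bound with the form of the second square -/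
theorem levelS [Nonempty M] {m : ℕ} (hm : 4 ≤ m) (hV : finrank ℝ V = m)
    (hW : finrank ℝ W = finrank ℝ V + 2)
    {F : M → W} (hF : SphImm V F) (hmin : ∀ x n, IsUnitNormal V F x n → meanCurv V F x n = 0)
    {N : M → W} (hNs : ContMDiff 𝓘(ℝ, V) 𝓘(ℝ, W) ∞ N) (hN : ∀ x, IsUnitNormal V F x (N x))
    {d K g1 lmb β : ℝ} {l' τ kap : ℝ → ℝ} {a : Fin 4 → ℝ → ℝ} {u : St}
    (hd : 0 ≤ d) (hd1 : d ≤ 1) (hlmb : 0 ≤ lmb) (hsg : OddSgn u)
    {T : ℝ} (hT : T ∈ Ioo (0 : ℝ) 1) (hc : OddUp m d K g1 l' u T)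
    (hβ : bO m d T (1 / √(1 - T ^ 2)) (u.e T) (u.r T) (-u.ρ T) (-u.ε T) ≤ β)
    (hab : ∀ s ∈ Icc (-1 : ℝ) 1, cub a T s
      ≤ m * u.e T * ker T (m + 1) s - 2 * (d * -u.ε T) * |ker T (m + 2) s - lmb|)
    (hkap : d * -u.ε T ≤ kap T)
    (hτ : K * (1 + g1) * ((m + 1) * (m + 2) * T ^ 2 * rM m T / (1 - T ^ 2)) / 2
      * E2 (volM V F) F N (TK m T (l' T)) ≤ τ T * (volM V F).real univ ^ 2) :
    a 0 T * E2 (volM V F) F N (fun k => k.1 ^ 0 * Qk d k)
      + a 1 T * E2 (volM V F) F N (fun k => k.1 ^ 1 * Qk d k)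
      + a 2 T * E2 (volM V F) F N (fun k => k.1 ^ 2 * Qk d k)
      + a 3 T * E2 (volM V F) F N (fun k => k.1 ^ 3 * Qk d k)
      - lmb * kap T * |E2 (volM V F) F N (fun k => (k.2.1 + k.2.2.1) * Qk d k)|
      + 1 / 2 * E2 (volM V F) F N (fun k => Xk k
        * (aO m d T (1 / √(1 - T ^ 2)) (l' T) (u.y T) (u.r T) (-u.ρ T) (-u.ε T)
          * SM2.ker T (m + 1) k.1 - β * SM2.ker T (m + 2) k.1))
      - τ T * (volM V F).real univ ^ 2
      ≤ DS ((volM V F).prod (volM V F)) (finrank ℝ V) (SM2.pr F N) d u T := by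
  have hfin : IsFiniteMeasure (volM V F) := isFiniteMeasure_volM hF
  have hm1 : 1 ≤ m := by omega
  have hP : PL ((volM V F).prod (volM V F)) m (SM2.pr F N) := by
    rw [← hV]
    exact PL_of_min hW hF hmin hNs hN
  have hk : 0 < 1 - T ^ 2 := by nlinarith [hT.1, hT.2]
  have hRT : 1 ≤ (1 / √(1 - T ^ 2)) ^ 2 * (1 - T ^ 2) := by
    rw [div_pow, Real.sq_sqrt hk.le]
    field_simp
    exact le_rfl
  have q1 := DS_ge_level_phi hP (T := T) (d := d) (R := 1 / √(1 - T ^ 2)) (l := l' T)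
    (lam := lmb) (φ := cub a T) (u := u)
    (α := aO m d T (1 / √(1 - T ^ 2)) (l' T) (u.y T) (u.r T) (-u.ρ T) (-u.ε T))
    (β := β)
    (G := K * (1 + g1) * ((m + 1) * (m + 2) * T ^ 2 * rM m T / (1 - T ^ 2)) / 2)
    (by unfold cub; fun_prop) (by unfold cub; fun_prop) hm1 hT hd hd1 (by positivity)
    hRT hc.l0 (hsg.e0 T hT) (hsg.ρ0 T hT) (hsg.ε0 T hT) hab hc.ho le_rfl hβ
    (by have := hc.hg; linarith)
  rw [hV]
  refine le_trans ?_ q1
  set q0 := E2 (volM V F) F N (fun k => k.1 ^ 0 * Qk d k) with hq0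
  set q1' := E2 (volM V F) F N (fun k => k.1 ^ 1 * Qk d k) with hq1
  set q2 := E2 (volM V F) F N (fun k => k.1 ^ 2 * Qk d k) with hq2
  set q3 := E2 (volM V F) F N (fun k => k.1 ^ 3 * Qk d k) with hq3
  have mQ := measurable_Qk d
  have cQ := continuous_Qk d
  have e1 : Ek ((volM V F).prod (volM V F)) (SM2.pr F N) (fun k => cub a T k.1 * Qk d k)
      = a 0 T * q0 + a 1 T * q1' + a 2 T * q2 + a 3 T * q3 := by
    obtain ⟨_, he⟩ := Ek_comb4 hP (f1 := fun k => k.1 ^ 0 * Qk d k) (by fun_prop) (by fun_prop)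
      (f2 := fun k => k.1 ^ 1 * Qk d k) (by fun_prop) (by fun_prop)
      (f3 := fun k => k.1 ^ 2 * Qk d k) (by fun_prop) (by fun_prop)
      (f4 := fun k => k.1 ^ 3 * Qk d k) (by fun_prop) (by fun_prop)
      (f5 := fun _ => (0 : ℝ)) (by fun_prop) (by fun_prop) (a 0 T) (a 1 T) (a 2 T) (a 3 T) 0
    have e2 : a 0 T * q0 + a 1 T * q1' + a 2 T * q2 + a 3 T * q3
        = a 0 T * Ek ((volM V F).prod (volM V F)) (SM2.pr F N) (fun k => k.1 ^ 0 * Qk d k)
        + a 1 T * Ek ((volM V F).prod (volM V F)) (SM2.pr F N) (fun k => k.1 ^ 1 * Qk d k)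
        + a 2 T * Ek ((volM V F).prod (volM V F)) (SM2.pr F N) (fun k => k.1 ^ 2 * Qk d k)
        + a 3 T * Ek ((volM V F).prod (volM V F)) (SM2.pr F N) (fun k => k.1 ^ 3 * Qk d k)
        + 0 * Ek ((volM V F).prod (volM V F)) (SM2.pr F N) (fun _ => (0 : ℝ)) := by
      rw [zero_mul, add_zero]
      rfl
    rw [e2, ← he]
    unfold Ek
    refine integral_congr_ae (Eventually.of_forall fun q => ?_)
    unfold cub
    simp only
    ring
  rw [e1]
  set qq := E2 (volM V F) F N (fun k => (k.2.1 + k.2.2.1) * Qk d k) with hqq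
  have e3 : Ek ((volM V F).prod (volM V F)) (SM2.pr F N) (fun k => (k.2.1 + k.2.2.1) * Qk d k)
      = qq := rfl
  rw [e3]
  have h1 : -(lmb * kap T * |qq|) ≤ -(lmb * (d * -u.ε T)) * qq := by
    have h2 : lmb * (d * -u.ε T) * qq ≤ lmb * (d * -u.ε T) * |qq| :=
      mul_le_mul_of_nonneg_left (le_abs_self _) (mul_nonneg hlmb (mul_nonneg hd
        (neg_nonneg.2 (hsg.ε0 T hT))))
    have h3 : lmb * (d * -u.ε T) * |qq| ≤ lmb * kap T * |qq| :=
      mul_le_mul_of_nonneg_right (mul_le_mul_of_nonneg_left hkap hlmb) (abs_nonneg _)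
    linarith
  have e9 : Ek ((volM V F).prod (volM V F)) (SM2.pr F N) (TK m T (l' T))
      = E2 (volM V F) F N (TK m T (l' T)) := rfl
  have e8 : Ek ((volM V F).prod (volM V F)) (SM2.pr F N) (fun k => Xk k
      * (aO m d T (1 / √(1 - T ^ 2)) (l' T) (u.y T) (u.r T) (-u.ρ T) (-u.ε T)
        * SM2.ker T (m + 1) k.1 - β * SM2.ker T (m + 2) k.1))
      = E2 (volM V F) F N (fun k => Xk k
      * (aO m d T (1 / √(1 - T ^ 2)) (l' T) (u.y T) (u.r T) (-u.ρ T) (-u.ε T)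
        * SM2.ker T (m + 1) k.1 - β * SM2.ker T (m + 2) k.1)) := rfl
  rw [e9, e8]
  linarith

/-- the near law in odd dimension with the form of the second square below the level `Ts` -/
theorem nearAtOdd_S [Nonempty M] [SecondCountableTopology M] {m : ℕ} (hm : 4 ≤ m)
    (hV : finrank ℝ V = m) (hW : finrank ℝ W = finrank ℝ V + 2)
    {F : M → W} (hF : SphImm V F) (hmin : ∀ x n, IsUnitNormal V F x n → meanCurv V F x n = 0)
    {N : M → W} (hNs : ContMDiff 𝓘(ℝ, V) 𝓘(ℝ, W) ∞ N) (hN : ∀ x, IsUnitNormal V F x (N x))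
    {ι : Type*} [Fintype ι] [DecidableEq ι] (b : OrthonormalBasis ι ℝ W)
    {J : W →L[ℝ] W} (hJ : ∀ u v, ⟪J u, v⟫ = ⟪u, J v⟫) {z : M → W} (hzJ : ∀ x, z x = N x - J (F x))
    {Ts : ℝ} (hTs0 : 0 < Ts) (hTs1 : Ts < 1)
    {d K g1 lmb ε0 r0 W1 W2 : ℝ} {w β l' τ kap : ℝ → ℝ} {a : Fin 4 → ℝ → ℝ} {u : St}
    (hd : 0 ≤ d) (hd1 : d ≤ 1) (hlmb : 0 ≤ lmb) (hsg : OddSgn u)
    (hw : ContinuousOn w (Icc 0 Ts))
    (hup : ∀ T ∈ Ioo (0 : ℝ) 1, OddUp m d K g1 l' u T)
    (hβ : ∀ T ∈ Ioo (0 : ℝ) Ts,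
      bO m d T (1 / √(1 - T ^ 2)) (u.e T) (u.r T) (-u.ρ T) (-u.ε T) ≤ β T)
    (hβ0 : ∀ T ∈ Ioo (0 : ℝ) Ts, 0 ≤ β T)
    (hq : ∀ T ∈ Ioo (0 : ℝ) Ts, K * (m * (w T * H460.cw m T))
      ≤ aO m d T (1 / √(1 - T ^ 2)) (l' T) (u.y T) (u.r T) (-u.ρ T) (-u.ε T) - β T / (1 - T))
    (hab : ∀ T ∈ Ioo (0 : ℝ) 1, ∀ s ∈ Icc (-1 : ℝ) 1, cub a T s
      ≤ m * u.e T * ker T (m + 1) s - 2 * (d * -u.ε T) * |ker T (m + 2) s - lmb|)
    (hkap : ∀ T ∈ Ioo (0 : ℝ) 1, d * -u.ε T ≤ kap T)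
    (hτ : ∀ T ∈ Ioo (0 : ℝ) 1,
      K * (1 + g1) * ((m + 1) * (m + 2) * T ^ 2 * rM m T / (1 - T ^ 2)) / 2
      * E2 (volM V F) F N (TK m T (l' T)) ≤ τ T * (volM V F).real univ ^ 2)
    (ia : ∀ i, IntervalIntegrable (a i) volume 0 1) (ik : IntervalIntegrable kap volume 0 1)
    (iτ : IntervalIntegrable τ volume 0 1)
    (hmain : m * r0 * (∑ i, m1 (nrm (volM V F)) (co b N) i ^ 2)
      + -(2 * d * ε0 / (m + 1)) * (W1 * qm (nrm (volM V F)) (d / 2) (co b F) (co b N) 0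
        + W2 * ((m + 1) / 2 * Qpt (nrm (volM V F)) m (co b F) (co b N)))
      ≤ (∫ T in (0 : ℝ)..1, a 0 T) * qm (nrm (volM V F)) (d / 2) (co b F) (co b N) 0
        + (∫ T in (0 : ℝ)..1, a 1 T) * qm (nrm (volM V F)) (d / 2) (co b F) (co b N) 1
        + (∫ T in (0 : ℝ)..1, a 2 T) * qm (nrm (volM V F)) (d / 2) (co b F) (co b N) 2
        + (∫ T in (0 : ℝ)..1, a 3 T) * qm (nrm (volM V F)) (d / 2) (co b F) (co b N) 3
        - lmb * (∫ T in (0 : ℝ)..1, kap T) * |qw (nrm (volM V F)) (d / 2) (co b F) (co b N)|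
        + K * (∫ T in (0 : ℝ)..Ts, w T * (H460.cw m T * H460.LL (nrm (volM V F)) m F z T))
        - ∫ T in (0 : ℝ)..1, τ T) :
    NearAtOdd V F N d ε0 r0 W1 W2 u := by
  have hfin : IsFiniteMeasure (volM V F) := isFiniteMeasure_volM hF
  have hm1 : 1 ≤ finrank ℝ V := by omega
  have hvpos : 0 < volM V F univ := volM_pos_of_isOpen hW hF isOpen_univ univ_nonempty
  have hnz : NeZero (volM V F) := ⟨fun h => by rw [h] at hvpos; simp at hvpos⟩
  have hA : 0 < (volM V F).real univ := ENNReal.toReal_pos hvpos.ne' (measure_ne_top _ _)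
  have hT0 : T0Data (nrm (volM V F)) (m : ℝ) (co b F) (co b N) := by
    rw [← hV]
    exact t0Data_of_min hm1 hW hF hmin hNs hN b
  have hprob : IsProbabilityMeasure (nrm (volM V F)) := hT0.prob
  have h2p : Two (volM V F) m F N := by
    rw [← hV]
    exact two_of_min hW hF hmin hNs hN
  have h1p : OneP (nrm (volM V F)) m F N := by
    rw [← hV]
    exact H460.oneP_smul (oneP_of_min hW hF hmin hNs hN) _
  have hmR : (m : ℝ) + 1 ≠ 0 := by positivity
  have hcz : Continuous z := by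
    have e : z = fun x => N x - J (F x) := funext hzJ
    rw [e]
    exact h1p.cn.sub (J.continuous.comp h1p.cp)
  set A := (volM V F).real univ with hAdef
  have hA2 : 0 < A ^ 2 := pow_pos hA 2
  set q0 := E2 (volM V F) F N (fun k => k.1 ^ 0 * Qk d k) with hq0
  set q1 := E2 (volM V F) F N (fun k => k.1 ^ 1 * Qk d k) with hq1
  set q2 := E2 (volM V F) F N (fun k => k.1 ^ 2 * Qk d k) with hq2
  set q3 := E2 (volM V F) F N (fun k => k.1 ^ 3 * Qk d k) with hq3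
  set qq := E2 (volM V F) F N (fun k => (k.2.1 + k.2.2.1) * Qk d k) with hqq
  let fst : ℝ → ℝ := fun T => a 0 T * q0 + a 1 T * q1 + a 2 T * q2 + a 3 T * q3
      - lmb * kap T * |qq|
  let Lf : ℝ → ℝ := fun T => w T * (H460.cw m T * H460.LL (nrm (volM V F)) m F z T)
  let D : ℝ → ℝ := (Ioo 0 Ts).indicator Lf
  have cL : ContinuousOn Lf (Icc 0 Ts) := by
    refine ContinuousOn.mul hw ((H460.contOn_LL h1p hcz).mono fun x hx => ?_)
    exact ⟨hx.1, hx.2.trans_lt hTs1⟩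
  have iL : IntegrableOn Lf (Ioo 0 Ts) volume :=
    (cL.integrableOn_Icc).mono_set Ioo_subset_Icc_self
  have iD : IntervalIntegrable D volume 0 1 := by
    rw [intervalIntegrable_iff_integrableOn_Ioc_of_le zero_le_one]
    exact (iL.integrable_indicator measurableSet_Ioo).integrableOn
  have eD : ∫ T in (0 : ℝ)..1, D T = ∫ T in (0 : ℝ)..Ts, Lf T := by
    rw [intervalIntegral.integral_of_le zero_le_one, intervalIntegral.integral_of_le hTs0.le,
      show D = (Ioo 0 Ts).indicator Lf from rfl,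
      setIntegral_indicator measurableSet_Ioo, integral_Ioc_eq_integral_Ioo]
    congr 2
    ext T
    simp only [mem_inter_iff, mem_Ioc, mem_Ioo]
    constructor
    · rintro ⟨_, h2⟩
      exact h2
    · intro h
      exact ⟨⟨h.1, (h.2.trans hTs1).le⟩, h⟩
  have i0 := (ia 0).mul_const q0
  have i1 := (ia 1).mul_const q1
  have i2 := (ia 2).mul_const q2
  have i3 := (ia 3).mul_const q3
  have i4 := (ik.const_mul lmb).mul_const |qq|
  have ifst : IntervalIntegrable fst volume 0 1 := (((i0.add i1).add i2).add i3).sub i4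
  have iDk : IntervalIntegrable (fun T => K * D T * A ^ 2) volume 0 1 :=
    (iD.const_mul K).mul_const _
  let B : ℝ → ℝ := fun T => fst T + K * D T * A ^ 2 - τ T * A ^ 2
  have hkey : ∀ T ∈ Ioo (0 : ℝ) 1, B T
      ≤ DS ((volM V F).prod (volM V F)) (finrank ℝ V) (SM2.pr F N) d u T := by
    intro T hT
    by_cases hTs : T < Ts
    · have hT2 : T ∈ Ioo 0 Ts := ⟨hT.1, hTs⟩
      have h1 := levelS hm hV hW hF hmin hNs hN hd hd1 hlmb hsg hT (hup T hT) (hβ T hT2)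
        (hab T hT) (hkap T hT) (hτ T hT)
      have hl := H460.E2_level_ge
        (α := aO m d T (1 / √(1 - T ^ 2)) (l' T) (u.y T) (u.r T) (-u.ρ T) (-u.ε T)) h2p hT
        (hβ0 T hT2)
      rw [H460.E2_Xk_ker hJ hzJ] at hl
      have hP : 0 ≤ H460.PI (nrm (volM V F)) F T (m + 1) (fun u => H460.Dl F z u ^ 2) :=
        H460.PI_nonneg hT.1.le hT.2 _ h1p.np fun u => sq_nonneg _
      have h5 := mul_le_mul_of_nonneg_right (hq T hT2) (mul_nonneg hA2.le hP)
      have e6 : K * D T * A ^ 2 = 1 / 2 * (K * (m * (w T * H460.cw m T))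
          * (A ^ 2 * H460.PI (nrm (volM V F)) F T (m + 1) (fun u => H460.Dl F z u ^ 2))) := by
        change K * ((Ioo 0 Ts).indicator Lf T) * A ^ 2 = _
        rw [indicator_of_mem hT2]
        change K * (w T * (H460.cw m T * H460.LL (nrm (volM V F)) m F z T)) * A ^ 2 = _
        simp only [H460.LL]
        ring
      change fst T + K * D T * A ^ 2 - τ T * A ^ 2 ≤ _
      rw [e6]
      change a 0 T * q0 + a 1 T * q1 + a 2 T * q2 + a 3 T * q3 - lmb * kap T * |qq| + _ - _ ≤ _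
      linarith
    · have h7 : T ∉ Ioo 0 Ts := fun h => hTs h.2
      have h1 := levelO_tail hm hV hW hF hmin hNs hN hd hd1 hlmb hsg hT
        (hup T hT) (hab T hT) (hkap T hT) (hτ T hT)
      refine le_trans (le_of_eq ?_) h1
      change fst T + K * ((Ioo 0 Ts).indicator Lf T) * A ^ 2 - τ T * A ^ 2 = _
      rw [indicator_of_notMem h7, mul_zero, zero_mul, add_zero]
  refine ⟨B, (ifst.add iDk).sub (iτ.mul_const _), hkey, ?_⟩
  have hI : ∫ T in (0 : ℝ)..1, B T = (∫ T in (0 : ℝ)..1, fst T)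
      + K * (∫ T in (0 : ℝ)..Ts, Lf T) * A ^ 2 - (∫ T in (0 : ℝ)..1, τ T) * A ^ 2 := by
    change ∫ T in (0 : ℝ)..1, (fst T + K * D T * A ^ 2 - τ T * A ^ 2) = _
    rw [intervalIntegral.integral_sub (ifst.add iDk) (iτ.mul_const _),
      intervalIntegral.integral_add ifst iDk, intervalIntegral.integral_mul_const,
      intervalIntegral.integral_mul_const, intervalIntegral.integral_const_mul, eD]
  have hM0 : ∫ T in (0 : ℝ)..1, fst T = (∫ T in (0 : ℝ)..1, a 0 T) * q0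
      + (∫ T in (0 : ℝ)..1, a 1 T) * q1 + (∫ T in (0 : ℝ)..1, a 2 T) * q2
      + (∫ T in (0 : ℝ)..1, a 3 T) * q3 - lmb * (∫ T in (0 : ℝ)..1, kap T) * |qq| := by
    change ∫ T in (0 : ℝ)..1, (a 0 T * q0 + a 1 T * q1 + a 2 T * q2 + a 3 T * q3
      - lmb * kap T * |qq|) = _
    rw [intervalIntegral.integral_sub (((i0.add i1).add i2).add i3) i4,
      intervalIntegral.integral_add ((i0.add i1).add i2) i3,
      intervalIntegral.integral_add (i0.add i1) i2,
      intervalIntegral.integral_add i0 i1]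
    simp only [intervalIntegral.integral_mul_const, intervalIntegral.integral_const_mul]
  have hcN : Continuous N := hNs.continuous
  have e6 : ‖∫ x, N x ∂(volM V F)‖ ^ 2 = A ^ 2 * ∑ i, m1 (nrm (volM V F)) (co b N) i ^ 2 :=
    sum_m1_sq b (hcN.integrable_of_hasCompactSupport (HasCompactSupport.of_compactSpace N))
  have g0 : q0 = A ^ 2 * qm (nrm (volM V F)) (d / 2) (co b F) (co b N) 0 := E2_qm b d 0
  have g1' : q1 = A ^ 2 * qm (nrm (volM V F)) (d / 2) (co b F) (co b N) 1 := E2_qm b d 1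
  have g2 : q2 = A ^ 2 * qm (nrm (volM V F)) (d / 2) (co b F) (co b N) 2 := E2_qm b d 2
  have g3 : q3 = A ^ 2 * qm (nrm (volM V F)) (d / 2) (co b F) (co b N) 3 := E2_qm b d 3
  have g4 : qq = A ^ 2 * qw (nrm (volM V F)) (d / 2) (co b F) (co b N) := E2_qw b d
  have g5 : E2 (volM V F) F N (Qk d) = A ^ 2 * qm (nrm (volM V F)) (d / 2) (co b F) (co b N) 0 := by
    rw [← g0, hq0]
    simp only [pow_zero, one_mul]
  have g6 : E2 (volM V F) F N Xk = A ^ 2 * Qpt (nrm (volM V F)) m (co b F) (co b N) :=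
    E2_Xk b hmR hT0
  have g8 : |qq| = A ^ 2 * |qw (nrm (volM V F)) (d / 2) (co b F) (co b N)| := by
    rw [g4, abs_mul, abs_of_pos hA2]
  rw [hI, hM0, g6, g8, g5, e6, g0, g1', g2, g3, hV]
  have h9 := mul_le_mul_of_nonneg_left hmain hA2.le
  refine le_trans (le_of_eq ?_) (h9.trans (le_of_eq ?_)) <;> ring

end

end Vale.Agent.P224.R2.H742
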