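import Vale.Agent.P224.R2.H742.NearO
import Vale.Agent.P224.R2.H579.ELaw

/-!
The scalar inequality of the near law in odd dimension in the box of large dimensions.
-/

namespace Vale.Agent.P224.R2.H742

open MeasureTheory Set Filter Function Real Finset Matrix Vale.Agent.P224.R2.H582
  Vale.Agent.P224.R2.H728

set_option linter.unusedSectionVars false

section

variable {ι Ω : Type*} [Fintype ι] [DecidableEq ι] [MeasurableSpace Ω] {μ : Measure Ω}
  {m : ℝ} {x N : ι → Ω → ℝ} {j : ι → ℝ}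

/-- upper bound of the second square -/
lemma Qpt_le4 (h : T0Data μ m x N) (hm : 0 ≤ m) {J : Matrix ι ι ℝ} (hJ : J.IsSymm) :
    Qpt μ m x N ≤ 4 * hh μ J x N := by
  have := h.prob
  have hm1 : m + 1 ≠ 0 := by positivity
  rw [← h.Qpt_eq hm1]
  set z := ze J x N with hz
  have bz : ∀ a, BM (z a) := h.bz J
  have be : BM (fun ω => et J x N ω ⬝ᵥ et J x N ω) := h.bee J
  have hcs : ∀ (f g : ι → ℝ), (∑ a, f a * g a) ^ 2 ≤ (∑ a, f a ^ 2) * ∑ a, g a ^ 2 := fun f g =>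
    Finset.sum_mul_sq_le_sq_mul_sq _ _ _
  have hev : ∀ ω, ∑ a, z a ω ^ 2 = et J x N ω ⬝ᵥ et J x N ω := by
    intro ω
    simp only [dotProduct]
    exact Finset.sum_congr rfl fun a _ => sq _
  have hpt : ∀ q : Ω × Ω, (ip N x q.1 q.2 - ip x N q.1 q.2) ^ 2
      ≤ 2 * (et J x N q.1 ⬝ᵥ et J x N q.1) + 2 * (et J x N q.2 ⬝ᵥ et J x N q.2) := by
    intro q
    rw [h.pt_eq hJ]
    have h1 := hcs (fun a => z a q.1) (fun a => x a q.2)
    have h2 := hcs (fun a => x a q.1) (fun a => z a q.2)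
    rw [h.ux, hev, mul_one] at h1
    rw [h.ux, hev, one_mul] at h2
    have e1 : ip (ze J x N) x q.1 q.2 = ∑ a, z a q.1 * x a q.2 := rfl
    have e2 : ip x (ze J x N) q.1 q.2 = ∑ a, x a q.1 * z a q.2 := rfl
    rw [e1, e2]
    nlinarith [sq_nonneg ((∑ a, z a q.1 * x a q.2) + ∑ a, x a q.1 * z a q.2)]
  have i1 : Integrable (fun q : Ω × Ω => et J x N q.1 ⬝ᵥ et J x N q.1) (μ.prod μ) := be.fst.int
  have i2 : Integrable (fun q : Ω × Ω => et J x N q.2 ⬝ᵥ et J x N q.2) (μ.prod μ) := be.snd.int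
  have i0 : Integrable (fun q : Ω × Ω => (ip N x q.1 q.2 - ip x N q.1 q.2) ^ 2) (μ.prod μ) := by
    have b1 : BM (fun q : Ω × Ω => ip N x q.1 q.2 - ip x N q.1 q.2) :=
      (BM.ip2 h.bN h.bx).sub (BM.ip2 h.bx h.bN)
    exact (b1.pow 2).int
  have h3 : ∫ q, (ip N x q.1 q.2 - ip x N q.1 q.2) ^ 2 ∂(μ.prod μ)
      ≤ ∫ q, (2 * (et J x N q.1 ⬝ᵥ et J x N q.1) + 2 * (et J x N q.2 ⬝ᵥ et J x N q.2))
        ∂(μ.prod μ) := integral_mono i0 ((i1.const_mul 2).add (i2.const_mul 2)) hpt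
  refine h3.trans (le_of_eq ?_)
  rw [integral_add (i1.const_mul 2) (i2.const_mul 2), integral_const_mul, integral_const_mul,
    integral_fun_fst (μ := μ) (ν := μ) (fun ω => et J x N ω ⬝ᵥ et J x N ω),
    integral_fun_snd (μ := μ) (ν := μ) (fun ω => et J x N ω ⬝ᵥ et J x N ω)]
  simp only [probReal_univ, one_smul]
  unfold hh
  ring

/-- the numbers of the box -/
lemma box_num {m : ℝ} (hm : 400 ≤ m) : 6 / m ≤ 3 / 200 ∧ 1000 / m ^ 3 ≤ 1 / 64000 ∧
    0 < 6 / m ∧ 0 < 1000 / m ^ 3 ∧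
    (m + 2) * ((6 / m + 1000 / m ^ 3) / (1 - 6 / m)) ≤ 31 / 5 ∧
    1 + (m + 2) * (6 / m / (1 - 6 / m)) ≤ (27 / 10) ^ 2 := by
  have hm0 : 0 < m := by linarith
  have h1 : 6 / m ≤ 3 / 200 := by
    rw [div_le_div_iff₀ hm0 (by norm_num)]
    linarith
  have h3 : (400 : ℝ) ^ 3 ≤ m ^ 3 := pow_le_pow_left₀ (by norm_num) hm 3
  have h2 : 1000 / m ^ 3 ≤ 1 / 64000 := by
    rw [div_le_div_iff₀ (by positivity) (by norm_num)]
    norm_num at h3
    linarith
  have h4 : 0 < 1 - 6 / m := by linarith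
  have e : (1 - 6 / m) * m = m - 6 := by field_simp
  have h5 : 1000 / m ^ 3 ≤ 1 / 100 / m := by
    rw [div_div, div_le_div_iff₀ (by positivity) (by positivity)]
    have h6 : 400 * 400 * m ≤ m ^ 3 := by
      calc 400 * 400 * m ≤ m * m * m := by gcongr
        _ = m ^ 3 := by ring
    linarith
  refine ⟨h1, h2, by positivity, by positivity, ?_, ?_⟩
  · have h6 : 6 / m + 1000 / m ^ 3 ≤ 601 / 100 / m := by
      have : 6 / m + 1 / 100 / m = 601 / 100 / m := by ring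
      linarith
    have h7 : (m + 2) * ((6 / m + 1000 / m ^ 3) / (1 - 6 / m))
        ≤ (m + 2) * (601 / 100 / m / (1 - 6 / m)) := by gcongr
    refine h7.trans ?_
    rw [div_div, mul_comm m, e, mul_div_assoc', div_le_iff₀ (by linarith)]
    linarith
  · rw [div_div, mul_comm m (1 - 6 / m), e, mul_div_assoc', ← le_sub_iff_add_le', div_le_iff₀ (by linarith)]
    norm_num
    linarith

/-- the bound of the mean normal in the box -/
theorem e7_S (h : T0Data μ m x N) (hm : 400 ≤ m) (hL : LSq μ (diagonal j) x N)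
    (hd : √(fro (De μ x N)) ≤ 6 / m) (hh' : hh μ (diagonal j) x N ≤ 1000 / m ^ 3) :
    √(uu μ N) ≤ 4 * hh μ (diagonal j) x N := by
  have hm0 : 0 < m := by linarith
  obtain ⟨n1, n2, n3, n4, n5, n6⟩ := box_num hm
  have hH0 : 0 ≤ hh μ (diagonal j) x N := h.hh_nonneg _
  have h1d : 0 < 1 - 6 / m := by linarith
  have hf0 : 0 ≤ fro (De μ x N) := fro_nonneg _
  have hfb : fro (De μ x N) ≤ (6 / m) ^ 2 := by
    rw [← Real.sq_sqrt hf0]
    exact pow_le_pow_left₀ (Real.sqrt_nonneg _) hd 2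
  have hwf : ∑ b, (j b ^ 2 - 1) ^ 2 ≤ (31 / 5) ^ 2 := by
    refine (h.w_fro hm0.le hL n3.le (by linarith) hfb).trans ?_
    refine pow_le_pow_left₀ (by positivity) (le_trans ?_ n5) 2
    gcongr
  have k1 := H579.tr_le h hm0 hL n3.le hfb (by norm_num) hwf (T := 31 / (100 * m)) (by positivity)
    (by
      have h6 : 6 / m * (31 / 5) ≤ 1 := by linarith
      have h7 : (6 / m) ^ 2 * (m + 2 + 6 / m * (31 / 5)) ≤ (6 / m) ^ 2 * (m + 3) :=
        mul_le_mul_of_nonneg_left (by linarith) (sq_nonneg _)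
      have h8 : m + 3 ≤ ((m + 1) * (31 / 600)) ^ 2 := by nlinarith
      have h9 := mul_le_mul_of_nonneg_left h8 (sq_nonneg (6 / m))
      have e9 : ((m + 1) * (31 / (100 * m))) ^ 2 = (6 / m) ^ 2 * ((m + 1) * (31 / 600)) ^ 2 := by
        field_simp
        ring
      rw [e9]
      exact h7.trans h9)
  have hE : H579.Ew (6 / m) (1000 / m ^ 3) ≤ 1 / 4000 := by
    unfold H579.Ew
    have e1 : 0 < 1 - (3 / 200 : ℝ) := by norm_num
    have e2 : ((6 / m + 1000 / m ^ 3) ^ 2 + 1000 / m ^ 3 * (6 / m + 1000 / m ^ 3)) / (1 - 6 / m)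
        ≤ ((3 / 200 + 1 / 64000) ^ 2 + 1 / 64000 * (3 / 200 + 1 / 64000)) / (1 - 3 / 200) := by
      gcongr
    norm_num at e2 ⊢
    linarith
  have hE0 : 0 ≤ H579.Ew (6 / m) (1000 / m ^ 3) := by
    unfold H579.Ew
    positivity
  have p1 : 98 / 100 / (m + 1) ≤ (m - 4) / ((m + 1) * (m + 4)) := by
    rw [div_div, div_le_div_iff₀ (by positivity) (by positivity)]
    nlinarith
  have p2 : (m - 4) / ((m + 1) * (m + 4)) ≤ 1 / (m + 1) := by
    rw [div_le_div_iff₀ (by positivity) (by positivity)]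
    nlinarith
  have p3 : 31 / (100 * m) / 2 ≤ 16 / 100 / (m + 1) := by
    rw [div_div, div_div, div_le_div_iff₀ (by positivity) (by positivity)]
    linarith
  have p4 : 1 / (m + 1) ≤ 1 / 401 := by
    rw [div_le_div_iff₀ (by positivity) (by norm_num)]
    linarith
  have p5 : m / (m + 1) = 1 - 1 / (m + 1) := by field_simp; ring
  have p6 : (m + 2) / (m + 1) = 1 + 1 / (m + 1) := by field_simp; ring
  have p7 : 16 / 100 / (m + 1) = 16 / 100 * (1 / (m + 1)) := by ring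
  have p8 : 98 / 100 / (m + 1) = 98 / 100 * (1 / (m + 1)) := by ring
  have p9 : 0 < 1 / (m + 1) := by positivity
  have hc : 31 / (100 * m) / 2 + 4 * H579.Ew (6 / m) (1000 / m ^ 3) / (m + 1)
      ≤ (m - 4) / ((m + 1) * (m + 4)) := by
    have c1 : 4 * H579.Ew (6 / m) (1000 / m ^ 3) / (m + 1) ≤ 1 / 1000 * (1 / (m + 1)) := by
      rw [div_eq_mul_one_div]
      exact mul_le_mul_of_nonneg_right (by linarith) p9.le
    linarith
  have hl : 99 / 100 ≤ m / (m + 1) - (m - 4) / ((m + 1) * (m + 4)) - 31 / (100 * m) / 2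
      - 2 * H579.Ew (6 / m) (1000 / m ^ 3) * (m + 2) / (m + 1) := by
    have c1 : 2 * H579.Ew (6 / m) (1000 / m ^ 3) * (m + 2) / (m + 1) ≤ 1 / 2000 * (402 / 401) := by
      rw [mul_div_assoc, p6]
      exact mul_le_mul (by linarith) (by linarith) (by positivity) (by norm_num)
    rw [p5]
    linarith
  have k2 := H579.e_law_closed h hm0 hL n3.le (by linarith) hfb hh' (ρ := 27 / 10) (by norm_num)
    n6 (by linarith) k1 hc (by linarith)
  have hu : 0 ≤ √(uu μ N) := Real.sqrt_nonneg _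
  have k3 := mul_le_mul_of_nonneg_right hl hu
  have k4 : 99 / 100 * √(uu μ N) ≤ (1 + 27 / 10) * hh μ (diagonal j) x N := k3.trans k2
  linarith

end

end Vale.Agent.P224.R2.H742
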