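import Vale.Agent.P224.R2.H742.SO2

/-!
The scalar inequality of the near law in odd dimension in the box of large dimensions, continued.
-/

namespace Vale.Agent.P224.R2.H742

open MeasureTheory Set Filter Function Real Finset Matrix Vale.Agent.P224.R2.H582
  Vale.Agent.P224.R2.H728

set_option linter.unusedSectionVars false

/-- the elementary bounds with the inverse of the dimension -/
lemma inv_num {m : ℝ} (hm : 400 ≤ m) : 0 < 1 / m ∧ 1 / m ≤ 1 / 400 ∧ kq m ≤ 16 / 7 * (1 / m) ^ 2 ∧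
    8 / (m * (m + 1)) ≤ 8 * (1 / m) ^ 2 ∧ 1 / (m + 2) ≤ 1 / m ∧ 1 / (m + 1) ≤ 1 / m ∧
    (1 / m) ^ 3 ≤ (m + 2) * (1 / m) ^ 4 ∧ 1000 / m ^ 3 = 1000 * (1 / m) ^ 3 := by
  have hm0 : 0 < m := by linarith
  refine ⟨by positivity, div_le_div_of_nonneg_left zero_le_one (by norm_num) hm, ?_, ?_,
    div_le_div_of_nonneg_left zero_le_one hm0 (by linarith),
    div_le_div_of_nonneg_left zero_le_one hm0 (by linarith), ?_, by field_simp⟩
  · unfold kq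
    rw [div_pow, one_pow, mul_one_div, div_div, div_le_div_iff₀ (by positivity) (by positivity)]
    nlinarith
  · rw [div_pow, one_pow, mul_one_div]
    exact div_le_div_of_nonneg_left (by norm_num) (by positivity) (by nlinarith)
  · have e : (1 / m) ^ 3 = m * (1 / m) ^ 4 := by field_simp
    rw [e]
    have := pow_pos (show 0 < 1 / m by positivity) 4
    nlinarith

/-- powers of a small number -/
lemma pow_num {t : ℝ} (h0 : 0 < t) (h1 : t ≤ 1 / 400) : t ^ 3 ≤ 1 / 400 * t ^ 2 ∧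
    t ^ 4 ≤ 1 / 160000 * t ^ 2 ∧ t ^ 5 ≤ 1 / 160000 * t ^ 3 ∧ t ^ 6 ≤ 1 / 160000 * t ^ 4 ∧
    t ^ 7 ≤ 1 / 160000 * t ^ 5 ∧ t ^ 8 ≤ 1 / 160000 * t ^ 6 ∧ t ^ 9 ≤ 1 / 160000 * t ^ 7 := by
  have h2 : t ^ 2 ≤ 1 / 160000 := by
    have := pow_le_pow_left₀ h0.le h1 2
    norm_num at this ⊢
    exact this
  have k : ∀ n : ℕ, t ^ (n + 2) ≤ 1 / 160000 * t ^ n := fun n => by
    have := mul_le_mul_of_nonneg_right h2 (pow_nonneg h0.le n)
    rw [pow_add]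
    linarith
  refine ⟨?_, k 2, k 3, k 4, k 5, k 6, k 7⟩
  have := mul_le_mul_of_nonneg_right h1 (pow_nonneg h0.le 2)
  rw [show t ^ 3 = t * t ^ 2 by ring]
  exact this

section

variable {ι Ω : Type*} [Fintype ι] [DecidableEq ι] [MeasurableSpace Ω] {μ : Measure Ω}
  {m : ℝ} {x N : ι → Ω → ℝ} {j : ι → ℝ}

/-- the bound of the constant of the contraction term -/
lemma Cx_le {m : ℝ} (hm : 400 ≤ m) : H178.Cx m (27 / 10) (31 / 5) (1 / 5 * (1 / m) ^ 2)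
    (5 / 2 * (1 / m) ^ 2) (4 * (1000 / m ^ 3)) (1000 / m ^ 3) ≤ 400 * (1 / m) ^ 4 := by
  obtain ⟨t0, t1, -, n4, n5, -, -, n8⟩ := inv_num hm
  have hm0 : 0 < m := by linarith
  rw [n8]
  set t := 1 / m with ht
  obtain ⟨p3, p4, p5, p6, p7, p8, p9⟩ := pow_num t0 t1
  have r2 : 0 ≤ t ^ 2 := by positivity
  have r3 : 0 ≤ t ^ 3 := by positivity
  have r4 : 0 ≤ t ^ 4 := by positivity
  have r5 : 0 ≤ t ^ 5 := by positivity
  unfold H178.Cx
  have e1 : 4 * (1000 * t ^ 3) / (m + 2) ≤ 4000 * t ^ 4 := by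
    have e : 4 * (1000 * t ^ 3) / (m + 2) = 4000 * t ^ 3 * (1 / (m + 2)) := by ring
    rw [e]
    have := mul_le_mul_of_nonneg_left n5 (show 0 ≤ 4000 * t ^ 3 by positivity)
    linarith
  have e2 : 27 / 10 * (31 / 5) * (1 / 5 * t ^ 2) + 2 * (31 / 5) * (5 / 2 * t ^ 2
      + 4 * (1000 * t ^ 3) / (m + 2)) + 27 / 10 * (1000 * t ^ 3) ≤ 50 * t ^ 2 := by
    linarith
  have e3 : 0 ≤ 27 / 10 * (31 / 5) * (1 / 5 * t ^ 2) + 2 * (31 / 5) * (5 / 2 * t ^ 2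
      + 4 * (1000 * t ^ 3) / (m + 2)) + 27 / 10 * (1000 * t ^ 3) := by positivity
  have e4 := mul_le_mul n4 e2 e3 (by positivity)
  linarith

/-- the bound of the constant of the third moments -/
lemma Px_le {m : ℝ} (hm : 400 ≤ m) : H178.Px m (27 / 10) (31 / 5) (1 / 5 * (1 / m) ^ 2)
    (5 / 2 * (1 / m) ^ 2) (1000 / m ^ 3) 4 ≤ 26 / 5 * (1 / m) ^ 2 := by
  have hC := Cx_le hm
  obtain ⟨t0, t1, n3, n4, n5, -, -, n8⟩ := inv_num hm
  unfold H178.Px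
  rw [n8] at hC ⊢
  set t := 1 / m with ht
  obtain ⟨p3, p4, p5, p6, p7, p8, p9⟩ := pow_num t0 t1
  have r2 : 0 ≤ t ^ 2 := by positivity
  have r3 : 0 ≤ t ^ 3 := by positivity
  have r4 : 0 ≤ t ^ 4 := by positivity
  have r5 : 0 ≤ t ^ 5 := by positivity
  have e1 : 4 ^ 2 * (1000 * t ^ 3) / (m + 2) ≤ 16000 * t ^ 4 := by
    have e : 4 ^ 2 * (1000 * t ^ 3) / (m + 2) = 16000 * t ^ 3 * (1 / (m + 2)) := by ring
    rw [e]
    have := mul_le_mul_of_nonneg_left n5 (show 0 ≤ 16000 * t ^ 3 by positivity)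
    linarith
  linarith

/-- the quadratic inequality of the third moments -/
lemma quad_num {m : ℝ} (hm : 400 ≤ m) :
    (2 * (1000 / m ^ 3) + 8 / (m * (m + 1)) * (4 * (1000 / m ^ 3)) * (27 / 10 * (31 / 5)))
        * (1 / 5 * (1 / m) ^ 2)
      + (2 * (kq m * (1000 / m ^ 3) + (4 * (1000 / m ^ 3)) ^ 2 / (m + 2))
        + 8 / (m * (m + 1)) * (4 * (1000 / m ^ 3)) * (2 * (31 / 5) * (5 / 2 * (1 / m) ^ 2
          + (4 * (1000 / m ^ 3)) / (m + 2)) + 27 / 10 * (1000 / m ^ 3)))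
      ≤ (m + 2) * (1 / 5 * (1 / m) ^ 2) ^ 2 := by
  obtain ⟨t0, t1, n3, n4, n5, -, n7, n8⟩ := inv_num hm
  have hm0 : 0 < m := by linarith
  rw [n8]
  set t := 1 / m with ht
  set G := 8 / (m * (m + 1)) with hG
  have hG0 : 0 ≤ G := by positivity
  obtain ⟨p3, p4, p5, p6, p7, p8, p9⟩ := pow_num t0 t1
  have r2 : 0 ≤ t ^ 2 := by positivity
  have r3 : 0 ≤ t ^ 3 := by positivity
  have r4 : 0 ≤ t ^ 4 := by positivity
  have r5 : 0 ≤ t ^ 5 := by positivity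
  have t3 : 0 ≤ t ^ 3 := by positivity
  have e1 : 4 * (1000 * t ^ 3) / (m + 2) ≤ 4000 * t ^ 4 := by
    have e : 4 * (1000 * t ^ 3) / (m + 2) = 4000 * t ^ 3 * (1 / (m + 2)) := by ring
    rw [e]
    have := mul_le_mul_of_nonneg_left n5 (show 0 ≤ 4000 * t ^ 3 by positivity)
    linarith
  have e2 : (4 * (1000 * t ^ 3)) ^ 2 / (m + 2) ≤ 16000000 * t ^ 7 := by
    have e : (4 * (1000 * t ^ 3)) ^ 2 / (m + 2) = 16000000 * t ^ 6 * (1 / (m + 2)) := by ring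
    rw [e]
    have := mul_le_mul_of_nonneg_left n5 (show 0 ≤ 16000000 * t ^ 6 by positivity)
    linarith
  have e3 : G * (4 * (1000 * t ^ 3)) ≤ 32000 * t ^ 5 := by
    have := mul_le_mul_of_nonneg_right n4 (show 0 ≤ 4 * (1000 * t ^ 3) by positivity)
    linarith
  have e4 : G * (4 * (1000 * t ^ 3)) * (2 * (31 / 5) * (5 / 2 * t ^ 2
          + (4 * (1000 * t ^ 3)) / (m + 2)) + 27 / 10 * (1000 * t ^ 3))
        ≤ 32000 * t ^ 5 * (38 * t ^ 2 + 50000 * t ^ 4) := by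
    refine mul_le_mul e3 ?_ (by positivity) (by positivity)
    linarith
  have e5 : kq m * (1000 * t ^ 3) ≤ 16000 / 7 * t ^ 5 := by
    have := mul_le_mul_of_nonneg_right n3 (show 0 ≤ 1000 * t ^ 3 by positivity)
    linarith
  have e6 : (2 * (1000 * t ^ 3) + G * (4 * (1000 * t ^ 3)) * (27 / 10 * (31 / 5)))
        * (1 / 5 * t ^ 2) ≤ (2 * (1000 * t ^ 3) + 32000 * t ^ 5 * (27 / 10 * (31 / 5)))
        * (1 / 5 * t ^ 2) := by gcongr
  have e7 : (m + 2) * (1 / 5 * t ^ 2) ^ 2 = 1 / 25 * ((m + 2) * t ^ 4) := by ring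
  rw [e7]
  have e8 : 32000 * t ^ 5 * (38 * t ^ 2 + 50000 * t ^ 4)
      = 1216000 * t ^ 7 + 1600000000 * t ^ 9 := by ring
  have e9 : (2 * (1000 * t ^ 3) + 32000 * t ^ 5 * (27 / 10 * (31 / 5))) * (1 / 5 * t ^ 2)
      = 400 * t ^ 5 + 107136 * t ^ 7 := by ring
  linarith

/-- the facts on the third moments in the box of large dimensions -/
theorem facts_S (h : T0Data μ m x N) (hm : 400 ≤ m) (hL : LSq μ (diagonal j) x N)
    (hd : √(fro (De μ x N)) ≤ 6 / m) (hh' : hh μ (diagonal j) x N ≤ 1000 / m ^ 3) :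
    (∀ a, |j a| ≤ 27 / 10) ∧ uu μ N ≤ 16000 * (1 / m) ^ 3 * hh μ (diagonal j) x N ∧
      2 * (s3 fun a b c => m3 μ N x x a b c ^ 2) + (m + 2) * nX μ x ^ 2
        ≤ 26 / 5 * (1 / m) ^ 2 * hh μ (diagonal j) x N := by
  have hm0 : 0 < m := by linarith
  obtain ⟨n1, n2, n3, n4, n5, n6⟩ := box_num hm
  have hu := e7_S h hm hL hd hh'
  have hH0 : 0 ≤ hh μ (diagonal j) x N := h.hh_nonneg _
  have h1d : 0 < 1 - 6 / m := by linarith
  have hf0 : 0 ≤ fro (De μ x N) := fro_nonneg _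
  have hfb : fro (De μ x N) ≤ (6 / m) ^ 2 := by
    rw [← Real.sq_sqrt hf0]
    exact pow_le_pow_left₀ (Real.sqrt_nonneg _) hd 2
  have hj : ∀ a, |j a| ≤ 27 / 10 := H579.abs_j_le h hm0.le hL n3.le (by linarith) hfb
    (by norm_num) n6
  have hwf : ∑ b, (j b ^ 2 - 1) ^ 2 ≤ (31 / 5) ^ 2 := by
    refine (h.w_fro hm0.le hL n3.le (by linarith) hfb).trans ?_
    refine pow_le_pow_left₀ (by positivity) (le_trans ?_ n5) 2
    gcongr
  obtain ⟨t0, t1, i3, i4, i5, i6, i7, i8⟩ := inv_num hm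
  have hr2 : kq m * (1000 / m ^ 3) ≤ (5 / 2 * (1 / m) ^ 2) ^ 2 := by
    rw [i8]
    set t := 1 / m with ht
    obtain ⟨p3, p4, p5, p6, p7, p8, p9⟩ := pow_num t0 t1
    have e5 : kq m * (1000 * t ^ 3) ≤ 16000 / 7 * t ^ 5 := by
      have := mul_le_mul_of_nonneg_right i3 (show 0 ≤ 1000 * t ^ 3 by positivity)
      linarith
    have e6 : t ^ 5 ≤ 1 / 400 * t ^ 4 := by
      have := mul_le_mul_of_nonneg_right t1 (show 0 ≤ t ^ 4 by positivity)
      rw [show t ^ 5 = t * t ^ 4 by ring]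
      exact this
    have e7 : (5 / 2 * t ^ 2) ^ 2 = 25 / 4 * t ^ 4 := by ring
    rw [e7]
    have : 0 ≤ t ^ 4 := by positivity
    linarith
  obtain ⟨f1, f2, f3, f4, f5, f6⟩ := H178.box_facts h (by linarith) (by norm_num) (by norm_num) hj
    hwf (by positivity) hr2 (show 0 < 1 / 5 * (1 / m) ^ 2 by positivity) (by norm_num) (quad_num hm)
    hh' hu
  refine ⟨hj, f1.trans (le_of_eq ?_), f4.trans (mul_le_mul_of_nonneg_right (Px_le hm) hH0)⟩
  rw [i8]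
  ring

end

end Vale.Agent.P224.R2.H742
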