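import Vale.Agent.P224.R2.H742.SO3

/-!
The scalar inequality of the near law in odd dimension in the box of large dimensions, the end.
-/

namespace Vale.Agent.P224.R2.H742

open MeasureTheory Set Filter Function Real Finset Matrix Vale.Agent.P224.R2.H582
  Vale.Agent.P224.R2.H728

set_option linter.unusedSectionVars false

/-- the real inequality of the box of large dimensions -/
lemma boxS_alg {m t K δ H u Y X2 q0 q1 qa Qp S c0 rel r0' w1 w2 I0 I1 Ik τ : ℝ} (hm : 400 ≤ m)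
    (ht : t = 1 / m) (hK : 0 < K) (hδ : 0 ≤ δ) (hδt : δ ≤ 2 * t)
    (hH : 0 ≤ H) (hu0 : 0 ≤ u) (huH : u ≤ 16000 * t ^ 3 * H) (hY : 0 ≤ Y)
    (hX2 : 0 ≤ X2) (hPH : 2 * Y + (m + 2) * X2 ≤ 26 / 5 * t ^ 2 * H)
    (hq0 : 0 ≤ q0) (k1 : -(2 + 3 * δ ^ 2) * Y - 2 * δ ^ 2 * (u / (m + 1)) ≤ q1)
    (k2 : qa ≤ 1 / 10 * q0 + (3 / (1 / 10) + 4) * (((m + 2) / 2) ^ 2 * X2 + Y)
      + 1 / 4 * (u / (m + 1)))
    (hQ0 : 0 ≤ Qp) (hQ : Qp ≤ 4 * H) (hI0 : w1 + 1 / 10 * Ik ≤ I0) (hI1 : 0 ≤ I1)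
    (hI1b : I1 ≤ K * (1 / 10)) (hIk : 0 ≤ Ik) (hIkk : Ik ≤ K * (1 / 60 * t))
    (hw2 : w2 ≤ K * (6 / 5 * t ^ 2)) (hτ : τ ≤ K * (rel * H)) (hr0 : r0' ≤ K * (1 / 2))
    (hS : c0 * H ≤ S) (hnum : rel + 1 / 2000 ≤ c0) :
    r0' * u + w1 * q0 + w2 * Qp ≤ I0 * q0 + I1 * q1 - Ik * qa + K * S - τ := by
  have hm0 : 0 < m := by linarith
  have ht0 : 0 < t := by rw [ht]; positivity
  have ht1 : t ≤ 1 / 400 := by
    rw [ht]
    exact div_le_div_of_nonneg_left zero_le_one (by norm_num) hm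
  have hmt : m * t = 1 := by rw [ht]; field_simp
  obtain ⟨p3, p4, p5, p6, p7, p8, p9⟩ := pow_num ht0 ht1
  have hum : u / (m + 1) ≤ t * u := by
    rw [ht, div_mul_eq_mul_div, one_mul]
    exact div_le_div_of_nonneg_left hu0 hm0 (by linarith)
  have hum0 : 0 ≤ u / (m + 1) := div_nonneg hu0 (by linarith)
  have t2 : 0 ≤ t ^ 2 := by positivity
  have t3 : 0 ≤ t ^ 3 := by positivity
  have H2 : 0 ≤ t ^ 2 * H := by positivity
  -- the mean normal
  have u1 : u ≤ 40 * t ^ 2 * H := by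
    have := mul_le_mul_of_nonneg_right p3 hH
    linarith
  have u2 : u / (m + 1) ≤ 1 / 10 * t ^ 2 * H := by
    have e1 := mul_le_mul_of_nonneg_left u1 ht0.le
    have e2 := mul_le_mul_of_nonneg_right ht1 H2
    linarith
  have uu1 : u ≤ 1 / 4000 * H := by
    have e2 : t ^ 2 ≤ 1 / 160000 := by
      have := pow_le_pow_left₀ ht0.le ht1 2
      norm_num at this ⊢
      exact this
    have := mul_le_mul_of_nonneg_right e2 hH
    linarith
  have h2s : t ^ 2 * H ≤ 1 / 160000 * H := by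
    have e2 : t ^ 2 ≤ 1 / 160000 := by
      have := pow_le_pow_left₀ ht0.le ht1 2
      norm_num at this ⊢
      exact this
    exact mul_le_mul_of_nonneg_right e2 hH
  -- the third moments
  have hX2' : 0 ≤ (m + 2) * X2 := mul_nonneg (by linarith) hX2
  have a2 : Y ≤ 13 / 5 * t ^ 2 * H := by linarith
  have a1 : ((m + 2) / 2) ^ 2 * X2 + Y ≤ (m + 2) / 4 * (26 / 5 * t ^ 2 * H) := by
    have e1 : ((m + 2) / 2) ^ 2 * X2 + Y
        = (m + 2) / 4 * ((m + 2) * X2) + 1 / 2 * (2 * Y) := by ring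
    have e2 : 1 / 2 * (2 * Y) ≤ (m + 2) / 4 * (2 * Y) :=
      mul_le_mul_of_nonneg_right (by linarith only [hm]) (by linarith only [hY])
    have e3 := mul_le_mul_of_nonneg_left hPH (by linarith only [hm] : 0 ≤ (m + 2) / 4)
    linarith only [e1, e2, e3]
  have a3 : (m + 2) / 4 * (26 / 5 * t ^ 2 * H) ≤ 4 / 3 * t * H := by
    have e1 : (m + 2) * t ^ 2 = t + 2 * t ^ 2 := by
      have : m * t ^ 2 = t := by rw [sq, ← mul_assoc, hmt, one_mul]
      linarith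
    have e2 : (m + 2) / 4 * (26 / 5 * t ^ 2 * H) = 13 / 10 * ((m + 2) * t ^ 2) * H := by ring
    have e3 : t ^ 2 ≤ 1 / 400 * t := by
      rw [sq]
      exact mul_le_mul_of_nonneg_right ht1 ht0.le
    rw [e2, e1]
    have e4 := mul_le_mul_of_nonneg_right e3 hH
    have e5 : 0 ≤ t * H := by positivity
    linarith
  have hδ2 : δ ^ 2 ≤ 1 / 10000 := by
    have e1 : δ ≤ 1 / 200 := by linarith
    have := pow_le_pow_left₀ hδ e1 2
    norm_num at this ⊢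
    linarith
  have hδ20 := sq_nonneg δ
  have b1 : (2 + 3 * δ ^ 2) * Y + 2 * δ ^ 2 * (u / (m + 1)) ≤ 6 * t ^ 2 * H := by
    have e1 : (2 + 3 * δ ^ 2) * Y ≤ (2 + 3 * (1 / 10000)) * (13 / 5 * t ^ 2 * H) :=
      mul_le_mul (by linarith) a2 hY (by norm_num)
    have e2 : 2 * δ ^ 2 * (u / (m + 1)) ≤ 2 * (1 / 10000) * (1 / 10 * t ^ 2 * H) :=
      mul_le_mul (by linarith) u2 hum0 (by norm_num)
    linarith
  -- the terms
  have c1 : -(K * (6 / 10 * t ^ 2 * H)) ≤ I1 * q1 := by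
    have e0 : -(6 * t ^ 2 * H) ≤ q1 := by linarith
    have e1 := mul_le_mul_of_nonneg_left e0 hI1
    have e2 := mul_le_mul_of_nonneg_right hI1b (show 0 ≤ 6 * t ^ 2 * H by positivity)
    linarith
  have c2 : -(1 / 10 * Ik * q0) - K * (8 / 10 * t ^ 2 * H) ≤ -(Ik * qa) := by
    have e0 : qa ≤ 1 / 10 * q0 + 47 * t * H := by
      have e1 : (3 / (1 / 10) + 4) * (((m + 2) / 2) ^ 2 * X2 + Y) ≤ 34 * (4 / 3 * t * H) := by
        norm_num
        linarith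
      have e2 : 1 / 4 * (u / (m + 1)) ≤ t * H := by
        have e3 := mul_le_mul_of_nonneg_right ht1 (show 0 ≤ t * H by positivity)
        have e4 : t ^ 2 * H = t * (t * H) := by ring
        have e5 : 0 ≤ t * H := by positivity
        linarith
      linarith
    have e1 := mul_le_mul_of_nonneg_left e0 hIk
    have e2 := mul_le_mul_of_nonneg_right hIkk (show 0 ≤ 47 * t * H by positivity)
    have e3 : K * (1 / 60 * t) * (47 * t * H) = K * (47 / 60 * (t ^ 2 * H)) := by ring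
    have e4 : K * (47 / 60 * (t ^ 2 * H)) ≤ K * (8 / 10 * t ^ 2 * H) :=
      mul_le_mul_of_nonneg_left (by linarith) hK.le
    linarith
  have c3 : w2 * Qp ≤ K * (24 / 5 * t ^ 2 * H) := by
    have e1 := mul_le_mul_of_nonneg_right hw2 hQ0
    have e2 := mul_le_mul_of_nonneg_left hQ (show 0 ≤ K * (6 / 5 * t ^ 2) by positivity)
    linarith
  have c4 : r0' * u ≤ K * (1 / 8000 * H) := by
    have e1 := mul_le_mul_of_nonneg_right hr0 hu0
    have e2 := mul_le_mul_of_nonneg_left uu1 (show 0 ≤ K * (1 / 2) by positivity)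
    linarith
  have c5 : w1 * q0 + 1 / 10 * Ik * q0 ≤ I0 * q0 := by
    have := mul_le_mul_of_nonneg_right hI0 hq0
    linarith
  have c6 : K * (rel * H + 1 / 2000 * H) ≤ K * S := by
    refine mul_le_mul_of_nonneg_left ?_ hK.le
    have := mul_le_mul_of_nonneg_right hnum hH
    linarith
  have c7 : K * (6 / 10 * t ^ 2 * H + 8 / 10 * t ^ 2 * H + 24 / 5 * t ^ 2 * H + 1 / 8000 * H)
      ≤ K * (1 / 2000 * H) := mul_le_mul_of_nonneg_left (by linarith) hK.le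
  linarith

section

variable {ι Ω : Type*} [Fintype ι] [DecidableEq ι] [MeasurableSpace Ω] {μ : Measure Ω}
  {m : ℝ} {x N : ι → Ω → ℝ} {j : ι → ℝ}

/-- **The scalar inequality in the box of large dimensions.** -/
theorem box_S (h : T0Data μ m x N) (hm : 400 ≤ m) (hL : LSq μ (diagonal j) x N)
    (hd : √(fro (De μ x N)) ≤ 6 / m) (hh' : hh μ (diagonal j) x N ≤ 1000 / m ^ 3)
    {K δ S c0 rel r0' w1 w2 I0 I1 Ik τ : ℝ} (hK : 0 < K) (hδ : 0 ≤ δ) (hδt : δ ≤ 2 * (1 / m))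
    (hI0 : w1 + 1 / 10 * Ik ≤ I0) (hI1 : 0 ≤ I1)
    (hI1b : I1 ≤ K * (1 / 10)) (hIk : 0 ≤ Ik) (hIkk : Ik ≤ K * (1 / 60 * (1 / m)))
    (hw2 : w2 ≤ K * (6 / 5 * (1 / m) ^ 2)) (hτ : τ ≤ K * (rel * hh μ (diagonal j) x N))
    (hr0 : r0' ≤ K * (1 / 2)) (hS : c0 * hh μ (diagonal j) x N ≤ S) (hnum : rel + 1 / 2000 ≤ c0) :
    r0' * uu μ N + w1 * qm μ δ x N 0 + w2 * Qpt μ m x N
      ≤ I0 * qm μ δ x N 0 + I1 * qm μ δ x N 1 - Ik * |qw μ δ x N| + K * S - τ := by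
  have hm0 : 0 < m := by linarith
  have hδ1 : δ ≤ 1 / 16 := by
    have : 1 / m ≤ 1 / 400 := div_le_div_of_nonneg_left zero_le_one (by norm_num) hm
    linarith
  obtain ⟨-, f1, f4⟩ := facts_S h hm hL hd hh'
  have k1 := s_q2_ge h (by linarith) hδ hδ1
  have k2 := abs_w_q2_le h (by linarith) hδ hδ1 (η := 1 / 10) (by norm_num) (by norm_num)
  rw [H178.tc_s3 (m3 μ N x x)] at k1 k2
  rw [H178.nX_sq] at k2
  have eU : (∑ a, m1 μ N a ^ 2) = uu μ N := rfl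
  rw [eU] at k1 k2
  rw [← H178.qm_one] at k1
  rw [← H178.qm_zero (μ := μ) (x := x) (N := N) δ] at k2
  have hq0 : 0 ≤ qm μ δ x N 0 := by
    rw [H178.qm_zero]
    exact integral_nonneg fun q => sq_nonneg _
  exact boxS_alg hm rfl hK hδ hδt (h.hh_nonneg _) h.uu_nonneg f1 (s3_nonneg fun a b c => sq_nonneg _)
    (sq_nonneg _) f4 hq0 k1 k2 (h.Qpt_nonneg hm0.le) (Qpt_le4 h hm0.le (isSymm_diagonal j)) hI0 hI1
    hI1b hIk hIkk hw2 hτ hr0 hS hnum

end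

end Vale.Agent.P224.R2.H742
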