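import Vale.Agent.P224.R2.H742.SO1
import Vale.Agent.P224.R2.H742.SO4
import Vale.Agent.P224.R2.H494.SO3
import Vale.Agent.P224.R2.H662.Inst

/-!
The near law in odd dimension in the box of large dimensions.
-/

namespace Vale.Agent.P224.R2.H742

open MeasureTheory Set Filter Function Real Module Matrix Vale.Agent.P224 Vale.Agent.P224.FV
  Vale.Agent.P224.R2.H925 Vale.Agent.P224.R2.H582 Vale.Agent.P224.R2.H728
open Vale.Agent.P224.SM2 Vale.Agent.P224.R2.H820 Vale.Agent.P224.R2.H424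
  Vale.Agent.P224.R2.H494.ZT Vale.Agent.P224.R2.H355
open scoped RealInnerProductSpace Topology ContDiff Manifold ENNReal

set_option linter.unusedSectionVars false

/-- the thresholds of the odd law -/
structure IsLamO (m : ℕ) (l' : ℝ → ℝ) : Prop where
  low : ∀ T ∈ Ioo (0 : ℝ) 1, T ≤ 1 / 2 →
    l' T = 17 * (1 - T ^ 10) * ((1 - 9 / (5 * m)) / (1 + 7 / (5 * m)))
  high : ∀ T ∈ Ioo (0 : ℝ) 1, 1 / 2 < T →
    l' T = max (94 / 5 - 256 / (5 * (m : ℝ))) ((63 / 5 - 146 / (5 * m)) / (1 - T ^ 2))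

section

variable {m : ℕ} (hm : 400 ≤ m) {L : ℝ} (hL : L * ((m : ℝ) ^ 2 - 1) = 4)
  (s : ZSol ((m : ℝ) / 2) L) {d : ℝ} (hd : 0 ≤ d) (hd2 : d ^ 2 = L) {l' : ℝ → ℝ}
  (hl : IsLamO m l')
include hm hL hd hd2 hl

lemma oddUp_S {T : ℝ} (hT : T ∈ Ioo (0 : ℝ) 1) :
    OddUp m d (K0 ((m : ℝ) / 2) (cn m)) (7 / (5 * m)) l' (uZ s) T := by
  have hmR : (400 : ℝ) ≤ m := by exact_mod_cast hm
  rcases le_or_gt T (1 / 2) with h | h
  · have e := hl.low T hT h
    have hT10 : 0 ≤ T ^ 10 := pow_nonneg hT.1.le 10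
    have hT10' : T ^ 10 ≤ 1 := pow_le_one₀ hT.1.le hT.2.le
    have h9 : 9 / (5 * (m : ℝ)) ≤ 9 / 2000 :=
      div_le_div_of_nonneg_left (by norm_num) (by norm_num) (by linarith)
    have h90 : 0 ≤ 9 / (5 * (m : ℝ)) := by positivity
    have h70 : 0 ≤ 7 / (5 * (m : ℝ)) := by positivity
    have r0 : 0 ≤ (1 - 9 / (5 * (m : ℝ))) / (1 + 7 / (5 * m)) :=
      div_nonneg (by linarith) (by linarith)
    have r1 : (1 - 9 / (5 * (m : ℝ))) / (1 + 7 / (5 * m)) ≤ 1 := by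
      rw [div_le_one (by linarith)]
      linarith
    have e0 : 0 ≤ l' T := by
      rw [e]
      exact mul_nonneg (by linarith) r0
    have e1 : l' T ≤ 17 := by
      rw [e]
      calc 17 * (1 - T ^ 10) * ((1 - 9 / (5 * (m : ℝ))) / (1 + 7 / (5 * m)))
          ≤ 17 * 1 := mul_le_mul (by linarith) r1 r0 (by norm_num)
        _ = 17 := by norm_num
    refine H494.OC.oddUp_Z (by omega) hL s hd hd2 hT (Or.inl (e1.trans ?_)) e0
    have : 2 / (m : ℝ) ≤ 2 / 400 := div_le_div_of_nonneg_left (by norm_num) (by norm_num) hmR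
    linarith
  · exact H494.OC.oddUp_max (by omega) hL s hd hd2 hT (hl.high T hT h)

end

section

variable {m : ℕ} (hm : 400 ≤ m)
include hm

/-- the number of the penalty -/
lemma w2Q_num : (w2Q m : ℝ) ≤ 6 / 5 * (1 / m) ^ 2 := by
  have hmR : (400 : ℝ) ≤ m := by exact_mod_cast hm
  have hm0 : (0 : ℝ) < m := by linarith
  unfold w2Q
  push_cast
  have h1 : (2 : ℝ) / 3 + 569 / (125 * m) ≤ 17 / 25 := by
    have : 569 / (125 * (m : ℝ)) ≤ 569 / (125 * 400) :=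
      div_le_div_of_nonneg_left (by norm_num) (by norm_num) (by linarith)
    linarith
  have h2 : (7 : ℝ) / (2 * (2 * m - 1)) ≤ 7 / 4 * (1002 / 1000) * (1 / m) := by
    rw [mul_one_div, div_le_div_iff₀ (by linarith) hm0]
    linarith
  have h3 : (m : ℝ) / ((m + 2) * (m + 4)) ≤ 1 / m := by
    rw [div_le_div_iff₀ (by positivity) hm0]
    nlinarith
  have h4 : (0 : ℝ) ≤ 7 / (2 * (2 * m - 1)) := by
    have : 0 < 2 * (m : ℝ) - 1 := by linarith
    positivity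
  have h5 : (7 : ℝ) / (2 * (2 * m - 1)) * ((2 / 3 + 569 / (125 * m)) * (m / ((m + 2) * (m + 4))))
      ≤ 7 / 4 * (1002 / 1000) * (1 / m) * (17 / 25 * (1 / m)) := by
    gcongr
  refine h5.trans ?_
  have h6 : 0 ≤ (1 / (m : ℝ)) ^ 2 := sq_nonneg _
  linarith

/-- the number of the mean normal term -/
lemma r0Q_num : (r0Q m : ℝ) ≤ 1 / 2 := by
  have hmR : (400 : ℝ) ≤ m := by exact_mod_cast hm
  have hm0 : (0 : ℝ) < m := by linarith
  unfold r0Q H627.gq2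
  push_cast
  have hsq : 160000 ≤ (m : ℝ) ^ 2 := by nlinarith
  have h1 : 35 / (2 * (m : ℝ) * (m ^ 2 - 1)) ≤ 1 / 1000 := by
    rw [div_le_div_iff₀ (by
      have : 0 < (m : ℝ) ^ 2 - 1 := by linarith
      positivity) (by norm_num)]
    nlinarith
  have h2 : 7 / 10 / (m : ℝ) ≤ 7 / 4000 := by
    rw [div_div, div_le_div_iff₀ (by positivity) (by norm_num)]
    linarith
  have h3 : 51118 / 86625 / (m : ℝ) ^ 2 ≤ 1 / 1000 := by
    rw [div_div, div_le_div_iff₀ (by positivity) (by norm_num)]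
    linarith
  have h10 : 0 ≤ 35 / (2 * (m : ℝ) * (m ^ 2 - 1)) := by
    have : 0 < (m : ℝ) ^ 2 - 1 := by linarith
    positivity
  have e1 : 0 ≤ 7 / 10 / (m : ℝ) := by positivity
  have e2 : 0 ≤ 51118 / 86625 / (m : ℝ) ^ 2 := by positivity
  have h4 := mul_le_mul (add_le_add (le_refl (1 : ℝ)) h1)
    (mul_le_mul_of_nonneg_left (add_le_add (add_le_add (le_refl (2 / 3 : ℝ)) h2) h3)
      (show (0 : ℝ) ≤ 70710678119 / 10 ^ 11 by positivity)) (by positivity) (by norm_num)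
  refine h4.trans ?_
  norm_num

/-- the bounds of the flow integrals -/
lemma flow_num {d L : ℝ} (hL : L * ((m : ℝ) ^ 2 - 1) = 4) (s : ZSol ((m : ℝ) / 2) L)
    (hd : 0 < d) (hd2 : d ^ 2 * ((m : ℝ) ^ 2 - 1) = 4) :
    (4 * (2 * m - 1) * (-(s.P 1)) / ((m : ℝ) ^ 2 - 1)
        + 1 / 10 * (∫ T in (0 : ℝ)..1, kapO m d T) ≤ ∫ T in (0 : ℝ)..1, aQ s 0 T) ∧
    0 ≤ (∫ T in (0 : ℝ)..1, aQ s 1 T) ∧
    (∫ T in (0 : ℝ)..1, aQ s 1 T) ≤ K0 ((m : ℝ) / 2) (cn m) * (1 / 10) ∧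
    (∫ T in (0 : ℝ)..1, aQ s 2 T) = 0 ∧ (∫ T in (0 : ℝ)..1, aQ s 3 T) = 0 ∧
    0 ≤ (∫ T in (0 : ℝ)..1, kapO m d T) ∧
    (∫ T in (0 : ℝ)..1, kapO m d T) ≤ K0 ((m : ℝ) / 2) (cn m) * (1 / 60 * (1 / m)) ∧
    14 * -(s.P 1) / ((m : ℝ) ^ 2 - 1) ≤ K0 ((m : ℝ) / 2) (cn m) * (6 / 5 * (1 / m) ^ 2) ∧
    m * JE s 0 ≤ K0 ((m : ℝ) / 2) (cn m) * (1 / 2) ∧ d / 2 ≤ 2 * (1 / m) := by
  have hm17 : 17 ≤ m := by omega
  have hmR : (400 : ℝ) ≤ m := by exact_mod_cast hm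
  have hm0 : (0 : ℝ) < m := by linarith
  obtain ⟨hdL, -, -⟩ := d_facts hm17 hL hd2
  have hdq := d_le_dQ hm17 hd2
  have hK := K0_pos' hm17
  have hs2 := sqrt_le_K hm17
  set K := K0 ((m : ℝ) / 2) (cn m) with hKd
  have h8 : (8 * (m : ℝ) + 1) / (8 * m - 1) ≤ 1001 / 1000 := by
    rw [div_le_div_iff₀ (by linarith) (by norm_num)]
    linarith
  have hs3 : √2 ≤ K * (1001 / 1000) := hs2.trans (mul_le_mul_of_nonneg_left h8 hK.le)
  have hsl := int_slope (ie_e hm17 hL s) (fun T hT => e_nn hm17 hL s hT)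
    fun T hT => e_bound hm17 hL s hT
  obtain ⟨v0, -, -, v2, v3⟩ := aQ_val hm17 hL s (B := (b1Q m : ℝ)) le_rfl hd hdL
  obtain ⟨ik, ek⟩ := int_kapO (m := m) d
  have bm : ∀ k : ℕ, 4 ≤ k → H627.BM (m + k) ≤ 1 / 16 := by
    intro k hk
    have h1 := H627.BM_sq_le (m := m + k) (by omega)
    have h2 : (0 : ℝ) ≤ 1 / 16 := by norm_num
    have hkR : (4 : ℝ) ≤ k := by exact_mod_cast hk
    refine (le_abs_self _).trans (abs_le_of_sq_le_sq (h1.trans ?_) h2)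
    have hc : ((m + k : ℕ) : ℝ) = m + k := by push_cast; ring
    rw [hc]
    have h3 : 0 < 1 / (4 * ((m : ℝ) + k) - 1) := by
      have : 0 < 4 * ((m : ℝ) + k) - 1 := by linarith
      positivity
    rw [div_le_iff₀ (by linarith)]
    have := Real.pi_lt_d4
    linarith
  have hb4 := bm 4 le_rfl
  have hb6 := bm 6 (by norm_num)
  have hb40 := H627.BM_pos (m := m + 4) (by omega)
  have hb60 := H627.BM_pos (m := m + 6) (by omega)
  have hdm : d / 2 ≤ 101 / 100 * (1 / m) := by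
    refine hdq.trans ?_
    unfold dQ
    push_cast
    have h1 : 1 / (2 * ((m : ℝ) ^ 2 - 1)) ≤ 1 / 100 := by
      refine div_le_div_of_nonneg_left zero_le_one (by norm_num) ?_
      nlinarith
    have h2 := mul_le_mul_of_nonneg_left h1 (show 0 ≤ 1 / (m : ℝ) by positivity)
    linarith
  refine ⟨v0, hsl.2.1, ?_, v2, v3, ?_, ?_, ?_, ?_, ?_⟩
  · refine hsl.2.2.trans ?_
    have h1 : ((m : ℝ) + 1) / (m + 5) * H627.BM (m + 4) ≤ 1 * (1 / 16) := by
      refine mul_le_mul ?_ hb4 hb40.le zero_le_one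
      rw [div_le_one (by linarith)]
      linarith
    have h0 : 0 ≤ ((m : ℝ) + 1) / (m + 5) * H627.BM (m + 4) := by positivity
    have h2 := mul_le_mul (mul_le_mul_of_nonneg_left hs3 (by norm_num : (0 : ℝ) ≤ 6 / 5)) h1 h0
      (by positivity)
    linarith
  · rw [ek]
    positivity
  · rw [ek]
    have h1 : 1 + 10 / ((m : ℝ) + 7) ≤ 103 / 100 := by
      have : 10 / ((m : ℝ) + 7) ≤ 10 / 400 :=
        div_le_div_of_nonneg_left (by norm_num) (by norm_num) (by linarith)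
      linarith
    have h10 : 0 ≤ 1 + 10 / ((m : ℝ) + 7) := by positivity
    have h2 : H627.BM (m + 6) * (1 + 10 / ((m : ℝ) + 7)) ≤ 1 / 16 * (103 / 100) :=
      mul_le_mul hb6 h1 h10 (by norm_num)
    have h3 : d / 10 * √2 ≤ 101 / 500 * (1 / m) * (K * (1001 / 1000)) :=
      mul_le_mul (by linarith) hs3 (by positivity) (by positivity)
    have h4 := mul_le_mul h3 h2 (by positivity) (by positivity)
    have h5 : 0 ≤ K * (1 / m) := by positivity
    linarith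
  · exact pen_le hm17 hL s (w2Q_num hm)
  · exact mean_le hm17 hL s (r0Q_num hm)
  · have : 0 < 1 / (m : ℝ) := by positivity
    linarith

end

end Vale.Agent.P224.R2.H742
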