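import Vale.Agent.P224.R2.H742.SO5

/-!
The near law in odd dimension in the box of large dimensions: assembly.
-/

namespace Vale.Agent.P224.R2.H742

open MeasureTheory Set Filter Function Real Module Matrix Vale.Agent.P224 Vale.Agent.P224.FV
  Vale.Agent.P224.R2.H925 Vale.Agent.P224.R2.H582 Vale.Agent.P224.R2.H728
open Vale.Agent.P224.SM2 Vale.Agent.P224.R2.H820 Vale.Agent.P224.R2.H424
  Vale.Agent.P224.R2.H494.ZT Vale.Agent.P224.R2.H355
open Vale.Agent.P224.R2.H662 (dop dop_symm)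
open scoped RealInnerProductSpace Topology ContDiff Manifold ENNReal

set_option linter.unusedSectionVars false

section

variable {V W M : Type*} [NormedAddCommGroup V] [InnerProductSpace ℝ V] [FiniteDimensional ℝ V]
  [NormedAddCommGroup W] [InnerProductSpace ℝ W] [FiniteDimensional ℝ W]
  [TopologicalSpace M] [ChartedSpace V M]
  [MeasurableSpace V] [BorelSpace V] [MeasurableSpace M] [BorelSpace M]
  [MeasurableSpace W] [BorelSpace W] [IsManifold 𝓘(ℝ, V) ∞ M]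
  [CompactSpace M] [T2Space M]

/-- **the near law in odd dimension in the box of large dimensions** -/
theorem near_odd_S [Nonempty M] [SecondCountableTopology M] {m : ℕ} (hm : 400 ≤ m)
    (hV : finrank ℝ V = m) (hW : finrank ℝ W = finrank ℝ V + 2)
    {F : M → W} (hF : SphImm V F) (hmin : ∀ x n, IsUnitNormal V F x n → meanCurv V F x n = 0)
    {N : M → W} (hNs : ContMDiff 𝓘(ℝ, V) 𝓘(ℝ, W) ∞ N) (hN : ∀ x, IsUnitNormal V F x (N x))
    {ι : Type*} [Fintype ι] [DecidableEq ι] (b : OrthonormalBasis ι ℝ W) {j : ι → ℝ}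
    (h0 : T0Data (nrm (volM V F)) (m : ℝ) (co b F) (co b N))
    (hLS : LSq (nrm (volM V F)) (diagonal j) (co b F) (co b N))
    {L : ℝ} (hL : L * ((m : ℝ) ^ 2 - 1) = 4) (s : ZSol ((m : ℝ) / 2) L)
    {d r : ℝ} (hr : 0 < r) (hr2 : r ^ 2 = (m : ℝ) ^ 2 - 1) (hd : d = 2 / r)
    (hh1 : hh (nrm (volM V F)) (diagonal j) (co b F) (co b N) ≤ 1000 / (m : ℝ) ^ 3)
    (hfd : √(fro (De (nrm (volM V F)) (co b F) (co b N))) ≤ 6 / m)
    {l' : ℝ → ℝ} (hl : IsLamO m l') {rl c0 : ℝ}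
    (htail : H484.AbsTail (volM V F) m F N l'
      (rl * hh (nrm (volM V F)) (diagonal j) (co b F) (co b N)))
    (hS : c0 * hh (nrm (volM V F)) (diagonal j) (co b F) (co b N)
      ≤ ∫ T in (0 : ℝ)..(2 / 25), H460.wq (469 / 1000) (201 / 200) (181 / 50) T
        * (H460.cw m T * H460.LL (nrm (volM V F)) m F (fun x => N x - dop b j (F x)) T))
    (hrel : (1 + 7 / (5 * (m : ℝ))) * rl + 1 / 2000 ≤ c0) :
    NearAtOdd V F N d (s.P 1) (JE s 0) ((m + 1) * (2 * m - 1) / r) (7 / r) (uZ s) := by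
  have hm17 : 17 ≤ m := by omega
  have hmR : (400 : ℝ) ≤ m := by exact_mod_cast hm
  have hm0 : (0 : ℝ) < m := by linarith
  have hm1 : 0 < (m : ℝ) ^ 2 - 1 := by nlinarith
  have hK : 0 < K0 ((m : ℝ) / 2) (cn m) := K0_pos' hm17
  have hd0 : 0 < d := by rw [hd]; positivity
  have hd2 : d ^ 2 * ((m : ℝ) ^ 2 - 1) = 4 := by
    rw [hd, div_pow, hr2, div_mul_cancel₀ _ hm1.ne']
    norm_num
  obtain ⟨hdL, hd1, hdm⟩ := d_facts hm17 hL hd2
  obtain ⟨v0, v1, v1', v2, v3, nIk, kIk, kw2, kr0, kd⟩ := flow_num hm hL s hd0 hd2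
  obtain ⟨ik, -⟩ := int_kapO (m := m) d
  obtain ⟨τ, iτ, hτ, τi⟩ := htail
  have hso : ∀ T ∈ Ioo (0 : ℝ) (2 / 25), _ := fun T hT =>
    H494.OC.so3 hm hT hL s hd0.le hdL (hl.low T ⟨hT.1, hT.2.trans (by norm_num)⟩
      (hT.2.le.trans (by norm_num)))
  have g1p : 0 ≤ 1 + 7 / (5 * (m : ℝ)) := by positivity
  set H := hh (nrm (volM V F)) (diagonal j) (co b F) (co b N) with hH
  have hh0 : 0 ≤ H := h0.hh_nonneg (diagonal j)
  have kτ : K0 ((m : ℝ) / 2) (cn m) * (1 + 7 / (5 * (m : ℝ))) * (∫ T in (0 : ℝ)..1, τ T)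
      ≤ K0 ((m : ℝ) / 2) (cn m) * ((1 + 7 / (5 * (m : ℝ))) * rl * H) := by
    rw [mul_assoc, mul_assoc]
    exact mul_le_mul_of_nonneg_left (mul_le_mul_of_nonneg_left τi g1p) hK.le
  have box := box_S h0 hmR hLS hfd hh1 hK (by positivity : 0 ≤ d / 2) kd
    (r0' := m * JE s 0)
    (w1 := 4 * (2 * m - 1) * (-(s.P 1)) / ((m : ℝ) ^ 2 - 1))
    (w2 := 14 * -(s.P 1) / ((m : ℝ) ^ 2 - 1))
    (I0 := ∫ T in (0 : ℝ)..1, aQ s 0 T) (I1 := ∫ T in (0 : ℝ)..1, aQ s 1 T)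
    (Ik := ∫ T in (0 : ℝ)..1, kapO m d T)
    v0 v1 v1' nIk kIk kw2 kτ kr0 hS hrel
  refine nearAtOdd_S (by omega) hV hW hF hmin hNs hN b (J := dop b j) (dop_symm b j)
    (z := fun x => N x - dop b j (F x)) (fun x => rfl) (Ts := 2 / 25) (by norm_num) (by norm_num)
    (d := d) (K := K0 ((m : ℝ) / 2) (cn m)) (g1 := 7 / (5 * (m : ℝ))) (lmb := 1) (l' := l')
    (w := H460.wq (469 / 1000) (201 / 200) (181 / 50))
    (β := fun T => K0 ((m : ℝ) / 2) (cn m) * (1 - 9 / (5 * m))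
          * (H582.be m (31 / 10) T (eM m T) (rM m T) + H178.xiO m T * PMo m T))
    (τ := fun T => K0 ((m : ℝ) / 2) (cn m) * (1 + 7 / (5 * (m : ℝ))) * τ T) (kap := kapO m d)
    (a := aQ s) hd0.le hd1 zero_le_one (sgn_uZ hm17 hL s)
    (H460.continuous_wq _ _ _).continuousOn
    (fun T hT => oddUp_S hm hL s hd0.le hdL hl hT) (fun T hT => (hso T hT).1)
    (fun T hT => (hso T hT).2.1) (fun T hT => (hso T hT).2.2)
    (aQ_line hm17 hL s hd0.le hdm) (fun T hT => kap_le hd0.le hT (eps_bound hm17 hL s hT)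
    (e_bound hm17 hL s hT)) ?_ (aQ_int hm17 hL s) ik (iτ.const_mul _) ?_
  · intro T hT
    have h1 := mul_le_mul_of_nonneg_left (hτ T hT)
      (show 0 ≤ K0 ((m : ℝ) / 2) (cn m) * (1 + 7 / (5 * (m : ℝ))) by positivity)
    refine le_trans (le_of_eq ?_) (h1.trans (le_of_eq ?_)) <;> ring
  · have e5 : ∫ T in (0 : ℝ)..1, K0 ((m : ℝ) / 2) (cn m) * (1 + 7 / (5 * (m : ℝ))) * τ T
        = K0 ((m : ℝ) / 2) (cn m) * (1 + 7 / (5 * (m : ℝ))) * ∫ T in (0 : ℝ)..1, τ T :=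
      intervalIntegral.integral_const_mul _ _
    rw [v2, v3, e5, hd]
    have e6 : (∑ i, m1 (nrm (volM V F)) (co b N) i ^ 2) = uu (nrm (volM V F)) (co b N) := rfl
    rw [e6, ← hd]
    rw [hd] at box ⊢
    refine rearr (by linarith) hr hr2 (box.trans (le_of_eq ?_))
    ring

end

end Vale.Agent.P224.R2.H742
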