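import Vale.Agent.P224.R2.H742.SO7
import Vale.Agent.P224.R2.H581.RelOdd
import Vale.Agent.P224.R2.H355.Co400

/-!
The tail in the box of large dimensions in odd dimension.
-/

namespace Vale.Agent.P224.R2.H742

open MeasureTheory Set Filter Function Real Module Matrix Vale.Agent.P224 Vale.Agent.P224.FV
  Vale.Agent.P224.R2.H925 Vale.Agent.P224.R2.H582 Vale.Agent.P224.R2.H728
open Vale.Agent.P224.SM2 Vale.Agent.P224.R2.H820 Vale.Agent.P224.R2.H176
open Vale.Agent.P224.R2.H535 (lamO BoxLaw)
open scoped RealInnerProductSpace Topology ContDiff Manifold ENNReal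

set_option linter.unusedSectionVars false

theorem co400_ok : H581.boxUok H355.Co400.cert (1057 / 100000) = true := by decide +kernel

lemma thr_lamO (m : ℕ) : H581.Thr m (lamO m) := by
  refine ⟨fun T hT h => le_of_eq ((isLamO m).low T hT h).symm, fun T hT h => ?_⟩
  rw [(isLamO m).high T hT h]
  exact ⟨le_max_left _ _, le_max_right _ _⟩

section

variable {V W M : Type*} [NormedAddCommGroup V] [InnerProductSpace ℝ V] [FiniteDimensional ℝ V]
  [NormedAddCommGroup W] [InnerProductSpace ℝ W] [FiniteDimensional ℝ W]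
  [TopologicalSpace M] [ChartedSpace V M]
  [MeasurableSpace V] [BorelSpace V] [MeasurableSpace M] [BorelSpace M]
  [MeasurableSpace W] [BorelSpace W] [IsManifold 𝓘(ℝ, V) ∞ M]
  [CompactSpace M] [T2Space M]

/-- the tail in the box of large dimensions -/
theorem tailC_O [Nonempty M] (hm : 400 ≤ finrank ℝ V) (hW : finrank ℝ W = finrank ℝ V + 2)
    {F : M → W} (hF : SphImm V F) (hmin : ∀ x n, IsUnitNormal V F x n → meanCurv V F x n = 0)
    {ν : ℝ} : TailC V F ν (1057 / 100000) := by
  intro N b j hd h1 h2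
  have h := H581.tailU_cert H355.Co400.cert co400_ok rfl (show 400 ≤ finrank ℝ V from hm) hW hF hmin
    (thr_lamO _) N b j hd h1 h2
  refine H581.AbsTail_mono h (le_of_eq ?_)
  push_cast
  rfl

/-- **the law of the box in odd dimension for large dimensions**, from the constant of the box -/
theorem boxLaw_C [Nonempty M] (hm : 400 ≤ finrank ℝ V) (hW : finrank ℝ W = finrank ℝ V + 2)
    {F : M → W} (hF : SphImm V F) (hmin : ∀ x n, IsUnitNormal V F x n → meanCurv V F x n = 0)
    {ν : ℝ} (hC : BoxC V F ν (37 / 2500)) :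
    BoxLaw V F ν (1000 / (finrank ℝ V : ℝ) ^ 3) (6 / (finrank ℝ V : ℝ)) (finrank ℝ V) :=
  boxLaw_S hm hW hF hmin (tailC_O hm hW hF hmin) hC (by norm_num) (by norm_num)

end

end Vale.Agent.P224.R2.H742
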