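import Vale.Agent.P224.R2.H742.Well

/-!
The spectral inequality for odd `m`: from the two wells to symmetric matrices.
-/

namespace Vale.Agent.P224.R2.H742

open Matrix Finset

set_option linter.unusedSectionVars false

/-- the target value, times `r` -/
noncomputable def tg (m : ℝ) : ℝ := l1 m + (m + 1) / 2 * vp m + (m + 3) / 2 * vm m

/-- the value at the Clifford product -/
lemma tg_eq {m : ℝ} (hm : 3 ≤ m) : tg m = al m * (2 * (m ^ 2 - 1) / (m ^ 2 * (m + 3)))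
    + be m * ((m ^ 2 + m + 2) / (m ^ 2 * (m + 3))) := by
  have a1 : m + 1 ≠ 0 := by linarith
  have a2 : m - 1 ≠ 0 := by linarith
  have a3 : m + 3 ≠ 0 := by linarith
  have a4 : m ≠ 0 := by linarith
  unfold tg l1 vp vm al be
  have e3 : m ^ 2 - 1 = (m + 1) * (m - 1) := by ring
  rw [e3]
  field_simp
  ring

section sums

variable {ι : Type*} [Fintype ι] [DecidableEq ι] {m : ℝ} {ν z : ι → ℝ}

lemma sum_F_ge (hm : 3 ≤ m) (hc : (Fintype.card ι : ℝ) = m + 2)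
    (h0 : ∀ i, 0 ≤ ν i) (h1 : ∀ i, ν i ≤ 1)
    (hz : ∀ i, z i ^ 2 ≤ (m - 1) * ν i * (1 - ν i)) (hs : ∑ i, ν i = 1) (hz0 : ∑ i, z i = 0)
    (hp : ((univ.filter fun i => 0 < z i).card : ℝ) ≤ (m + 1) / 2) :
    tg m ≤ ∑ i, F m (ν i) (z i) := by
  set p : ℝ := ((univ.filter fun i => 0 < z i).card : ℝ) with hpd
  have k1 : ∀ i, (if 0 < z i then vp m else vm m)
      ≤ F m (ν i) (z i) - l1 m * ν i - l2 m * z i := by
    intro i
    split_ifs with h
    · exact F_pos hm (h0 i) (h1 i) (hz i) h.le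
    · exact F_neg hm (h0 i) (h1 i) (hz i) (not_lt.1 h)
  have k2 : ∑ i, (if 0 < z i then vp m else vm m) = p * vp m + (m + 2 - p) * vm m := by
    rw [Finset.sum_ite, Finset.sum_const, Finset.sum_const, nsmul_eq_mul, nsmul_eq_mul, ← hpd]
    congr 2
    have h2 := Finset.card_filter_add_card_filter_not (s := (univ : Finset ι))
      (fun i => 0 < z i)
    have h3 : ((univ.filter fun i => ¬ 0 < z i).card : ℝ)
        = (Fintype.card ι : ℝ) - ((univ.filter fun i => 0 < z i).card : ℝ) := by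
      rw [← Finset.card_univ, ← h2]
      push_cast
      ring
    rw [h3, hc]
  have k3 : ∑ i, (F m (ν i) (z i) - l1 m * ν i - l2 m * z i)
      = ∑ i, F m (ν i) (z i) - l1 m := by
    rw [Finset.sum_sub_distrib, Finset.sum_sub_distrib, ← Finset.mul_sum, ← Finset.mul_sum, hs,
      hz0]
    ring
  have k4 := Finset.sum_le_sum fun i (_ : i ∈ (univ : Finset ι)) => k1 i
  rw [k2, k3] at k4
  have k5 := vp_le_vm hm
  unfold tg
  nlinarith [mul_nonneg (sub_nonneg.2 hp) (sub_nonneg.2 k5)]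

/-- one of the two orientations -/
lemma exists_orient (hm : 3 ≤ m) (hc : (Fintype.card ι : ℝ) = m + 2) (ho : Odd (Fintype.card ι))
    (h0 : ∀ i, 0 ≤ ν i) (h1 : ∀ i, ν i ≤ 1)
    (hz : ∀ i, z i ^ 2 ≤ (m - 1) * ν i * (1 - ν i)) (hs : ∑ i, ν i = 1) (hz0 : ∑ i, z i = 0) :
    ∃ σ : ℝ, (σ = 1 ∨ σ = -1) ∧ tg m ≤ ∑ i, F m (ν i) (σ * z i) := by
  obtain ⟨q, hq⟩ := ho
  have hqm : (q : ℝ) = (m + 1) / 2 := by
    have : ((2 * q + 1 : ℕ) : ℝ) = m + 2 := by rw [← hq, hc]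
    push_cast at this
    linarith
  have hd : Disjoint (univ.filter fun i => 0 < z i) (univ.filter fun i => 0 < -z i) := by
    rw [Finset.disjoint_left]
    intro i h2 h3
    simp only [Finset.mem_filter, Finset.mem_univ, true_and] at h2 h3
    linarith
  have hle : (univ.filter fun i => 0 < z i).card + (univ.filter fun i => 0 < -z i).card
      ≤ 2 * q + 1 := by
    rw [← Finset.card_union_of_disjoint hd, ← hq]
    exact Finset.card_le_univ _
  rcases le_or_gt (univ.filter fun i => 0 < z i).card q with h | h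
  · refine ⟨1, Or.inl rfl, ?_⟩
    simp only [one_mul]
    refine sum_F_ge hm hc h0 h1 hz hs hz0 ?_
    rw [← hqm]
    exact_mod_cast h
  · refine ⟨-1, Or.inr rfl, ?_⟩
    refine sum_F_ge hm hc h0 h1 (fun i => ?_) hs ?_ ?_
    · have : (-1 * z i) ^ 2 = z i ^ 2 := by ring
      rw [this]
      exact hz i
    · rw [← Finset.mul_sum, hz0, mul_zero]
    · rw [← hqm]
      have : (univ.filter fun i => 0 < -z i).card ≤ q := by omega
      have e : (univ.filter fun i => 0 < -1 * z i) = univ.filter fun i => 0 < -z i := by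
        simp
      rw [e]
      exact_mod_cast this

/-- the functional in terms of the three invariants (times `r`) -/
noncomputable def Ph (m N T Z : ℝ) : ℝ :=
  w1 m * (((m + 2) ^ 2 * N - (m + 2)) / (m + 1) ^ 2 - 4 * (m + 2) * T / ((m ^ 2 - 1) * (m + 1))
    + 4 * Z / (m ^ 2 - 1) ^ 2) + w2 m * (1 - N - Z / (m - 1)) + al m * T + be m * N

lemma sum_F_eq (hm : 3 ≤ m) (hc : (Fintype.card ι : ℝ) = m + 2) (hs : ∑ i, ν i = 1)
    (hz0 : ∑ i, z i = 0) :
    ∑ i, F m (ν i) (z i) = Ph m (∑ i, ν i ^ 2) (∑ i, ν i * z i) (∑ i, z i ^ 2) := by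
  have a1 : m + 1 ≠ 0 := by linarith
  have a3 : m ^ 2 - 1 ≠ 0 := by nlinarith
  have e : ∀ i, F m (ν i) (z i) = w1 m * ((m + 2) ^ 2 / (m + 1) ^ 2) * ν i ^ 2
      - w1 m * (2 * (m + 2) / (m + 1) ^ 2) * ν i + w1 m / (m + 1) ^ 2
      - w1 m * (4 * (m + 2) / ((m ^ 2 - 1) * (m + 1))) * (ν i * z i)
      + w1 m * (4 / ((m ^ 2 - 1) * (m + 1))) * z i
      + w1 m * (4 / (m ^ 2 - 1) ^ 2) * z i ^ 2 + w2 m * ν i - w2 m * ν i ^ 2
      - w2 m / (m - 1) * z i ^ 2 + al m * (ν i * z i) + be m * ν i ^ 2 := by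
    intro i
    unfold F
    have e1 : (((m + 2) * ν i - 1) / (m + 1) - 2 * z i / (m ^ 2 - 1)) ^ 2
        = (m + 2) ^ 2 / (m + 1) ^ 2 * ν i ^ 2 - 2 * (m + 2) / (m + 1) ^ 2 * ν i + 1 / (m + 1) ^ 2
          - 4 * (m + 2) / ((m ^ 2 - 1) * (m + 1)) * (ν i * z i)
          + 4 / ((m ^ 2 - 1) * (m + 1)) * z i + 4 / (m ^ 2 - 1) ^ 2 * z i ^ 2 := by
      field_simp
      ring
    rw [e1]
    ring
  simp_rw [e]
  simp only [Finset.sum_add_distrib, Finset.sum_sub_distrib, ← Finset.mul_sum, hs, hz0,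
    Finset.sum_const, Finset.card_univ, nsmul_eq_mul, hc]
  unfold Ph
  field_simp
  ring

end sums

lemma Ph_mono {m N N' T Z : ℝ} (hm : 3 ≤ m) (h : N ≤ N') : Ph m N T Z ≤ Ph m N' T Z := by
  have a1 : m + 1 ≠ 0 := by linarith
  have a3 : m ^ 2 - 1 ≠ 0 := by nlinarith
  have e : Ph m N' T Z - Ph m N T Z
      = (w1 m * ((m + 2) ^ 2 / (m + 1) ^ 2) - w2 m + be m) * (N' - N) := by
    unfold Ph
    ring
  have h2 : 0 ≤ w1 m * ((m + 2) ^ 2 / (m + 1) ^ 2) - w2 m + be m := by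
    have e2 : w1 m * ((m + 2) ^ 2 / (m + 1) ^ 2) - w2 m + be m
        = ((2 * m - 1) * (m + 2) ^ 2 * (m - 1) - 7 * (m ^ 2 - 1) - (2 * m - 1) * (2 * m ^ 2)
          + 4 * (m + 2) * (m - 1)) / (m ^ 2 - 1) := by
      unfold w1 w2 be
      have a2 : m - 1 ≠ 0 := by linarith
      have e3 : m ^ 2 - 1 = (m + 1) * (m - 1) := by ring
      rw [e3]
      field_simp
      ring
    rw [e2]
    refine div_nonneg ?_ (by nlinarith)
    have b0 : 0 ≤ m - 3 := by linarith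
    nlinarith [mul_nonneg b0 b0, mul_nonneg (mul_nonneg b0 b0) b0,
      mul_nonneg (mul_nonneg b0 b0) (mul_nonneg b0 b0)]
  have := mul_nonneg h2 (sub_nonneg.2 h)
  linarith

section mats

variable {ι : Type*} [Fintype ι] [DecidableEq ι] {m : ℝ}

lemma exists_diag {K : Matrix ι ι ℝ} (hK : K.IsSymm) :
    ∃ (U : Matrix ι ι ℝ) (z : ι → ℝ), Uᵀ * U = 1 ∧ U * Uᵀ = 1 ∧ Uᵀ * K * U = diagonal z := by
  have hH : K.IsHermitian := by
    rw [Matrix.IsHermitian, Matrix.conjTranspose_eq_transpose_of_trivial]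
    exact hK
  refine ⟨hH.eigenvectorUnitary, hH.eigenvalues, ?_, ?_, ?_⟩
  · have := Unitary.coe_star_mul_self hH.eigenvectorUnitary
    rwa [Matrix.star_eq_conjTranspose, Matrix.conjTranspose_eq_transpose_of_trivial] at this
  · have := Unitary.coe_mul_star_self hH.eigenvectorUnitary
    rwa [Unitary.coe_star, Matrix.star_eq_conjTranspose,
      Matrix.conjTranspose_eq_transpose_of_trivial] at this
  · have := hH.conjStarAlgAut_star_eigenvectorUnitary
    rw [Unitary.conjStarAlgAut_star_apply] at this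
    rw [Matrix.star_eq_conjTranspose, Matrix.conjTranspose_eq_transpose_of_trivial] at this
    rw [this]
    rfl

lemma sum_sq_eq_trace (A : Matrix ι ι ℝ) : ∑ a, ∑ b, A a b ^ 2 = trace (Aᵀ * A) := by
  rw [Finset.sum_comm]
  simp only [trace, diag_apply, mul_apply, transpose_apply, sq]

lemma sum_mul_eq_trace (A B : Matrix ι ι ℝ) : ∑ a, ∑ b, A a b * B a b = trace (Aᵀ * B) := by
  rw [Finset.sum_comm]
  simp only [trace, diag_apply, mul_apply, transpose_apply]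

lemma trace_conj {U : Matrix ι ι ℝ} (hU : U * Uᵀ = 1) (A : Matrix ι ι ℝ) :
    trace (Uᵀ * A * U) = trace A := by
  rw [Matrix.trace_mul_comm, ← Matrix.mul_assoc, hU, Matrix.one_mul]

lemma conj_mul {U : Matrix ι ι ℝ} (hU : U * Uᵀ = 1) (A B : Matrix ι ι ℝ) :
    (Uᵀ * A * U)ᵀ * (Uᵀ * B * U) = Uᵀ * (Aᵀ * B) * U := by
  rw [Matrix.transpose_mul, Matrix.transpose_mul, Matrix.transpose_transpose]
  calc Uᵀ * (Aᵀ * U) * (Uᵀ * B * U) = Uᵀ * Aᵀ * (U * Uᵀ) * B * U := by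
        simp only [Matrix.mul_assoc]
    _ = Uᵀ * (Aᵀ * B) * U := by rw [hU]; simp only [Matrix.mul_assoc, Matrix.one_mul]

/-- the spectral inequality for symmetric matrices -/
theorem spec_matrix (hm : 3 ≤ m) (hc : (Fintype.card ι : ℝ) = m + 2) (ho : Odd (Fintype.card ι))
    {P K : Matrix ι ι ℝ} (hK : K.IsSymm) (trP : ∑ i, P i i = 1) (trK : ∑ i, K i i = 0)
    (hb : ∀ v : ι → ℝ, v ⬝ᵥ v = 1 → 0 ≤ v ⬝ᵥ P *ᵥ v ∧ v ⬝ᵥ P *ᵥ v ≤ 1
      ∧ (v ⬝ᵥ K *ᵥ v) ^ 2 ≤ (m - 1) * (v ⬝ᵥ P *ᵥ v) * (1 - v ⬝ᵥ P *ᵥ v)) :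
    ∃ σ : ℝ, (σ = 1 ∨ σ = -1) ∧
      tg m ≤ Ph m (∑ a, ∑ b, P a b ^ 2) (σ * ∑ a, ∑ b, P a b * K a b) (∑ a, ∑ b, K a b ^ 2) := by
  obtain ⟨U, z, h1, h2, h3⟩ := exists_diag hK
  set Q : Matrix ι ι ℝ := Uᵀ * P * U with hQ
  have hq : ∀ (A : Matrix ι ι ℝ) i, (Uᵀ * A * U) i i = (fun a => U a i) ⬝ᵥ A *ᵥ (fun a => U a i) := by
    intro A i
    rw [Matrix.mul_assoc, Matrix.mul_apply]
    simp only [dotProduct, mulVec, Matrix.mul_apply, transpose_apply]
  have hu : ∀ i, (fun a => U a i) ⬝ᵥ (fun a => U a i) = 1 := by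
    intro i
    have := congrFun (congrFun h1 i) i
    rw [Matrix.mul_apply] at this
    simpa [dotProduct] using this
  have hz : ∀ i, z i = (fun a => U a i) ⬝ᵥ K *ᵥ (fun a => U a i) := by
    intro i
    rw [← hq, h3, diagonal_apply_eq]
  have hν : ∀ i, Q i i = (fun a => U a i) ⬝ᵥ P *ᵥ (fun a => U a i) := fun i => hq P i
  have s1 : ∑ i, Q i i = 1 := by
    have := trace_conj h2 P
    simp only [trace, diag_apply] at this
    rw [hQ, this, trP]
  have s2 : ∑ i, z i = 0 := by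
    have := trace_conj h2 K
    rw [h3] at this
    simp only [trace, diag_apply, diagonal_apply_eq] at this
    rw [this, trK]
  obtain ⟨σ, hσ, hF⟩ := exists_orient (ι := ι) (ν := fun i => Q i i) (z := z) hm hc ho
    (fun i => by rw [hν]; exact (hb _ (hu i)).1) (fun i => by rw [hν]; exact (hb _ (hu i)).2.1)
    (fun i => by rw [hν, hz]; exact (hb _ (hu i)).2.2) s1 s2
  refine ⟨σ, hσ, ?_⟩
  have hσ2 : σ ^ 2 = 1 := by rcases hσ with h | h <;> rw [h] <;> norm_num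
  have s3 : ∑ i, σ * z i = 0 := by rw [← Finset.mul_sum, s2, mul_zero]
  rw [sum_F_eq hm hc s1 s3] at hF
  have e1 : ∑ i, Q i i * (σ * z i) = σ * ∑ a, ∑ b, P a b * K a b := by
    rw [sum_mul_eq_trace, ← trace_conj h2, ← conj_mul h2, h3, ← hQ,
      ← sum_mul_eq_trace, Finset.mul_sum]
    refine Finset.sum_congr rfl fun i _ => ?_
    rw [Finset.sum_eq_single i]
    · rw [diagonal_apply_eq]; ring
    · intro b _ hb
      rw [diagonal_apply_ne _ (Ne.symm hb), mul_zero]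
    · intro h; exact absurd (Finset.mem_univ i) h
  have e2 : ∑ i, (σ * z i) ^ 2 = ∑ a, ∑ b, K a b ^ 2 := by
    rw [sum_sq_eq_trace, ← trace_conj h2, ← conj_mul h2, h3, ← sum_sq_eq_trace]
    refine Finset.sum_congr rfl fun i _ => ?_
    rw [Finset.sum_eq_single i]
    · rw [diagonal_apply_eq, mul_pow, hσ2, one_mul]
    · intro b _ hb
      rw [diagonal_apply_ne _ (Ne.symm hb)]; ring
    · intro h; exact absurd (Finset.mem_univ i) h
  have e3 : ∑ i, Q i i ^ 2 ≤ ∑ a, ∑ b, P a b ^ 2 := by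
    rw [sum_sq_eq_trace P, ← trace_conj h2, ← conj_mul h2, ← sum_sq_eq_trace, ← hQ]
    refine Finset.sum_le_sum fun i _ => ?_
    exact Finset.single_le_sum (f := fun b => Q i b ^ 2) (fun b _ => sq_nonneg _)
      (Finset.mem_univ i)
  rw [e1, e2] at hF
  exact hF.trans (Ph_mono hm e3)

end mats

end Vale.Agent.P224.R2.H742
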