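import Mathlib

/-!
The two wells of the spectral problem for odd `m`: scalar inequalities.

All quantities are multiplied by `r = √(m ^ 2 - 1)`; the variable `z` is `r c`.
-/

namespace Vale.Agent.P224.R2.H742

/-- the coefficient of `tr (P C)` -/
noncomputable def al (m : ℝ) : ℝ := (m ^ 3 + 3 * m ^ 2 - 8) / (m ^ 2 - 1)
/-- `r` times the coefficient of `|P|^2` -/
noncomputable def be (m : ℝ) : ℝ := 4 * (m + 2) / (m + 1)
/-- the multiplier of the trace of `P`, times `r` -/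
noncomputable def l1 (m : ℝ) : ℝ := (3 * m ^ 2 + 9 * m - 8) / (m ^ 2 - 1)
/-- the multiplier of the trace of `C` -/
noncomputable def l2 (m : ℝ) : ℝ := (3 * m ^ 2 + 5 * m - 4) / (m ^ 2 - 1)
/-- the value at the positive well, times `r` -/
noncomputable def vp (m : ℝ) : ℝ := (1 - 3 * m - 2 * m ^ 2) / (m ^ 2 - 1)
/-- the value at the negative well, times `r` -/
noncomputable def vm (m : ℝ) : ℝ := (2 * m - 1) / (m + 1)
/-- the weight of the square, times `r` -/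
noncomputable def w1 (m : ℝ) : ℝ := (m + 1) * (2 * m - 1)
/-- the weight of the slack, times `r` -/
noncomputable def w2 (m : ℝ) : ℝ := 7 + (2 * m - 1) * (2 * m ^ 2) / (m ^ 2 - 1)

/-- the function of one pair -/
noncomputable def F (m ν z : ℝ) : ℝ :=
  w1 m * (((m + 2) * ν - 1) / (m + 1) - 2 * z / (m ^ 2 - 1)) ^ 2
    + w2 m * (ν * (1 - ν) - z ^ 2 / (m - 1)) + al m * ν * z + be m * ν ^ 2

variable {m ν z y : ℝ}

lemma vp_le_vm (hm : 3 ≤ m) : vp m ≤ vm m := by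
  have h : vm m - vp m = 4 * m ^ 2 / (m ^ 2 - 1) := by
    unfold vm vp
    have h1 : m + 1 ≠ 0 := by linarith
    have h2 : m ^ 2 - 1 ≠ 0 := by nlinarith
    field_simp
    ring
  have h2 : 0 ≤ 4 * m ^ 2 / (m ^ 2 - 1) := div_nonneg (by positivity) (by nlinarith)
  linarith

/-- positive well -/
lemma well_pos (hm : 3 ≤ m) (h0 : 0 ≤ ν) (h1 : ν ≤ 1) (hy0 : 0 ≤ y)
    (hy : y ^ 2 = (m - 1) * ν * (1 - ν)) : vp m ≤ F m ν y - l1 m * ν - l2 m * y := by
  have hK : 0 ≤ (m - 1) * (1 - ν) - 2 * (m - 1) * y + (m - 1) ^ 2 * ν := by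
    rcases eq_or_lt_of_le h0 with h | h
    · have : y = 0 := by
        have : y ^ 2 = 0 := by rw [hy, ← h]; ring
        exact pow_eq_zero_iff (two_ne_zero) |>.1 this
      rw [this, ← h]; nlinarith
    · have : 0 ≤ ν * ((m - 1) * (1 - ν) - 2 * (m - 1) * y + (m - 1) ^ 2 * ν) := by
        have e : ν * ((m - 1) * (1 - ν) - 2 * (m - 1) * y + (m - 1) ^ 2 * ν)
            = (y - (m - 1) * ν) ^ 2 := by linear_combination -hy
        rw [e]; positivity
      exact nonneg_of_mul_nonneg_right this h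
  have a1 : m + 1 ≠ 0 := by linarith
  have a2 : m - 1 ≠ 0 := by linarith
  have a3 : m ^ 2 - 1 ≠ 0 := by nlinarith
  have key : F m ν y - l1 m * ν - l2 m * y - vp m
      = w1 m * (((m + 2) * ν - 1) / (m + 1) - 2 * y / (m ^ 2 - 1)) ^ 2
        + (1 / (m - 1) ^ 2) * ((2 * m ^ 2 + 3 * m - 1) / ((m + 1) * (m - 1)) * ((m - 1) * (1 - ν)
            * ((m - 1) * (1 - ν) - 2 * (m - 1) * y + (m - 1) ^ 2 * ν))
          + (m ^ 2 + m + 2) / (m + 1) * (y * ((m - 1) * (1 - ν) - 2 * (m - 1) * y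
            + (m - 1) ^ 2 * ν))
          + (3 * m + 1) / (m + 1) * (y - (m - 1) * ν) ^ 2) := by
    unfold F al be l1 l2 vp w1 w2
    have e3 : m ^ 2 - 1 = (m + 1) * (m - 1) := by ring
    rw [e3]
    field_simp
    linear_combination (-(7 * (m + 1) * (m - 1) + 2 * m ^ 2 * (2 * m - 1))
      + 2 * (m - 1) * (m ^ 2 + m + 2) - (3 * m + 1)) * hy
  have p1 : 0 ≤ w1 m := by unfold w1; nlinarith
  have p2 : 0 ≤ (2 * m ^ 2 + 3 * m - 1) / ((m + 1) * (m - 1)) :=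
    div_nonneg (by nlinarith) (by nlinarith)
  have p3 : 0 ≤ (m ^ 2 + m + 2) / (m + 1) := div_nonneg (by nlinarith) (by linarith)
  have p4 : 0 ≤ (3 * m + 1) / (m + 1) := div_nonneg (by linarith) (by linarith)
  have p5 : 0 ≤ 1 - ν := by linarith
  have p6 : 0 ≤ m - 1 := by linarith
  have : 0 ≤ F m ν y - l1 m * ν - l2 m * y - vp m := by
    rw [key]
    positivity
  linarith

/-- negative well -/
lemma well_neg (hm : 3 ≤ m) (h0 : 0 ≤ ν) (hy0 : 0 ≤ y)
    (hy : y ^ 2 = (m - 1) * ν * (1 - ν)) : vm m ≤ F m ν (-y) - l1 m * ν - l2 m * (-y) := by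
  have hK : 0 ≤ (m - 1) * (1 - ν) - 2 * (m + 1) * y + (m + 1) ^ 2 * ν := by
    rcases eq_or_lt_of_le h0 with h | h
    · have : y = 0 := by
        have : y ^ 2 = 0 := by rw [hy, ← h]; ring
        exact pow_eq_zero_iff (two_ne_zero) |>.1 this
      rw [this, ← h]; nlinarith
    · have : 0 ≤ ν * ((m - 1) * (1 - ν) - 2 * (m + 1) * y + (m + 1) ^ 2 * ν) := by
        have e : ν * ((m - 1) * (1 - ν) - 2 * (m + 1) * y + (m + 1) ^ 2 * ν)
            = (y - (m + 1) * ν) ^ 2 := by linear_combination -hy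
        rw [e]; positivity
      exact nonneg_of_mul_nonneg_right this h
  have a1 : m + 1 ≠ 0 := by linarith
  have a2 : m - 1 ≠ 0 := by linarith
  have a3 : m ^ 2 - 1 ≠ 0 := by nlinarith
  have key : F m ν (-y) - l1 m * ν - l2 m * (-y) - vm m
      = m / ((m + 1) * (m - 1)) * (3 * y * ((m - 1) * (1 - ν) - 2 * (m + 1) * y + (m + 1) ^ 2 * ν)
        + (2 * m - 3) * (y - (m + 1) * ν) ^ 2) := by
    unfold F al be l1 l2 vm w1 w2
    have e3 : m ^ 2 - 1 = (m + 1) * (m - 1) := by ring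
    rw [e3]
    field_simp
    linear_combination (4 * (2 * m - 1) - (7 * (m + 1) * (m - 1) + 2 * m ^ 2 * (2 * m - 1))
      - m * (m - 1) * (-6 * (m + 1) + (2 * m - 3))) * hy
  have p1 : 0 ≤ m / ((m + 1) * (m - 1)) := div_nonneg (by linarith) (by nlinarith)
  have p2 : 0 ≤ 2 * m - 3 := by linarith
  have : 0 ≤ F m ν (-y) - l1 m * ν - l2 m * (-y) - vm m := by
    rw [key]
    positivity
  linarith

/-- no mass in `C` -/
lemma well_zero (hm : 3 ≤ m) (h0 : 0 ≤ ν) (h1 : ν ≤ 1) :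
    vm m ≤ F m ν 0 - l1 m * ν := by
  have a1 : m + 1 ≠ 0 := by linarith
  have a2 : m - 1 ≠ 0 := by linarith
  have a3 : m ^ 2 - 1 ≠ 0 := by nlinarith
  have key : F m ν 0 - l1 m * ν - vm m
      = ν * ((1 - ν) * ((m - 3) / (m ^ 2 - 1))
        + ν * ((2 * m - 1) * (m + 2) * m / (m + 1) + 4 * (m + 2) / (m + 1)
          - (3 * m ^ 2 + 9 * m - 8) / (m ^ 2 - 1))) := by
    unfold F al be l1 vm w1 w2
    have e3 : m ^ 2 - 1 = (m + 1) * (m - 1) := by ring
    rw [e3]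
    field_simp
    ring
  have p1 : 0 ≤ (m - 3) / (m ^ 2 - 1) := div_nonneg (by linarith) (by nlinarith)
  have p2 : 0 ≤ (2 * m - 1) * (m + 2) * m / (m + 1) + 4 * (m + 2) / (m + 1)
          - (3 * m ^ 2 + 9 * m - 8) / (m ^ 2 - 1) := by
    have e : (2 * m - 1) * (m + 2) * m / (m + 1) + 4 * (m + 2) / (m + 1)
          - (3 * m ^ 2 + 9 * m - 8) / (m ^ 2 - 1)
          = (((2 * m - 1) * (m + 2) * m + 4 * (m + 2)) * (m - 1) - (3 * m ^ 2 + 9 * m - 8))
            / (m ^ 2 - 1) := by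
      have e3 : m ^ 2 - 1 = (m + 1) * (m - 1) := by ring
      rw [e3]
      field_simp
    rw [e]
    refine div_nonneg ?_ (by nlinarith)
    nlinarith [mul_nonneg (sub_nonneg.2 hm) (sub_nonneg.2 hm), mul_nonneg (mul_nonneg (sub_nonneg.2 hm) (sub_nonneg.2 hm)) (sub_nonneg.2 hm)]
  have : 0 ≤ F m ν 0 - l1 m * ν - vm m := by
    rw [key]
    have : 0 ≤ 1 - ν := by linarith
    positivity
  linarith

/-- the leading coefficient in `z` -/
lemma lead_nonpos (hm : 3 ≤ m) : w1 m * (2 / (m ^ 2 - 1)) ^ 2 - w2 m / (m - 1) ≤ 0 := by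
  unfold w1 w2
  have a1 : 0 < m + 1 := by linarith
  have a2 : 0 < m - 1 := by linarith
  have e3 : m ^ 2 - 1 = (m + 1) * (m - 1) := by ring
  have e4 : (m + 1) * (2 * m - 1) * (2 / (m ^ 2 - 1)) ^ 2
      = 4 * ((m + 1) * (2 * m - 1)) / ((m + 1) * (m - 1)) ^ 2 := by rw [e3, div_pow]; ring
  rw [e4, e3, sub_nonpos, div_le_div_iff₀ (by positivity) a2]
  have h : (7 : ℝ) ≤ 7 + (2 * m - 1) * (2 * m ^ 2) / ((m + 1) * (m - 1)) := by
    have : 0 ≤ (2 * m - 1) * (2 * m ^ 2) / ((m + 1) * (m - 1)) :=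
      div_nonneg (mul_nonneg (by linarith) (by positivity)) (by positivity)
    linarith
  have h2 : 4 * ((m + 1) * (2 * m - 1)) * (m - 1) ≤ 7 * ((m + 1) * (m - 1)) ^ 2 := by
    have : 4 * (2 * m - 1) ≤ 7 * ((m + 1) * (m - 1)) := by nlinarith
    nlinarith [mul_le_mul_of_nonneg_right this (mul_pos a1 a2).le]
  exact h2.trans (mul_le_mul_of_nonneg_right h (by positivity))

lemma interp_pos (hm : 3 ≤ m) (hy0 : 0 < y) (hz0 : 0 ≤ z) (hzy : z ≤ y) {a b : ℝ}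
    (h1 : a ≤ F m ν 0 - b) (h2 : a ≤ F m ν y - b - l2 m * y) :
    a ≤ F m ν z - b - l2 m * z := by
  have e : y * (F m ν z - b - l2 m * z) = (y - z) * (F m ν 0 - b) + z * (F m ν y - b - l2 m * y)
      + (-(w1 m * (2 / (m ^ 2 - 1)) ^ 2 - w2 m / (m - 1))) * (y * z * (y - z)) := by
    unfold F
    ring
  have h3 : 0 ≤ (-(w1 m * (2 / (m ^ 2 - 1)) ^ 2 - w2 m / (m - 1))) * (y * z * (y - z)) :=
    mul_nonneg (neg_nonneg.2 (lead_nonpos hm)) (mul_nonneg (by positivity) (sub_nonneg.2 hzy))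
  have h4 := mul_le_mul_of_nonneg_left h1 (sub_nonneg.2 hzy)
  have h5 := mul_le_mul_of_nonneg_left h2 hz0
  have h6 : y * a ≤ y * (F m ν z - b - l2 m * z) := by rw [e]; linarith
  exact le_of_mul_le_mul_left h6 hy0

lemma interp_neg (hm : 3 ≤ m) (hy0 : 0 < y) (hz0 : 0 ≤ z) (hzy : z ≤ y) {a b : ℝ}
    (h1 : a ≤ F m ν 0 - b) (h2 : a ≤ F m ν (-y) - b - l2 m * (-y)) :
    a ≤ F m ν (-z) - b - l2 m * (-z) := by
  have e : y * (F m ν (-z) - b - l2 m * (-z))
      = (y - z) * (F m ν 0 - b) + z * (F m ν (-y) - b - l2 m * (-y))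
      + (-(w1 m * (2 / (m ^ 2 - 1)) ^ 2 - w2 m / (m - 1))) * (y * z * (y - z)) := by
    unfold F
    ring
  have h3 : 0 ≤ (-(w1 m * (2 / (m ^ 2 - 1)) ^ 2 - w2 m / (m - 1))) * (y * z * (y - z)) :=
    mul_nonneg (neg_nonneg.2 (lead_nonpos hm)) (mul_nonneg (by positivity) (sub_nonneg.2 hzy))
  have h4 := mul_le_mul_of_nonneg_left h1 (sub_nonneg.2 hzy)
  have h5 := mul_le_mul_of_nonneg_left h2 hz0
  have h6 : y * a ≤ y * (F m ν (-z) - b - l2 m * (-z)) := by rw [e]; linarith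
  exact le_of_mul_le_mul_left h6 hy0

/-- the lower bound in the positive region -/
theorem F_pos (hm : 3 ≤ m) (h0 : 0 ≤ ν) (h1 : ν ≤ 1) (hz : z ^ 2 ≤ (m - 1) * ν * (1 - ν))
    (hz0 : 0 ≤ z) : vp m ≤ F m ν z - l1 m * ν - l2 m * z := by
  have hn : 0 ≤ (m - 1) * ν * (1 - ν) :=
    mul_nonneg (mul_nonneg (by linarith) h0) (by linarith)
  set y := Real.sqrt ((m - 1) * ν * (1 - ν)) with hyd
  have hy : y ^ 2 = (m - 1) * ν * (1 - ν) := Real.sq_sqrt hn
  have hzy : z ≤ y := Real.le_sqrt_of_sq_le hz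
  have c0 := well_zero hm h0 h1
  have c1 := well_pos hm h0 h1 (Real.sqrt_nonneg _) hy
  rcases eq_or_lt_of_le (Real.sqrt_nonneg ((m - 1) * ν * (1 - ν))) with h | h
  · have : z = 0 := le_antisymm (by rw [← h] at hyd; rw [hyd] at hzy; exact hzy) hz0
    rw [this]
    have := vp_le_vm hm
    linarith
  · exact interp_pos hm h hz0 hzy ((vp_le_vm hm).trans c0) c1

/-- the lower bound in the negative region -/
theorem F_neg (hm : 3 ≤ m) (h0 : 0 ≤ ν) (h1 : ν ≤ 1) (hz : z ^ 2 ≤ (m - 1) * ν * (1 - ν))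
    (hz0 : z ≤ 0) : vm m ≤ F m ν z - l1 m * ν - l2 m * z := by
  have hn : 0 ≤ (m - 1) * ν * (1 - ν) :=
    mul_nonneg (mul_nonneg (by linarith) h0) (by linarith)
  set y := Real.sqrt ((m - 1) * ν * (1 - ν)) with hyd
  have hy : y ^ 2 = (m - 1) * ν * (1 - ν) := Real.sq_sqrt hn
  have hzy : -z ≤ y := Real.le_sqrt_of_sq_le (by rw [neg_sq]; exact hz)
  have c0 := well_zero hm h0 h1
  have c1 := well_neg hm h0 (Real.sqrt_nonneg _) hy
  rcases eq_or_lt_of_le (Real.sqrt_nonneg ((m - 1) * ν * (1 - ν))) with h | h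
  · have : z = 0 := by
      refine le_antisymm hz0 ?_
      rw [← h] at hyd
      rw [hyd] at hzy
      linarith
    rw [this]
    linarith
  · have := interp_neg hm h (neg_nonneg.2 hz0) hzy c0 c1
    rwa [neg_neg] at this

end Vale.Agent.P224.R2.H742
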